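import Vale.Agent.Lib.P154_q4.Sig4Point

/-!
Signals for the four-state Potts recursion: functionals, products and the channel.
-/

noncomputable section

open Finset

namespace Vale.Agent.Lib.P154_q4

variable {ι κ : Type*} [Fintype ι] [Fintype κ]

/-- The chi-square functional of a signal. -/
def xx (l : ι → Fin 4 → ℝ) : ℝ := ∑ t, F4 (l t) - 1

/-- The relative-entropy functional of a signal. -/
def DD (l : ι → Fin 4 → ℝ) : ℝ := ∑ t, Dp (l t)

/-- The mean weight of a signal. -/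
def nuS (l : ι → Fin 4 → ℝ) : ℝ := ∑ t, mean4 (l t) * nu (sp (l t))

/-- A likelihood family for a four-valued root, with relabelling symmetry. -/
structure WSig (l : ι → Fin 4 → ℝ) : Prop where
  nonneg : ∀ t i, 0 ≤ l t i
  Mpos : ∀ t, 0 < mean4 (l t)
  tot : ∀ i, ∑ t, l t i = 1
  sym : ∀ σ : Equiv.Perm (Fin 4), ∃ π : Equiv.Perm ι, ∀ t i, l (π t) i = l t (σ i)

/-- Same, with positive entries. -/
structure IsSig (l : ι → Fin 4 → ℝ) : Prop where
  pos : ∀ t i, 0 < l t i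
  tot : ∀ i, ∑ t, l t i = 1
  sym : ∀ σ : Equiv.Perm (Fin 4), ∃ π : Equiv.Perm ι, ∀ t i, l (π t) i = l t (σ i)

theorem IsSig.toW {l : ι → Fin 4 → ℝ} (h : IsSig l) : WSig l where
  nonneg := fun t i => (h.pos t i).le
  Mpos := fun t => mean4_pos_of (h.pos t)
  tot := h.tot
  sym := h.sym

/-- Product of two signals. -/
def prodS (l : ι → Fin 4 → ℝ) (l' : κ → Fin 4 → ℝ) : ι × κ → Fin 4 → ℝ :=
  fun p i => l p.1 i * l' p.2 i

/-- The channel map on a signal. -/
def chan (lam : ℝ) (l : ι → Fin 4 → ℝ) : ι → Fin 4 → ℝ := fun t => chanV lam (l t)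

theorem sum_mean {l : ι → Fin 4 → ℝ} (tot : ∀ i, ∑ t, l t i = 1) : ∑ t, mean4 (l t) = 1 := by
  unfold mean4
  rw [← Finset.sum_div]
  simp only [Finset.sum_add_distrib, tot]
  norm_num

theorem xx_eq {l : ι → Fin 4 → ℝ} (h : WSig l) : xx l = ∑ t, mean4 (l t) * sp (l t) := by
  unfold xx
  have : ∀ t, F4 (l t) = mean4 (l t) + mean4 (l t) * sp (l t) := fun t => by
    rw [F4_mean (h.Mpos t)]
    ring
  simp only [this]
  rw [Finset.sum_add_distrib, sum_mean h.tot]
  ring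

theorem xx_nonneg {l : ι → Fin 4 → ℝ} (h : WSig l) : 0 ≤ xx l := by
  rw [xx_eq h]
  exact Finset.sum_nonneg fun t _ => mul_nonneg (h.Mpos t).le (sp_nonneg (h.Mpos t))

theorem xx_le_three {l : ι → Fin 4 → ℝ} (h : WSig l) : xx l ≤ 3 := by
  rw [xx_eq h]
  calc ∑ t, mean4 (l t) * sp (l t) ≤ ∑ t, mean4 (l t) * 3 :=
        Finset.sum_le_sum fun t _ => mul_le_mul_of_nonneg_left (sp_le_three (h.Mpos t) (h.nonneg t))
          (h.Mpos t).le
    _ = 3 := by rw [← Finset.sum_mul, sum_mean h.tot, one_mul]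

theorem nuS_nonneg {l : ι → Fin 4 → ℝ} (h : WSig l) : 0 ≤ nuS l :=
  Finset.sum_nonneg fun t _ => mul_nonneg (h.Mpos t).le
    (nu_nonneg (sp_nonneg (h.Mpos t)) (sp_le_three (h.Mpos t) (h.nonneg t)))

theorem nuS_le_one {l : ι → Fin 4 → ℝ} (h : WSig l) : nuS l ≤ 1 := by
  unfold nuS
  calc ∑ t, mean4 (l t) * nu (sp (l t)) ≤ ∑ t, mean4 (l t) * 1 :=
        Finset.sum_le_sum fun t _ => mul_le_mul_of_nonneg_left (nu_le_one _) (h.Mpos t).le
    _ = 1 := by rw [← Finset.sum_mul, sum_mean h.tot, one_mul]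

theorem DD_nonneg {l : ι → Fin 4 → ℝ} (h : IsSig l) : 0 ≤ DD l :=
  Finset.sum_nonneg fun t _ => Dp_nonneg (h.pos t)

/-! ### Products: the chi-square functional -/

theorem sum_sigma {l' : κ → Fin 4 → ℝ} {σ : Equiv.Perm (Fin 4)}
    (h : ∃ π : Equiv.Perm κ, ∀ t i, l' (π t) i = l' t (σ i)) (G : (Fin 4 → ℝ) → ℝ) :
    ∑ t, G (fun i => l' t (σ i)) = ∑ t, G (l' t) := by
  obtain ⟨π, hπ⟩ := h
  rw [← Equiv.sum_comp π (fun t => G (l' t))]
  refine Finset.sum_congr rfl fun t _ => ?_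
  congr 1
  funext i
  exact (hπ t i).symm

theorem sum_perm_F4 (a : Fin 4 → ℝ) {l' : κ → Fin 4 → ℝ}
    (h : ∀ σ : Equiv.Perm (Fin 4), ∃ π : Equiv.Perm κ, ∀ t i, l' (π t) i = l' t (σ i)) :
    ∑ t, ∑ σ : Equiv.Perm (Fin 4), F4 (fun i => a i * l' t (σ i))
      = 24 * ∑ t, F4 (fun i => a i * l' t i) := by
  rw [Finset.sum_comm]
  have : ∀ σ : Equiv.Perm (Fin 4), ∑ t, F4 (fun i => a i * l' t (σ i))
      = ∑ t, F4 (fun i => a i * l' t i) := fun σ =>
    sum_sigma (h σ) (fun v => F4 (fun i => a i * v i))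
  simp only [this]
  rw [Finset.sum_const, Finset.card_univ, Fintype.card_perm, Fintype.card_fin]
  norm_num [Nat.factorial]

theorem sum_bilin4 (a s b c : ι → ℝ) (a' s' b' c' : κ → ℝ) :
    ∑ t, ∑ t', (a t * a' t' * (1 + s t + s' t') - b t * c' t' - b' t' * c t)
      = (∑ t, a t) * (∑ t', a' t') + (∑ t, a t * s t) * (∑ t', a' t')
        + (∑ t, a t) * (∑ t', a' t' * s' t') - (∑ t, b t) * (∑ t', c' t')
        - (∑ t', b' t') * (∑ t, c t) := by
  have e : ∀ t t', a t * a' t' * (1 + s t + s' t') - b t * c' t' - b' t' * c t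
      = a t * a' t' + (a t * s t) * a' t' + a t * (a' t' * s' t') - b t * c' t' - b' t' * c t :=
    fun t t' => by ring
  simp only [e]
  simp only [Finset.sum_sub_distrib, Finset.sum_add_distrib, ← Finset.mul_sum, ← Finset.sum_mul]

theorem sum_c {l : ι → Fin 4 → ℝ} (h : WSig l) :
    ∑ t, (mean4 (l t) * sp (l t) - Dp (l t)) = xx l - DD l := by
  rw [Finset.sum_sub_distrib, xx_eq h]
  rfl

/-- The recursion for the chi-square functional under the pointwise inequality. -/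
theorem xx_prod_le (hpt : PointIneq) {l : ι → Fin 4 → ℝ} {l' : κ → Fin 4 → ℝ}
    (h : IsSig l) (h' : IsSig l') :
    xx (prodS l l') ≤ xx l + xx l' - nuS l * (xx l' - DD l') - nuS l' * (xx l - DD l) := by
  have hW := h.toW
  have hW' := h'.toW
  have e1 : ∑ p, F4 (prodS l l' p) = ∑ t, ∑ t', F4 (fun i => l t i * l' t' i) := by
    rw [Fintype.sum_prod_type]
    rfl
  have b : 24 * ∑ t, ∑ t', F4 (fun i => l t i * l' t' i)
      ≤ 24 * ∑ t, ∑ t', (mean4 (l t) * mean4 (l' t') * (1 + sp (l t) + sp (l' t'))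
          - (mean4 (l t) * nu (sp (l t))) * (mean4 (l' t') * sp (l' t') - Dp (l' t'))
          - (mean4 (l' t') * nu (sp (l' t'))) * (mean4 (l t) * sp (l t) - Dp (l t))) := by
    rw [Finset.mul_sum, Finset.mul_sum]
    refine Finset.sum_le_sum fun t _ => ?_
    rw [← sum_perm_F4 (l t) h'.sym, Finset.mul_sum]
    refine Finset.sum_le_sum fun t' _ => ?_
    exact hpt (l t) (l' t') (h.pos t) (h'.pos t')
  rw [sum_bilin4 (fun t => mean4 (l t)) (fun t => sp (l t)) (fun t => mean4 (l t) * nu (sp (l t)))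
    (fun t => mean4 (l t) * sp (l t) - Dp (l t))
    (fun t' => mean4 (l' t')) (fun t' => sp (l' t')) (fun t' => mean4 (l' t') * nu (sp (l' t')))
    (fun t' => mean4 (l' t') * sp (l' t') - Dp (l' t')),
    sum_mean h.tot, sum_mean h'.tot, ← xx_eq hW, ← xx_eq hW', sum_c hW, sum_c hW'] at b
  have b2 := le_of_mul_le_mul_left b (by norm_num : (0 : ℝ) < 24)
  have e2 : xx (prodS l l') = ∑ t, ∑ t', F4 (fun i => l t i * l' t' i) - 1 := by
    unfold xx
    rw [e1]
  rw [e2]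
  unfold nuS
  linarith

/-! ### Products: the entropy functional -/

/-- One half of the entropy of a product. -/
def partP (a b : Fin 4 → ℝ) : ℝ :=
  ((a 0 * b 0 - mean4 (fun i => a i * b i)) * Real.log (a 0)
    + (a 1 * b 1 - mean4 (fun i => a i * b i)) * Real.log (a 1)
    + (a 2 * b 2 - mean4 (fun i => a i * b i)) * Real.log (a 2)
    + (a 3 * b 3 - mean4 (fun i => a i * b i)) * Real.log (a 3)) / 4

theorem mean4_mul_comm (a b : Fin 4 → ℝ) :
    mean4 (fun i => a i * b i) = mean4 (fun i => b i * a i) := by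
  unfold mean4
  ring

theorem Dp_prod_split {a b : Fin 4 → ℝ} (ha : ∀ i, 0 < a i) (hb : ∀ i, 0 < b i) :
    Dp (fun i => a i * b i) = partP a b + partP b a := by
  have hab : ∀ i, 0 < a i * b i := fun i => mul_pos (ha i) (hb i)
  rw [Dp_log hab]
  unfold partP
  rw [← mean4_mul_comm a b]
  have e : ∀ i, Real.log (a i * b i) = Real.log (a i) + Real.log (b i) := fun i =>
    Real.log_mul (ha i).ne' (hb i).ne'
  rw [e, e, e, e]
  have c0 : b 0 * a 0 = a 0 * b 0 := mul_comm _ _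
  have c1 : b 1 * a 1 = a 1 * b 1 := mul_comm _ _
  have c2 : b 2 * a 2 = a 2 * b 2 := mul_comm _ _
  have c3 : b 3 * a 3 = a 3 * b 3 := mul_comm _ _
  rw [c0, c1, c2, c3]
  ring

theorem sum_partP {a : Fin 4 → ℝ} (ha : ∀ i, 0 < a i) {l' : κ → Fin 4 → ℝ}
    (tot : ∀ i, ∑ t, l' t i = 1) : ∑ t, partP a (l' t) = Dp a := by
  rw [Dp_log ha]
  unfold partP
  have hm : ∑ t, mean4 (fun i => a i * l' t i) = mean4 a := by
    unfold mean4
    rw [← Finset.sum_div]
    simp only [Finset.sum_add_distrib, ← Finset.mul_sum, tot, mul_one]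
  rw [← Finset.sum_div]
  simp only [Finset.sum_add_distrib, ← Finset.sum_mul, Finset.sum_sub_distrib, ← Finset.mul_sum, tot,
    hm, mul_one]

/-- The entropy functional is exactly additive under products. -/
theorem DD_prod {l : ι → Fin 4 → ℝ} {l' : κ → Fin 4 → ℝ} (h : IsSig l) (h' : IsSig l') :
    DD (prodS l l') = DD l + DD l' := by
  unfold DD
  rw [Fintype.sum_prod_type]
  change ∑ t, ∑ t', Dp (fun i => l t i * l' t' i) = _
  have : ∀ t t', Dp (fun i => l t i * l' t' i) = partP (l t) (l' t') + partP (l' t') (l t) :=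
    fun t t' => Dp_prod_split (h.pos t) (h'.pos t')
  simp only [this, Finset.sum_add_distrib]
  congr 1
  · refine Finset.sum_congr rfl fun t _ => ?_
    exact sum_partP (h.pos t) h'.tot
  · rw [Finset.sum_comm]
    refine Finset.sum_congr rfl fun t' _ => ?_
    exact sum_partP (h'.pos t') h.tot

theorem prodS_isSig {l : ι → Fin 4 → ℝ} {l' : κ → Fin 4 → ℝ} (h : IsSig l) (h' : IsSig l') :
    IsSig (prodS l l') where
  pos := fun p i => mul_pos (h.pos _ _) (h'.pos _ _)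
  tot := fun i => by
    unfold prodS
    rw [Fintype.sum_prod_type]
    simp only [← Finset.mul_sum, h'.tot, mul_one, h.tot]
  sym := fun σ => by
    obtain ⟨π, hπ⟩ := h.sym σ
    obtain ⟨π', hπ'⟩ := h'.sym σ
    refine ⟨Equiv.prodCongr π π', fun p i => ?_⟩
    unfold prodS
    simp only [Equiv.prodCongr_apply, Prod.map_fst, Prod.map_snd]
    rw [hπ, hπ']

/-! ### The channel -/

theorem mean4_comp (v : Fin 4 → ℝ) (σ : Equiv.Perm (Fin 4)) :
    mean4 (fun i => v (σ i)) = mean4 v := by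
  have := Equiv.sum_comp σ v
  simp only [Fin.sum_univ_four] at this
  unfold mean4
  rw [this]

theorem chan_isSig {l : ι → Fin 4 → ℝ} (h : WSig l) {lam : ℝ} (h0 : 0 ≤ lam) (h1 : lam < 1) :
    IsSig (chan lam l) where
  pos := fun t i => chanV_pos (h.Mpos t) (h.nonneg t) h0 h1 i
  tot := fun i => by
    unfold chan chanV
    rw [Finset.sum_add_distrib, ← Finset.mul_sum, ← Finset.mul_sum, h.tot, sum_mean h.tot]
    ring
  sym := fun σ => by
    obtain ⟨π, hπ⟩ := h.sym σ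
    refine ⟨π, fun t i => ?_⟩
    unfold chan chanV
    have e : l (π t) = fun i => l t (σ i) := by
      funext j
      exact hπ t j
    rw [e, mean4_comp]

theorem xx_chan {l : ι → Fin 4 → ℝ} (h : WSig l) (lam : ℝ) : xx (chan lam l) = lam ^ 2 * xx l := by
  unfold xx chan
  have : ∀ t, F4 (chanV lam (l t)) = lam ^ 2 * F4 (l t) + (1 - lam ^ 2) * mean4 (l t) := fun t =>
    F4_chanV lam (h.Mpos t)
  simp only [this]
  rw [Finset.sum_add_distrib, ← Finset.mul_sum, ← Finset.mul_sum, sum_mean h.tot]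
  ring

theorem nuS_chan_ge {l : ι → Fin 4 → ℝ} (h : WSig l) (lam : ℝ) :
    4 / 3 * (lam ^ 2 * (1 - lam ^ 2)) * xx l ≤ nuS (chan lam l) := by
  rw [xx_eq h, Finset.mul_sum]
  unfold nuS chan
  refine Finset.sum_le_sum fun t _ => ?_
  rw [mean4_chanV]
  have := nu_chanV_ge (lam := lam) (h.Mpos t) (h.nonneg t)
  have h2 := mul_le_mul_of_nonneg_left this (h.Mpos t).le
  linarith

/-- The channel estimate for the entropy functional. -/
theorem DD_chan_le {l : ι → Fin 4 → ℝ} (h : IsSig l) {lam : ℝ} (h0 : 0 ≤ lam) (h1 : lam ≤ 1) (a : ℝ) :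
    DD (chan lam l) ≤ lam ^ 2 * (1 - lam) * xx l + lam ^ 3 * DD l
      - lam ^ 3 * (1 - lam) / 48 * (2 * a * xx l - a ^ 2) := by
  have hW := h.toW
  have key : ∑ t, Dp (chanV lam (l t)) ≤ ∑ t, (lam ^ 2 * (1 - lam) * (mean4 (l t) * sp (l t))
      + lam ^ 3 * Dp (l t)
      - lam ^ 3 * (1 - lam) / 48 * (mean4 (l t) * (2 * a * sp (l t) - a ^ 2))) :=
    Finset.sum_le_sum fun t _ => Dp_chanV_le (h.pos t) h0 h1 a
  have e : ∑ t, (mean4 (l t) * (2 * a * sp (l t) - a ^ 2)) = 2 * a * xx l - a ^ 2 := by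
    have : ∀ t, mean4 (l t) * (2 * a * sp (l t) - a ^ 2)
        = 2 * a * (mean4 (l t) * sp (l t)) - mean4 (l t) * a ^ 2 := fun t => by ring
    simp only [this]
    rw [Finset.sum_sub_distrib, ← Finset.mul_sum, ← Finset.sum_mul, sum_mean h.tot, xx_eq hW, one_mul]
  rw [Finset.sum_sub_distrib, Finset.sum_add_distrib, ← Finset.mul_sum, ← Finset.mul_sum,
    ← Finset.mul_sum, e, ← xx_eq hW] at key
  exact key

theorem DD_chan_bound {l : ι → Fin 4 → ℝ} (h : WSig l) {lam : ℝ} (h0 : 0 ≤ lam) (h1 : lam < 1) :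
    DD (chan lam l) ≤ lam ^ 2 / (1 - lam) * xx l := by
  rw [xx_eq h, Finset.mul_sum]
  exact Finset.sum_le_sum fun t _ => Dp_chanV_bound (h.Mpos t) (h.nonneg t) h0 h1

theorem DD_chan_nonneg {l : ι → Fin 4 → ℝ} (h : WSig l) {lam : ℝ} (h0 : 0 ≤ lam) (h1 : lam < 1) :
    0 ≤ DD (chan lam l) :=
  Finset.sum_nonneg fun t _ => Dp_chanV_nonneg (h.Mpos t) (h.nonneg t) h0 h1

/-! ### Dependent products -/

section
variable {k : ℕ}

/-- The product of a finite family of signals. -/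
def piS {k : ℕ} {ι : Fin k → Type} (l : ∀ c, ι c → Fin 4 → ℝ) : (∀ c, ι c) → Fin 4 → ℝ :=
  fun τ i => ∏ c, l c (τ c) i

theorem piS_isSig {ι : Fin k → Type} [∀ c, Fintype (ι c)] {l : ∀ c, ι c → Fin 4 → ℝ}
    (h : ∀ c, IsSig (l c)) : IsSig (piS l) where
  pos := fun τ i => Finset.prod_pos fun c _ => (h c).pos _ _
  tot := fun i => by
    unfold piS
    have := Finset.prod_univ_sum (fun c : Fin k => (Finset.univ : Finset (ι c))) (fun c t => l c t i)
    rw [Fintype.piFinset_univ] at this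
    rw [← this]
    simp [(h _).tot]
  sym := fun σ => by
    choose π hπ using fun c => (h c).sym σ
    refine ⟨Equiv.piCongrRight π, fun τ i => ?_⟩
    unfold piS
    refine Finset.prod_congr rfl fun c _ => ?_
    exact hπ c (τ c) i

theorem sum_piS_succ {ι : Fin (k + 1) → Type} [∀ c, Fintype (ι c)] (G : (Fin 4 → ℝ) → ℝ)
    (l : ∀ c, ι c → Fin 4 → ℝ) :
    ∑ τ, G (piS l τ) = ∑ p, G (prodS (l 0) (piS fun c : Fin k => l c.succ) p) := by
  rw [← Equiv.sum_comp (Fin.consEquiv ι)]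
  refine Finset.sum_congr rfl fun p _ => ?_
  congr 1
  funext i
  unfold piS prodS
  rw [Fin.prod_univ_succ]
  rfl

theorem xx_piS_succ {ι : Fin (k + 1) → Type} [∀ c, Fintype (ι c)] (l : ∀ c, ι c → Fin 4 → ℝ) :
    xx (piS l) = xx (prodS (l 0) (piS fun c : Fin k => l c.succ)) := by
  unfold xx
  rw [sum_piS_succ F4]

theorem DD_piS_succ {ι : Fin (k + 1) → Type} [∀ c, Fintype (ι c)] (l : ∀ c, ι c → Fin 4 → ℝ) :
    DD (piS l) = DD (prodS (l 0) (piS fun c : Fin k => l c.succ)) := by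
  unfold DD
  rw [sum_piS_succ Dp]

theorem xx_piS_zero {ι : Fin 0 → Type} [∀ c, Fintype (ι c)] (l : ∀ c, ι c → Fin 4 → ℝ) :
    xx (piS l) = 0 := by
  unfold xx piS F4
  simp
  norm_num

theorem DD_piS_zero {ι : Fin 0 → Type} [∀ c, Fintype (ι c)] (l : ∀ c, ι c → Fin 4 → ℝ) :
    DD (piS l) = 0 := by
  unfold DD piS Dp mean4
  simp
  norm_num

/-- The entropy functional of a product of a family is the sum of the entropies. -/
theorem DD_piS {ι : Fin k → Type} [∀ c, Fintype (ι c)] {l : ∀ c, ι c → Fin 4 → ℝ}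
    (h : ∀ c, IsSig (l c)) : DD (piS l) = ∑ c, DD (l c) := by
  induction k with
  | zero => rw [DD_piS_zero]; simp
  | succ k ih =>
    rw [DD_piS_succ, DD_prod (h 0) (piS_isSig fun c => h c.succ), Fin.sum_univ_succ,
      ih (fun c => h c.succ)]

/-- The recursion over a family. -/
theorem xx_piS_le (hpt : PointIneq) {ι : Fin (k + 1) → Type} [∀ c, Fintype (ι c)]
    {l : ∀ c, ι c → Fin 4 → ℝ} (h : ∀ c, IsSig (l c)) :
    xx (piS l) ≤ xx (l 0) + xx (piS fun c : Fin k => l c.succ)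
      - nuS (l 0) * (xx (piS fun c : Fin k => l c.succ) - ∑ c : Fin k, DD (l c.succ))
      - nuS (piS fun c : Fin k => l c.succ) * (xx (l 0) - DD (l 0)) := by
  rw [xx_piS_succ, ← DD_piS (fun c : Fin k => h c.succ)]
  exact xx_prod_le hpt (h 0) (piS_isSig fun c => h c.succ)

end

end Vale.Agent.Lib.P154_q4
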