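import Mathlib

/-!
Real-number lemmas for the recursion of the two functionals.
-/

noncomputable section

open Filter Topology

namespace Vale.Agent.Lib.P154_q4

/-- The estimates for the `k`-fold product. -/
theorem kfold4 {M N : ℕ → ℝ} {x D n w E : ℝ} (hN0 : ∀ k, 0 ≤ N k) (hN1 : ∀ k, N k ≤ 1) (hn0 : 0 ≤ n)
    (hn1 : n ≤ 1) (hMz : M 0 = 0)
    (hMs : ∀ k : ℕ, M (k + 1) ≤ x + M k - n * (M k - k * D) - N k * (x - D))
    (hx : x ≤ w) (hD : D ≤ w - E) (hE : 0 ≤ E) :
    (∀ k : ℕ, M k ≤ k * w) ∧ ∀ k : ℕ, M (k + 2) ≤ (k + 2) * w - n * E := by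
  have step : ∀ k : ℕ, M k ≤ k * w → M (k + 1) ≤ (k + 1) * w - n * (k * E) := by
    intro k hk
    have h := hMs k
    have hk0 : (0 : ℝ) ≤ k := Nat.cast_nonneg k
    have t1 : (1 - n) * M k ≤ (1 - n) * (k * w) := mul_le_mul_of_nonneg_left hk (by linarith)
    have t2 : (n * k) * D ≤ (n * k) * (w - E) := mul_le_mul_of_nonneg_left hD (mul_nonneg hn0 hk0)
    have t3 : (1 - N k) * x ≤ (1 - N k) * w := mul_le_mul_of_nonneg_left hx (by linarith [hN1 k])
    have t4 : N k * D ≤ N k * (w - E) := mul_le_mul_of_nonneg_left hD (hN0 k)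
    have t5 : 0 ≤ N k * E := mul_nonneg (hN0 k) hE
    nlinarith [h, t1, t2, t3, t4, t5]
  have hall : ∀ k : ℕ, M k ≤ k * w := by
    intro k
    induction k with
    | zero => simp [hMz]
    | succ k ih =>
      have h := step k ih
      have h0 : 0 ≤ n * (k * E) := mul_nonneg hn0 (mul_nonneg (Nat.cast_nonneg k) hE)
      push_cast
      linarith
  refine ⟨hall, fun k => ?_⟩
  have h := step (k + 1) (hall (k + 1))
  have h0 : n * E ≤ n * (((k + 1 : ℕ) : ℝ) * E) := by
    apply mul_le_mul_of_nonneg_left _ hn0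
    have hk0 : (0 : ℝ) ≤ k := Nat.cast_nonneg k
    push_cast
    nlinarith
  push_cast at h h0 ⊢
  linarith

/-- A decreasing nonnegative sequence with cubic gain tends to zero. -/
theorem cubic_tendsto {Y : ℕ → ℝ} {κ : ℝ} (hκ : 0 < κ) (h0 : ∀ n, 0 ≤ Y n)
    (hs : ∀ n, Y (n + 1) ≤ Y n - κ * Y n ^ 3) : Tendsto Y atTop (𝓝 0) := by
  have hanti : Antitone Y := by
    apply antitone_nat_of_succ_le
    intro n
    have h2 := hs n
    have h3 : 0 ≤ κ * Y n ^ 3 := mul_nonneg hκ.le (pow_nonneg (h0 n) 3)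
    linarith
  have hbdd : BddBelow (Set.range Y) := by
    refine ⟨0, ?_⟩
    rintro _ ⟨n, rfl⟩
    exact h0 n
  have hlim := tendsto_atTop_ciInf hanti hbdd
  set L := ⨅ i, Y i with hL
  have hlim1 : Tendsto (fun n => Y (n + 1)) atTop (𝓝 L) :=
    (tendsto_add_atTop_iff_nat 1).2 hlim
  have hlim2 : Tendsto (fun n => Y n - κ * Y n ^ 3) atTop (𝓝 (L - κ * L ^ 3)) :=
    hlim.sub ((hlim.pow 3).const_mul _)
  have hle' : L ≤ L - κ * L ^ 3 := le_of_tendsto_of_tendsto' hlim1 hlim2 hs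
  have hL0 : 0 ≤ L := ge_of_tendsto' hlim h0
  have hL3 : L ^ 3 ≤ 0 := by
    by_contra hneg
    push Not at hneg
    have : 0 < κ * L ^ 3 := mul_pos hκ hneg
    linarith
  have hLz : L = 0 := by
    have h3 : L ^ 3 = 0 := le_antisymm hL3 (pow_nonneg hL0 3)
    exact pow_eq_zero_iff (by norm_num) |>.1 h3
  rw [hLz] at hlim
  exact hlim

/-- The Lyapunov recursion for the pair of functionals. -/
theorem lyap_tendsto {X Z : ℕ → ℝ} {K r g : ℝ} (hX0 : ∀ n, 0 ≤ X n) (hK0 : 0 ≤ K) (hK1 : K ≤ 1)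
    (hr0 : 0 ≤ r) (hr1 : r < 1) (hg0 : 0 ≤ g) (hg : 0 < g ∨ K = 0)
    (hstep : ∀ (n : ℕ) (y : ℝ), X n ≤ y → Z n ≤ y →
      X (n + 1) ≤ K * ((1 - r) * X n + r * y) - g * X n ^ 3
        ∧ Z (n + 1) ≤ K * ((1 - r) * X n + r * y) - g * X n ^ 3) :
    Tendsto X atTop (𝓝 0) := by
  rcases hg with hg | hK
  · -- the Lyapunov function
    set Y : ℕ → ℝ := fun n => max (X n) (Z n) with hY
    have hY0 : ∀ n, 0 ≤ Y n := fun n => (hX0 n).trans (le_max_left _ _)
    have hbr : ∀ n, (1 - r) * X n + r * Y n ≤ Y n := by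
      intro n
      have h1 : X n ≤ Y n := le_max_left _ _
      nlinarith
    have hbr0 : ∀ n, 0 ≤ (1 - r) * X n + r * Y n := by
      intro n
      have h1 := hX0 n
      have h2 := hY0 n
      have h3 : 0 ≤ 1 - r := by linarith
      positivity
    have hsY : ∀ n, Y (n + 1) ≤ (1 - r) * X n + r * Y n - g * X n ^ 3 := by
      intro n
      obtain ⟨h1, h2⟩ := hstep n (Y n) (le_max_left _ _) (le_max_right _ _)
      have h3 : K * ((1 - r) * X n + r * Y n) ≤ 1 * ((1 - r) * X n + r * Y n) :=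
        mul_le_mul_of_nonneg_right hK1 (hbr0 n)
      rw [one_mul] at h3
      exact max_le (by linarith) (by linarith)
    have hanti : ∀ n, Y (n + 1) ≤ Y n := by
      intro n
      have h1 := hsY n
      have h2 := hbr n
      have h3 : 0 ≤ g * X n ^ 3 := mul_nonneg hg0 (pow_nonneg (hX0 n) 3)
      linarith
    have hbnd : ∀ n, Y n ≤ Y 0 := by
      intro n
      induction n with
      | zero => exact le_rfl
      | succ n ih => exact (hanti n).trans ih
    -- the constant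
    set B := Y 0 + 1 with hB
    have hBpos : 0 < B := by have := hY0 0; linarith
    set κ := min ((1 - r) / (3 * B ^ 2)) g with hκ
    have hκ0 : 0 < κ := lt_min (div_pos (by linarith) (by positivity)) hg
    have hκ1 : κ * (3 * B ^ 2) ≤ 1 - r := by
      have : κ ≤ (1 - r) / (3 * B ^ 2) := min_le_left _ _
      rwa [le_div_iff₀ (by positivity)] at this
    have hκ2 : κ ≤ g := min_le_right _ _
    have hYt : Tendsto Y atTop (𝓝 0) := by
      refine cubic_tendsto hκ0 hY0 fun n => ?_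
      have h1 := hsY n
      have hx0 := hX0 n
      have hy0 := hY0 n
      have hxy : X n ≤ Y n := le_max_left _ _
      have hyB : Y n ≤ B := by have := hbnd n; linarith
      -- the gain bound
      have a1 : Y n ^ 3 - X n ^ 3 ≤ 3 * B ^ 2 * (Y n - X n) := by
        have e : Y n ^ 3 - X n ^ 3 = (Y n - X n) * (Y n ^ 2 + Y n * X n + X n ^ 2) := by ring
        rw [e]
        have h2 : Y n ^ 2 + Y n * X n + X n ^ 2 ≤ 3 * B ^ 2 := by
          have b1 : Y n ^ 2 ≤ B ^ 2 := by nlinarith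
          have b2 : Y n * X n ≤ B * B := mul_le_mul hyB (hxy.trans hyB) hx0 hBpos.le
          have b3 : X n ^ 2 ≤ B ^ 2 := by nlinarith
          nlinarith
        have h3 : 0 ≤ Y n - X n := by linarith
        nlinarith
      have a2 : κ * (Y n ^ 3 - X n ^ 3) ≤ (1 - r) * (Y n - X n) := by
        have : κ * (Y n ^ 3 - X n ^ 3) ≤ κ * (3 * B ^ 2 * (Y n - X n)) :=
          mul_le_mul_of_nonneg_left a1 hκ0.le
        have h4 : (κ * (3 * B ^ 2)) * (Y n - X n) ≤ (1 - r) * (Y n - X n) :=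
          mul_le_mul_of_nonneg_right hκ1 (by linarith)
        nlinarith
      have a3 : κ * X n ^ 3 ≤ g * X n ^ 3 := mul_le_mul_of_nonneg_right hκ2 (pow_nonneg hx0 3)
      nlinarith
    refine tendsto_of_tendsto_of_tendsto_of_le_of_le tendsto_const_nhds hYt hX0
      fun n => le_max_left _ _
  · -- the recursion vanishes after one step
    subst hK
    have h1 : ∀ n, X (n + 1) = 0 := by
      intro n
      obtain ⟨h2, -⟩ := hstep n (max (X n) (Z n)) (le_max_left _ _) (le_max_right _ _)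
      have h3 : 0 ≤ g * X n ^ 3 := mul_nonneg hg0 (pow_nonneg (hX0 n) 3)
      exact le_antisymm (by linarith) (hX0 _)
    rw [← tendsto_add_atTop_iff_nat 1]
    simp only [h1]
    exact tendsto_const_nhds

end Vale.Agent.Lib.P154_q4
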