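import Vale.Agent.Lib.P154.Defs
import Vale.Agent.Lib.P154_q4.Sig4
import Vale.Agent.Lib.P154_q4.Sig4Scalar

/-!
The likelihoods of the `d`-ary tree with four spin values form a signal, level by level.
-/

noncomputable section

open Finset Filter Topology

namespace Vale.Agent.Lib.P154_q4

open Vale.Agent.Lib.P154

/-- The likelihood family at level `n`. -/
def lev (d : ℕ) (lam : ℝ) (n : ℕ) : LeafSpins d 4 n → Fin 4 → ℝ :=
  fun τ i => leafLik d 4 lam n i τ

theorem sum_potts4 (lam : ℝ) (i : Fin 4) (v : Fin 4 → ℝ) :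
    ∑ j : Fin 4, potts 4 lam i j * v j = chanV lam v i := by
  unfold potts chanV mean4
  simp only [Fin.sum_univ_four]
  push_cast
  fin_cases i <;> simp <;> ring

theorem lev_succ (d : ℕ) (lam : ℝ) (n : ℕ) :
    lev d lam (n + 1) = piS (fun _ : Fin d => chan lam (lev d lam n)) := by
  funext τ i
  unfold lev piS chan
  change ∏ c : Fin d, ∑ j : Fin 4, potts 4 lam i j * leafLik d 4 lam n j (τ c) = _
  refine Finset.prod_congr rfl fun c _ => ?_
  rw [sum_potts4]

theorem mean4_vertex (t : Fin 4) : 0 < mean4 (fun i => if i = t then (1 : ℝ) else 0) := by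
  unfold mean4
  fin_cases t <;> simp

theorem lev_zero_wsig (d : ℕ) (lam : ℝ) : WSig (lev d lam 0) where
  nonneg := fun t i => by
    change 0 ≤ (if i = spinAtZero t then (1 : ℝ) else 0)
    split_ifs <;> norm_num
  Mpos := fun t => mean4_vertex (spinAtZero t)
  tot := fun i => by
    change ∑ t : Fin 4, (if i = t then (1 : ℝ) else 0) = 1
    simp
  sym := fun σ => by
    refine ⟨σ.symm, fun t i => ?_⟩
    change (if i = σ.symm (spinAtZero t) then (1 : ℝ) else 0) = (if σ i = spinAtZero t then (1 : ℝ) else 0)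
    have : i = σ.symm (spinAtZero t) ↔ σ i = spinAtZero t := by
      rw [Equiv.eq_symm_apply]
    simp only [this]

theorem lev_wsig (d : ℕ) {lam : ℝ} (h0 : 0 ≤ lam) (h1 : lam < 1) : ∀ n, WSig (lev d lam n)
  | 0 => lev_zero_wsig d lam
  | n + 1 => by
    rw [lev_succ]
    exact (piS_isSig fun _ => chan_isSig (lev_wsig d h0 h1 n) h0 h1).toW

theorem lev_succ_isSig (d : ℕ) {lam : ℝ} (h0 : 0 ≤ lam) (h1 : lam < 1) (n : ℕ) :
    IsSig (lev d lam (n + 1)) := by
  rw [lev_succ]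
  exact piS_isSig fun _ => chan_isSig (lev_wsig d h0 h1 n) h0 h1

/-! ### Powers of one signal -/

section
variable {ι : Type} [Fintype ι]

/-- The estimates for a power of one signal. -/
theorem power_bound (hpt : PointIneq) {l : ι → Fin 4 → ℝ} (h : IsSig l) {w E : ℝ} (hx : xx l ≤ w)
    (hD : DD l ≤ w - E) (hE : 0 ≤ E) (k : ℕ) :
    xx (piS (fun _ : Fin (k + 2) => l)) ≤ (k + 2) * w - nuS l * E := by
  have hsig : ∀ k : ℕ, IsSig (piS (fun _ : Fin k => l)) := fun k => piS_isSig fun _ => h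
  refine (kfold4 (M := fun k => xx (piS (fun _ : Fin k => l)))
    (N := fun k => nuS (piS (fun _ : Fin k => l))) (x := xx l) (D := DD l) (n := nuS l) (w := w) (E := E)
    (fun k => nuS_nonneg (hsig k).toW) (fun k => nuS_le_one (hsig k).toW) (nuS_nonneg h.toW)
    (nuS_le_one h.toW) (xx_piS_zero _) (fun k => ?_) hx hD hE).2 k
  have := xx_piS_le hpt (k := k) (l := fun _ => l) (fun _ => h)
  simp only [Finset.sum_const, Finset.card_univ, Fintype.card_fin, nsmul_eq_mul] at this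
  linarith

theorem DD_power {l : ι → Fin 4 → ℝ} (h : IsSig l) (k : ℕ) :
    DD (piS (fun _ : Fin k => l)) = k * DD l := by
  rw [DD_piS fun _ => h]
  simp only [Finset.sum_const, Finset.card_univ, Fintype.card_fin, nsmul_eq_mul]

end

/-! ### The step of the recursion -/

/-- The cubic coefficient. -/
def gC (lam : ℝ) : ℝ := 4 / 3 * (lam ^ 2 * (1 - lam ^ 2)) * (lam ^ 3 * (1 - lam) / 48)

theorem gC_nonneg {lam : ℝ} (h0 : 0 ≤ lam) (h1 : lam < 1) : 0 ≤ gC lam := by
  unfold gC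
  have h2 : 0 ≤ 1 - lam := by linarith
  have h3 : 0 ≤ 1 - lam ^ 2 := by nlinarith
  positivity

theorem gC_pos {lam : ℝ} (h0 : 0 < lam) (h1 : lam < 1) : 0 < gC lam := by
  unfold gC
  have h2 : 0 < 1 - lam := by linarith
  have h3 : 0 < 1 - lam ^ 2 := by nlinarith
  positivity

/-- The pointwise ingredients of one step: a signal `l` at some level, its image `c` under the
channel, and the resulting bounds for any power of the image. -/
theorem chan_ingredients {ι : Type} [Fintype ι] {l : ι → Fin 4 → ℝ} (h : IsSig l) {lam y : ℝ}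
    (h0 : 0 ≤ lam) (h1 : lam < 1) (hx : xx l ≤ y) (hz : DD l ≤ y) :
    xx (chan lam l) ≤ lam ^ 2 * ((1 - lam) * xx l + lam * y)
      ∧ DD (chan lam l) ≤ lam ^ 2 * ((1 - lam) * xx l + lam * y)
          - lam ^ 3 * (1 - lam) / 48 * xx l ^ 2
      ∧ 4 / 3 * (lam ^ 2 * (1 - lam ^ 2)) * xx l ≤ nuS (chan lam l) := by
  have hW := h.toW
  have hx0 := xx_nonneg hW
  refine ⟨?_, ?_, nuS_chan_ge hW lam⟩
  · rw [xx_chan hW]
    have h2 : lam * xx l ≤ lam * y := mul_le_mul_of_nonneg_left hx h0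
    have h3 : 0 ≤ lam ^ 2 := sq_nonneg lam
    nlinarith [mul_le_mul_of_nonneg_left h2 h3]
  · have h2 := DD_chan_le h h0 h1.le (xx l)
    have h3 : lam ^ 3 * DD l ≤ lam ^ 3 * y := mul_le_mul_of_nonneg_left hz (by positivity)
    nlinarith

theorem lev_step (hpt : PointIneq) {d : ℕ} (hd : 2 ≤ d) {lam : ℝ} (h0 : 0 ≤ lam) (h1 : lam < 1)
    (n : ℕ) (y : ℝ) (hx : xx (lev d lam (n + 1)) ≤ y) (hz : DD (lev d lam (n + 1)) ≤ y) :
    xx (lev d lam (n + 1 + 1))
        ≤ ((d : ℝ) * lam ^ 2) * ((1 - lam) * xx (lev d lam (n + 1)) + lam * y)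
          - gC lam * xx (lev d lam (n + 1)) ^ 3
      ∧ DD (lev d lam (n + 1 + 1))
        ≤ ((d : ℝ) * lam ^ 2) * ((1 - lam) * xx (lev d lam (n + 1)) + lam * y)
          - gC lam * xx (lev d lam (n + 1)) ^ 3 := by
  have hS := lev_succ_isSig d h0 h1 n
  set l := lev d lam (n + 1) with hl
  have hC : IsSig (chan lam l) := chan_isSig hS.toW h0 h1
  obtain ⟨i1, i2, i3⟩ := chan_ingredients hS h0 h1 hx hz
  set ξ := xx l with hξ
  have hξ0 : 0 ≤ ξ := xx_nonneg hS.toW
  set w := lam ^ 2 * ((1 - lam) * ξ + lam * y) with hw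
  set c := lam ^ 3 * (1 - lam) / 48 with hc
  have hc0 : 0 ≤ c := by
    have : 0 ≤ 1 - lam := by linarith
    positivity
  have hE : 0 ≤ c * ξ ^ 2 := by positivity
  have hd' : (2 : ℝ) ≤ d := by exact_mod_cast hd
  have hn1 : nuS (chan lam l) ≤ 1 := nuS_le_one hC.toW
  have hb : 4 / 3 * (lam ^ 2 * (1 - lam ^ 2)) * ξ * (c * ξ ^ 2) ≤ nuS (chan lam l) * (c * ξ ^ 2) :=
    mul_le_mul_of_nonneg_right i3 hE
  have eg : gC lam * ξ ^ 3 = 4 / 3 * (lam ^ 2 * (1 - lam ^ 2)) * ξ * (c * ξ ^ 2) := by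
    unfold gC
    rw [hc]
    ring
  have edw : ((d : ℝ) * lam ^ 2) * ((1 - lam) * ξ + lam * y) = d * w := by
    rw [hw]
    ring
  rw [edw, eg]
  obtain ⟨k, hk⟩ : ∃ k, d = k + 2 := ⟨d - 2, by omega⟩
  have e1 : lev d lam (n + 1 + 1) = piS (fun _ : Fin d => chan lam l) := lev_succ d lam (n + 1)
  constructor
  · have h2 : xx (lev d lam (n + 1 + 1)) = xx (piS (fun _ : Fin d => chan lam l)) := by
      rw [e1]
      rfl
    rw [h2]
    subst hk
    have h3 := power_bound hpt hC i1 (E := c * ξ ^ 2) (by linarith) hE k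
    push_cast
    linarith
  · have h2 : DD (lev d lam (n + 1 + 1)) = DD (piS (fun _ : Fin d => chan lam l)) := by
      rw [e1]
      rfl
    rw [h2, DD_power hC]
    have h3 : (d : ℝ) * DD (chan lam l) ≤ d * (w - c * ξ ^ 2) :=
      mul_le_mul_of_nonneg_left i2 (by linarith)
    have h4 : nuS (chan lam l) * (c * ξ ^ 2) ≤ 1 * (c * ξ ^ 2) := mul_le_mul_of_nonneg_right hn1 hE
    nlinarith

theorem xx_lev_tendsto (hpt : PointIneq) {d : ℕ} (hd : 2 ≤ d) {lam : ℝ} (h0 : 0 ≤ lam)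
    (hKS : (d : ℝ) * lam ^ 2 ≤ 1) : Tendsto (fun n => xx (lev d lam (n + 1))) atTop (𝓝 0) := by
  have hd' : (2 : ℝ) ≤ d := by exact_mod_cast hd
  have hl2 : lam ^ 2 ≤ 1 / 2 := by nlinarith [sq_nonneg lam]
  have h1 : lam < 1 := by nlinarith
  refine lyap_tendsto (Z := fun n => DD (lev d lam (n + 1))) (K := (d : ℝ) * lam ^ 2) (r := lam)
    (g := gC lam) (fun n => xx_nonneg (lev_succ_isSig d h0 h1 n).toW) (by positivity) hKS h0 h1
    (gC_nonneg h0 h1) ?_ (fun n y hx hz => lev_step hpt hd h0 h1 n y hx hz)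
  rcases h0.eq_or_lt with rfl | hpos
  · right
    ring
  · left
    exact gC_pos hpos h1

/-! ### From the functional to the advantage -/

theorem abs_le_tangent (z δ : ℝ) (hδ : 0 < δ) : |z| ≤ δ / 2 + z ^ 2 / (2 * δ) := by
  have h : z ^ 2 / (2 * δ) = |z| ^ 2 / (2 * δ) := by rw [sq_abs]
  rw [h, div_add_div _ _ (by norm_num) (by positivity), le_div_iff₀ (by positivity)]
  nlinarith [sq_nonneg (|z| - δ), mul_pos hδ hδ]

theorem point_adv {v : Fin 4 → ℝ} (hm : 0 < mean4 v) (δ : ℝ) (hδ : 0 < δ) :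
    mean4 v * ((1 / 2) * (|(1 / 4) * v 0 / mean4 v - 1 / 4| + |(1 / 4) * v 1 / mean4 v - 1 / 4|
        + |(1 / 4) * v 2 / mean4 v - 1 / 4| + |(1 / 4) * v 3 / mean4 v - 1 / 4|))
      ≤ mean4 v * δ + (mean4 v * sp v) / (16 * δ) := by
  have e : ∀ i, (1 / 4) * v i / mean4 v - 1 / 4 = uC v i / 4 := fun i => by
    unfold uC
    ring
  rw [e, e, e, e, sp_uC hm]
  have t := fun i => abs_le_tangent (uC v i / 4) δ hδ
  have hsum : (1 / 2) * (|uC v 0 / 4| + |uC v 1 / 4| + |uC v 2 / 4| + |uC v 3 / 4|)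
      ≤ δ + ((uC v 0 ^ 2 + uC v 1 ^ 2 + uC v 2 ^ 2 + uC v 3 ^ 2) / 4) / (16 * δ) := by
    have e2 : (uC v 0 / 4) ^ 2 / (2 * δ) + (uC v 1 / 4) ^ 2 / (2 * δ) + (uC v 2 / 4) ^ 2 / (2 * δ)
        + (uC v 3 / 4) ^ 2 / (2 * δ)
        = 2 * (((uC v 0 ^ 2 + uC v 1 ^ 2 + uC v 2 ^ 2 + uC v 3 ^ 2) / 4) / (16 * δ)) := by
      field_simp
      ring
    have t0 := t 0
    have t1 := t 1
    have t2 := t 2
    have t3 := t 3
    linarith
  have := mul_le_mul_of_nonneg_left hsum hm.le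
  refine this.trans_eq ?_
  ring

theorem advantage_le {d : ℕ} {lam : ℝ} {n : ℕ} (hW : WSig (lev d lam n)) (δ : ℝ) (hδ : 0 < δ) :
    advantage d 4 lam n ≤ δ + xx (lev d lam n) / (16 * δ) := by
  have key : advantage d 4 lam n ≤ ∑ τ, (mean4 (lev d lam n τ) * δ
      + (mean4 (lev d lam n τ) * sp (lev d lam n τ)) / (16 * δ)) := by
    unfold advantage
    refine Finset.sum_le_sum fun τ _ => ?_
    have hp := point_adv (hW.Mpos τ) δ hδ
    have e1 : leafProb d 4 lam n τ = mean4 (lev d lam n τ) := by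
      unfold leafProb lev mean4
      rw [Fin.sum_univ_four]
      push_cast
      ring
    have e2 : ∀ i : Fin 4, rootPost d 4 lam n i τ = (1 / 4) * lev d lam n τ i / mean4 (lev d lam n τ) := by
      intro i
      unfold rootPost
      rw [e1]
      push_cast
      rfl
    rw [e1, Fin.sum_univ_four]
    simp only [e2]
    push_cast
    exact hp
  refine key.trans ?_
  rw [Finset.sum_add_distrib, ← Finset.sum_mul, ← Finset.sum_div, sum_mean hW.tot, ← xx_eq hW, one_mul]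

theorem advantage_nonneg {d : ℕ} {lam : ℝ} {n : ℕ} (hW : WSig (lev d lam n)) :
    0 ≤ advantage d 4 lam n := by
  unfold advantage
  refine Finset.sum_nonneg fun τ _ => mul_nonneg ?_ ?_
  · unfold leafProb
    refine Finset.sum_nonneg fun i _ => mul_nonneg (by positivity) ?_
    exact hW.nonneg τ i
  · exact mul_nonneg (by norm_num) (Finset.sum_nonneg fun i _ => abs_nonneg _)

/-- Main theorem for the `d`-ary tree under the pointwise inequality. -/
theorem advantage_tendsto (hpt : PointIneq) {d : ℕ} (hd : 2 ≤ d) {lam : ℝ} (h0 : 0 ≤ lam)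
    (hKS : (d : ℝ) * lam ^ 2 ≤ 1) : Tendsto (advantage d 4 lam) atTop (𝓝 0) := by
  have hd' : (2 : ℝ) ≤ d := by exact_mod_cast hd
  have hl2 : lam ^ 2 ≤ 1 / 2 := by nlinarith [sq_nonneg lam]
  have h1 : lam < 1 := by nlinarith
  have hy := xx_lev_tendsto hpt hd h0 hKS
  rw [Metric.tendsto_atTop]
  intro ε hε
  have hev := (tendsto_order.1 hy).2 (ε ^ 2) (by positivity)
  obtain ⟨N, hN⟩ := Filter.eventually_atTop.1 hev
  refine ⟨N + 1, fun n hn => ?_⟩
  obtain ⟨m, rfl⟩ : ∃ m, n = m + 1 := ⟨n - 1, by omega⟩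
  have hS := lev_succ_isSig d h0 h1 m
  have h3 := hN m (by omega)
  have h4 := advantage_le hS.toW (ε / 2) (by positivity)
  have h5 := advantage_nonneg hS.toW
  have h6 : xx (lev d lam (m + 1)) / (16 * (ε / 2)) < ε / 2 := by
    rw [div_lt_iff₀ (by positivity)]
    nlinarith
  rw [Real.dist_eq, sub_zero, abs_of_nonneg h5]
  linarith

end Vale.Agent.Lib.P154_q4
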