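import Vale.Agent.Lib.P154.DefsGW
import Vale.Agent.Lib.P154.Scalar
import Vale.Agent.Lib.P154_q4.Tree4

/-!
The recursion of means on Galton-Watson trees with four spin values.
-/

noncomputable section

open Finset Filter Topology

namespace Vale.Agent.Lib.P154_q4

open Vale.Agent.Lib.P154

/-- The likelihood family of a truncated tree. -/
def glev (lam : ℝ) (n : ℕ) (T : GWTree n) : GWSpins 4 n T → Fin 4 → ℝ :=
  fun τ i => gwLik 4 lam n T i τ

theorem glev_succ (lam : ℝ) (n : ℕ) (T : GWTree (n + 1)) :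
    glev lam (n + 1) T = piS (fun c : Fin T.1 => chan lam (glev lam n (T.2 c))) := by
  funext τ i
  unfold glev piS chan
  change ∏ c : Fin T.1, ∑ j : Fin 4, potts 4 lam i j * gwLik 4 lam n (T.2 c) j (τ c) = _
  refine Finset.prod_congr rfl fun c _ => ?_
  rw [sum_potts4]

theorem glev_zero_wsig (lam : ℝ) (T : GWTree 0) : WSig (glev lam 0 T) where
  nonneg := fun t i => by
    change 0 ≤ (if i = gwSpinAtZero t then (1 : ℝ) else 0)
    split_ifs <;> norm_num
  Mpos := fun t => mean4_vertex (gwSpinAtZero t)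
  tot := fun i => by
    change ∑ t : Fin 4, (if i = t then (1 : ℝ) else 0) = 1
    simp
  sym := fun σ => by
    refine ⟨σ.symm, fun t i => ?_⟩
    change (if i = σ.symm (gwSpinAtZero t) then (1 : ℝ) else 0)
      = (if σ i = gwSpinAtZero t then (1 : ℝ) else 0)
    have : i = σ.symm (gwSpinAtZero t) ↔ σ i = gwSpinAtZero t := by
      rw [Equiv.eq_symm_apply]
    simp only [this]

theorem glev_wsig {lam : ℝ} (h0 : 0 ≤ lam) (h1 : lam < 1) :
    ∀ (n : ℕ) (T : GWTree n), WSig (glev lam n T)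
  | 0, T => glev_zero_wsig lam T
  | n + 1, T => by
    rw [glev_succ]
    exact (piS_isSig fun c => chan_isSig (glev_wsig h0 h1 n _) h0 h1).toW

theorem glev_succ_isSig {lam : ℝ} (h0 : 0 ≤ lam) (h1 : lam < 1) (n : ℕ) (T : GWTree (n + 1)) :
    IsSig (glev lam (n + 1) T) := by
  rw [glev_succ]
  exact piS_isSig fun c => chan_isSig (glev_wsig h0 h1 n _) h0 h1

theorem chan_glev_isSig {lam : ℝ} (h0 : 0 ≤ lam) (h1 : lam < 1) (n : ℕ) (T : GWTree n) :
    IsSig (chan lam (glev lam n T)) :=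
  chan_isSig (glev_wsig h0 h1 n T) h0 h1

theorem gwWeight_wprob {p : ℕ → ℝ} (hp : WProb p) : ∀ n, WProb (gwWeight p n)
  | 0 => by
    refine ⟨fun _ => zero_le_one, ?_⟩
    have : HasSum (fun _ : Unit => (1 : ℝ)) 1 := by
      simpa using hasSum_unique (fun _ : Unit => (1 : ℝ))
    exact this
  | n + 1 => by
    have := hp.mix (gwWeight_wprob hp n)
    exact this

/-! ### The `k`-fold means -/

/-- The product of `k` children with given subtrees. -/
def sigK (lam : ℝ) (n k : ℕ) (ts : Fin k → GWTree n) :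
    ((c : Fin k) → GWSpins 4 n (ts c)) → Fin 4 → ℝ :=
  piS (fun c : Fin k => chan lam (glev lam n (ts c)))

theorem sigK_isSig {lam : ℝ} (h0 : 0 ≤ lam) (h1 : lam < 1) (n k : ℕ) (ts : Fin k → GWTree n) :
    IsSig (sigK lam n k ts) :=
  piS_isSig fun c => chan_isSig (glev_wsig h0 h1 n _) h0 h1

theorem xx_glev_succ (lam : ℝ) (n : ℕ) (T : GWTree (n + 1)) :
    xx (glev lam (n + 1) T) = xx (sigK lam n T.1 T.2) := by
  rw [glev_succ]
  rfl

theorem chan_glev_succ (lam : ℝ) (n : ℕ) (T : GWTree (n + 1)) :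
    DD (chan lam (glev lam (n + 1) T)) = DD (chan lam (sigK lam n T.1 T.2)) := by
  rw [glev_succ]
  rfl

/-- The general bilinear formula for means under product weights. -/
theorem Ew_bilin4 {X Y : Type} {w : X → ℝ} {v : Y → ℝ} (hw : WProb w) (hv : WProb v) {f F K : X → ℝ}
    {g G H : Y → ℝ} (hf : BddF f) (hF : BddF F) (hK : BddF K) (hg : BddF g) (hG : BddF G)
    (hH : BddF H) :
    Ew (fun p : X × Y => w p.1 * v p.2)
        (fun p => f p.1 + g p.2 - F p.1 * (g p.2 - G p.2) - H p.2 * (f p.1 - K p.1))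
      = Ew w f + Ew v g - Ew w F * (Ew v g - Ew v G) - Ew v H * (Ew w f - Ew w K) := by
  have hu := hw.prod hv
  have bfst : ∀ {a : X → ℝ}, BddF a → BddF (fun p : X × Y => a p.1) := by
    intro a ha
    obtain ⟨C, hC⟩ := ha
    exact ⟨C, fun p => hC _⟩
  have bsnd : ∀ {a : Y → ℝ}, BddF a → BddF (fun p : X × Y => a p.2) := by
    intro a ha
    obtain ⟨C, hC⟩ := ha
    exact ⟨C, fun p => hC _⟩
  have mulb : ∀ {a : X → ℝ} {b : Y → ℝ}, BddF a → BddF b → BddF (fun p : X × Y => a p.1 * b p.2) := by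
    intro a b ha hb
    obtain ⟨C, hC⟩ := ha
    obtain ⟨D, hD⟩ := hb
    refine ⟨C * D, fun p => ?_⟩
    rw [abs_mul]
    exact mul_le_mul (hC _) (hD _) (abs_nonneg _) ((abs_nonneg _).trans (hC p.1))
  have e : (fun p : X × Y => f p.1 + g p.2 - F p.1 * (g p.2 - G p.2) - H p.2 * (f p.1 - K p.1))
      = fun p => ((((f p.1 + g p.2) - F p.1 * g p.2) + F p.1 * G p.2) - f p.1 * H p.2) + K p.1 * H p.2 := by
    funext p
    ring
  have b1 := bfst hf
  have b2 := bsnd hg
  have b3 := mulb hF hg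
  have b4 := mulb hF hG
  have b5 := mulb hf hH
  have b6 := mulb hK hH
  rw [e, Ew_add hu (((((b1.add b2).sub b3).add b4).sub b5)) b6,
    Ew_sub hu (((b1.add b2).sub b3).add b4) b5, Ew_add hu ((b1.add b2).sub b3) b4,
    Ew_sub hu (b1.add b2) b3, Ew_add hu b1 b2, Ew_prod_fst hw hv hf, Ew_prod_snd hw hv hg,
    Ew_prod_mul hw hv hF hg, Ew_prod_mul hw hv hF hG, Ew_prod_mul hw hv hf hH,
    Ew_prod_mul hw hv hK hH]
  ring

section means
variable {p : ℕ → ℝ} {lam : ℝ}

theorem bdd_xx_sigK (h0 : 0 ≤ lam) (h1 : lam < 1) (n k : ℕ) :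
    BddF (fun ts : Fin k → GWTree n => xx (sigK lam n k ts)) :=
  BddF.of_Icc (a := 0) (b := 3) fun ts =>
    ⟨xx_nonneg (sigK_isSig h0 h1 n k ts).toW, xx_le_three (sigK_isSig h0 h1 n k ts).toW⟩

theorem bdd_nu_sigK (h0 : 0 ≤ lam) (h1 : lam < 1) (n k : ℕ) :
    BddF (fun ts : Fin k → GWTree n => nuS (sigK lam n k ts)) :=
  BddF.of_Icc (a := 0) (b := 1) fun ts =>
    ⟨nuS_nonneg (sigK_isSig h0 h1 n k ts).toW, nuS_le_one (sigK_isSig h0 h1 n k ts).toW⟩

theorem bdd_cx (h0 : 0 ≤ lam) (h1 : lam < 1) (n : ℕ) :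
    BddF (fun T : GWTree n => xx (chan lam (glev lam n T))) :=
  BddF.of_Icc (a := 0) (b := 3) fun T =>
    ⟨xx_nonneg (chan_glev_isSig h0 h1 n T).toW, xx_le_three (chan_glev_isSig h0 h1 n T).toW⟩

theorem bdd_cn (h0 : 0 ≤ lam) (h1 : lam < 1) (n : ℕ) :
    BddF (fun T : GWTree n => nuS (chan lam (glev lam n T))) :=
  BddF.of_Icc (a := 0) (b := 1) fun T =>
    ⟨nuS_nonneg (chan_glev_isSig h0 h1 n T).toW, nuS_le_one (chan_glev_isSig h0 h1 n T).toW⟩

theorem cD_bounds (h0 : 0 ≤ lam) (h1 : lam < 1) (n : ℕ) (T : GWTree n) :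
    0 ≤ DD (chan lam (glev lam n T)) ∧ DD (chan lam (glev lam n T)) ≤ lam ^ 2 / (1 - lam) * 3 := by
  have hW := glev_wsig h0 h1 n T
  refine ⟨DD_chan_nonneg hW h0 h1, (DD_chan_bound hW h0 h1).trans ?_⟩
  apply mul_le_mul_of_nonneg_left (xx_le_three hW)
  have : 0 < 1 - lam := by linarith
  positivity

theorem bdd_cD (h0 : 0 ≤ lam) (h1 : lam < 1) (n : ℕ) :
    BddF (fun T : GWTree n => DD (chan lam (glev lam n T))) :=
  BddF.of_Icc (a := 0) (b := lam ^ 2 / (1 - lam) * 3) fun T => cD_bounds h0 h1 n T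

theorem DD_sigK_eq (h0 : 0 ≤ lam) (h1 : lam < 1) (n k : ℕ) (ts : Fin k → GWTree n) :
    DD (sigK lam n k ts) = ∑ c, DD (chan lam (glev lam n (ts c))) :=
  DD_piS fun c => chan_glev_isSig h0 h1 n (ts c)

theorem bdd_DD_sigK (h0 : 0 ≤ lam) (h1 : lam < 1) (n k : ℕ) :
    BddF (fun ts : Fin k → GWTree n => DD (sigK lam n k ts)) := by
  refine BddF.of_Icc (a := 0) (b := ∑ _c : Fin k, lam ^ 2 / (1 - lam) * 3) fun ts => ?_
  rw [DD_sigK_eq h0 h1]
  exact ⟨Finset.sum_nonneg fun c _ => (cD_bounds h0 h1 n (ts c)).1,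
    Finset.sum_le_sum fun c _ => (cD_bounds h0 h1 n (ts c)).2⟩

/-- Mean of the entropy of a `k`-fold product. -/
theorem Ew_DD_sigK (h0 : 0 ≤ lam) (h1 : lam < 1) {n : ℕ} {w : GWTree n → ℝ} (hw : WProb w) (k : ℕ) :
    Ew (wPow w k) (fun ts => DD (sigK lam n k ts)) = k * Ew w (fun T => DD (chan lam (glev lam n T))) := by
  induction k with
  | zero =>
    have : ∀ ts : Fin 0 → GWTree n, DD (sigK lam n 0 ts) = 0 := fun ts => by
      unfold sigK
      exact DD_piS_zero _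
    rw [Ew_congr _ (fun _ => (0 : ℝ)) this, Ew_const (hw.pow 0)]
    simp
  | succ k ih =>
    rw [Ew_pow_succ]
    have e : ∀ q : GWTree n × (Fin k → GWTree n),
        DD (sigK lam n (k + 1) (Fin.consEquiv (fun _ : Fin (k + 1) => GWTree n) q))
          = DD (chan lam (glev lam n q.1)) + DD (sigK lam n k q.2) := by
      intro q
      rw [DD_sigK_eq h0 h1, DD_sigK_eq h0 h1, Fin.sum_univ_succ]
      rfl
    rw [Ew_congr _ _ e, Ew_add (hw.prod (hw.pow k))
        (f := fun q : GWTree n × (Fin k → GWTree n) => DD (chan lam (glev lam n q.1)))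
        (g := fun q : GWTree n × (Fin k → GWTree n) => DD (sigK lam n k q.2)) ?_ ?_,
      Ew_prod_fst hw (hw.pow k) (bdd_cD h0 h1 n), Ew_prod_snd hw (hw.pow k) (bdd_DD_sigK h0 h1 n k), ih]
    · push_cast
      ring
    · obtain ⟨C, hC⟩ := bdd_cD h0 h1 n
      exact ⟨C, fun q => hC _⟩
    · obtain ⟨C, hC⟩ := bdd_DD_sigK h0 h1 n k
      exact ⟨C, fun q => hC _⟩

/-- The upper bound for `xx` of a product is bounded, for fixed `k`. -/
theorem bdd_rhs (h0 : 0 ≤ lam) (h1 : lam < 1) (n k : ℕ) :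
    BddF (fun ts : Fin (k + 1) → GWTree n =>
      xx (chan lam (glev lam n (ts 0))) + xx (sigK lam n k (fun c => ts c.succ))
        - nuS (chan lam (glev lam n (ts 0)))
          * (xx (sigK lam n k (fun c => ts c.succ)) - DD (sigK lam n k (fun c => ts c.succ)))
        - nuS (sigK lam n k (fun c => ts c.succ))
          * (xx (chan lam (glev lam n (ts 0))) - DD (chan lam (glev lam n (ts 0))))) := by
  have hfst : ∀ {a : GWTree n → ℝ}, BddF a → BddF (fun ts : Fin (k + 1) → GWTree n => a (ts 0)) := by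
    intro a ha
    obtain ⟨C, hC⟩ := ha
    exact ⟨C, fun p => hC _⟩
  have hsnd : ∀ {a : (Fin k → GWTree n) → ℝ}, BddF a →
      BddF (fun ts : Fin (k + 1) → GWTree n => a (fun c => ts c.succ)) := by
    intro a ha
    obtain ⟨C, hC⟩ := ha
    exact ⟨C, fun p => hC _⟩
  have hmul : ∀ {a b : (Fin (k + 1) → GWTree n) → ℝ}, BddF a → BddF b → BddF (fun ts => a ts * b ts) := by
    intro a b ha hb
    obtain ⟨C, hC⟩ := ha
    obtain ⟨D, hD⟩ := hb
    refine ⟨C * D, fun p => ?_⟩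
    rw [abs_mul]
    exact mul_le_mul (hC _) (hD _) (abs_nonneg _) ((abs_nonneg _).trans (hC p))
  have a1 := hfst (bdd_cx h0 h1 n)
  have a2 := hfst (bdd_cn h0 h1 n)
  have a3 := hfst (bdd_cD h0 h1 n)
  have b1 := hsnd (bdd_xx_sigK h0 h1 n k)
  have b2 := hsnd (bdd_nu_sigK h0 h1 n k)
  have b3 := hsnd (bdd_DD_sigK h0 h1 n k)
  exact ((a1.add b1).sub (hmul a2 (b1.sub b3))).sub (hmul b2 (a1.sub a3))

/-- Mean recursion for the chi-square functional. -/
theorem M_succ (hpt : PointIneq) (h0 : 0 ≤ lam) (h1 : lam < 1) {n : ℕ} {w : GWTree n → ℝ} (hw : WProb w)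
    (k : ℕ) :
    Ew (wPow w (k + 1)) (fun ts => xx (sigK lam n (k + 1) ts))
      ≤ Ew w (fun T => xx (chan lam (glev lam n T)))
        + Ew (wPow w k) (fun ts => xx (sigK lam n k ts))
        - Ew w (fun T => nuS (chan lam (glev lam n T)))
          * (Ew (wPow w k) (fun ts => xx (sigK lam n k ts))
            - k * Ew w (fun T => DD (chan lam (glev lam n T))))
        - Ew (wPow w k) (fun ts => nuS (sigK lam n k ts))
          * (Ew w (fun T => xx (chan lam (glev lam n T)))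
            - Ew w (fun T => DD (chan lam (glev lam n T)))) := by
  have hk := hw.pow k
  have hle : ∀ ts : Fin (k + 1) → GWTree n, xx (sigK lam n (k + 1) ts)
      ≤ xx (chan lam (glev lam n (ts 0))) + xx (sigK lam n k (fun c => ts c.succ))
        - nuS (chan lam (glev lam n (ts 0)))
          * (xx (sigK lam n k (fun c => ts c.succ)) - DD (sigK lam n k (fun c => ts c.succ)))
        - nuS (sigK lam n k (fun c => ts c.succ))
          * (xx (chan lam (glev lam n (ts 0))) - DD (chan lam (glev lam n (ts 0)))) := by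
    intro ts
    have := xx_piS_le hpt (k := k) (l := fun c => chan lam (glev lam n (ts c)))
      (fun c => chan_glev_isSig h0 h1 n (ts c))
    rw [DD_sigK_eq h0 h1]
    exact this
  have hm := Ew_mono (hw.pow (k + 1)) (bdd_xx_sigK h0 h1 n (k + 1)) (bdd_rhs h0 h1 n k) hle
  have hb := Ew_bilin4 hw hk (bdd_cx h0 h1 n) (bdd_cn h0 h1 n) (bdd_cD h0 h1 n) (bdd_xx_sigK h0 h1 n k)
    (bdd_DD_sigK h0 h1 n k) (bdd_nu_sigK h0 h1 n k)
  refine hm.trans ?_
  rw [Ew_pow_succ]
  refine (Eq.trans rfl hb).trans_le (le_of_eq ?_)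
  rw [Ew_DD_sigK h0 h1 hw k]

theorem M_zero {n : ℕ} {w : GWTree n → ℝ} (hw : WProb w) :
    Ew (wPow w 0) (fun ts => xx (sigK lam n 0 ts)) = 0 := by
  have : ∀ ts : Fin 0 → GWTree n, xx (sigK lam n 0 ts) = 0 := fun ts => by
    unfold sigK
    exact xx_piS_zero _
  rw [Ew_congr _ (fun _ => (0 : ℝ)) this, Ew_const (hw.pow 0)]

/-! ### Level means -/

/-- Mean of the chi-square functional at level `n`. -/
def Xbar (p : ℕ → ℝ) (lam : ℝ) (n : ℕ) : ℝ := Ew (gwWeight p n) (fun T => xx (glev lam n T))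

/-- Mean of the entropy after the channel, from level `n`. -/
def Dhat (p : ℕ → ℝ) (lam : ℝ) (n : ℕ) : ℝ :=
  Ew (gwWeight p n) (fun T => DD (chan lam (glev lam n T)))

theorem bdd_xx_glev (h0 : 0 ≤ lam) (h1 : lam < 1) (n : ℕ) :
    BddF (fun T : GWTree n => xx (glev lam n T)) :=
  BddF.of_Icc (a := 0) (b := 3) fun T =>
    ⟨xx_nonneg (glev_wsig h0 h1 n T), xx_le_three (glev_wsig h0 h1 n T)⟩

theorem Xbar_nonneg (hp : WProb p) (h0 : 0 ≤ lam) (h1 : lam < 1) (n : ℕ) : 0 ≤ Xbar p lam n :=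
  Ew_nonneg (gwWeight_wprob hp n) fun T => xx_nonneg (glev_wsig h0 h1 n T)

theorem Xbar_le (hp : WProb p) (h0 : 0 ≤ lam) (h1 : lam < 1) (n : ℕ) : Xbar p lam n ≤ 3 :=
  Ew_le_of_le (gwWeight_wprob hp n) (bdd_xx_glev h0 h1 n) fun T => xx_le_three (glev_wsig h0 h1 n T)

/-- The level mean as a mixture. -/
theorem X_succ_eq (hp : WProb p) (h0 : 0 ≤ lam) (h1 : lam < 1) (n : ℕ) :
    Xbar p lam (n + 1)
      = ∑' k, p k * Ew (wPow (gwWeight p n) k) (fun ts => xx (sigK lam n k ts)) := by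
  have := Ew_mix hp (gwWeight_wprob hp n) (F := fun T : GWTree (n + 1) => xx (glev lam (n + 1) T))
    (bdd_xx_glev h0 h1 (n + 1))
  refine Eq.trans this ?_
  congr 1
  funext k
  congr 1
  refine Ew_congr _ _ fun ts => ?_
  exact xx_glev_succ lam n ⟨k, ts⟩

theorem bdd_dc (h0 : 0 ≤ lam) (h1 : lam < 1) (n k : ℕ) :
    BddF (fun ts : Fin k → GWTree n => DD (chan lam (sigK lam n k ts))) := by
  refine BddF.of_Icc (a := 0) (b := lam ^ 2 / (1 - lam) * 3) fun ts => ?_
  have hW := (sigK_isSig h0 h1 n k ts).toW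
  refine ⟨DD_chan_nonneg hW h0 h1, (DD_chan_bound hW h0 h1).trans ?_⟩
  apply mul_le_mul_of_nonneg_left (xx_le_three hW)
  have : 0 < 1 - lam := by linarith
  positivity

theorem D_succ_eq (hp : WProb p) (h0 : 0 ≤ lam) (h1 : lam < 1) (n : ℕ) :
    Dhat p lam (n + 1)
      = ∑' k, p k * Ew (wPow (gwWeight p n) k) (fun ts => DD (chan lam (sigK lam n k ts))) := by
  have := Ew_mix hp (gwWeight_wprob hp n)
    (F := fun T : GWTree (n + 1) => DD (chan lam (glev lam (n + 1) T))) (bdd_cD h0 h1 (n + 1))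
  refine Eq.trans this ?_
  congr 1
  funext k
  congr 1
  refine Ew_congr _ _ fun ts => ?_
  exact chan_glev_succ lam n ⟨k, ts⟩

/-- The `k`-fold estimate for the entropy after the channel. -/
theorem D_k_le (h0 : 0 ≤ lam) (h1 : lam < 1) {n : ℕ} {w : GWTree n → ℝ} (hw : WProb w) (a : ℝ) (k : ℕ) :
    Ew (wPow w k) (fun ts => DD (chan lam (sigK lam n k ts)))
      ≤ (lam ^ 2 * (1 - lam) - lam ^ 3 * (1 - lam) / 48 * (2 * a))
          * Ew (wPow w k) (fun ts => xx (sigK lam n k ts))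
        + lam ^ 3 * (k * Ew w (fun T => DD (chan lam (glev lam n T))))
        + lam ^ 3 * (1 - lam) / 48 * a ^ 2 := by
  have hk := hw.pow k
  have hle : ∀ ts : Fin k → GWTree n, DD (chan lam (sigK lam n k ts))
      ≤ ((lam ^ 2 * (1 - lam) - lam ^ 3 * (1 - lam) / 48 * (2 * a)) * xx (sigK lam n k ts)
        + lam ^ 3 * DD (sigK lam n k ts)) + lam ^ 3 * (1 - lam) / 48 * a ^ 2 := by
    intro ts
    have := DD_chan_le (sigK_isSig h0 h1 n k ts) h0 h1.le a
    nlinarith [this]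
  have b1 := (bdd_xx_sigK h0 h1 n k).const_mul (lam ^ 2 * (1 - lam) - lam ^ 3 * (1 - lam) / 48 * (2 * a))
  have b2 := (bdd_DD_sigK h0 h1 n k).const_mul (lam ^ 3)
  have b3 : BddF (fun _ : Fin k → GWTree n => lam ^ 3 * (1 - lam) / 48 * a ^ 2) :=
    BddF.of_Icc (a := lam ^ 3 * (1 - lam) / 48 * a ^ 2) (b := lam ^ 3 * (1 - lam) / 48 * a ^ 2)
      fun _ => ⟨le_rfl, le_rfl⟩
  have hm := Ew_mono hk (bdd_dc h0 h1 n k) ((b1.add b2).add b3) hle
  rw [Ew_add hk (b1.add b2) b3, Ew_add hk b1 b2, Ew_const_mul, Ew_const_mul, Ew_const hk,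
    Ew_DD_sigK h0 h1 hw k] at hm
  exact hm

/-- The recursion for the entropy after the channel. -/
theorem Dhat_succ_le (hp : WProb p) {d : ℝ} (hmean : HasSum (fun k : ℕ => (k : ℝ) * p k) d)
    (h0 : 0 ≤ lam) (h1 : lam < 1) (n : ℕ) :
    Dhat p lam (n + 1)
      ≤ lam ^ 2 * (1 - lam) * Xbar p lam (n + 1) + lam ^ 3 * (d * Dhat p lam n)
        - lam ^ 3 * (1 - lam) / 48 * Xbar p lam (n + 1) ^ 2 := by
  have hw := gwWeight_wprob hp n
  set w := gwWeight p n with hwdef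
  set ξ := Xbar p lam (n + 1) with hξ
  set c := lam ^ 3 * (1 - lam) / 48 with hc
  set Dn := Ew w (fun T => DD (chan lam (glev lam n T))) with hDn
  have eDn : Dhat p lam n = Dn := rfl
  -- the sum of the chi-square means
  have hbM : ∃ C : ℝ, ∀ k, |Ew (wPow w k) (fun ts => xx (sigK lam n k ts))| ≤ C := by
    refine ⟨3, fun k => ?_⟩
    rw [abs_le]
    constructor
    · have := Ew_nonneg (w := wPow w k) (f := fun ts => xx (sigK lam n k ts)) (hw.pow k)
        fun ts => xx_nonneg (sigK_isSig h0 h1 n k ts).toW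
      linarith
    · exact Ew_le_of_le (hw.pow k) (bdd_xx_sigK h0 h1 n k) fun ts => xx_le_three (sigK_isSig h0 h1 n k ts).toW
  have hsM : HasSum (fun k => p k * Ew (wPow w k) (fun ts => xx (sigK lam n k ts))) ξ := by
    have hs := hp.summable_mul hbM
    have := hs.hasSum
    rw [hξ, X_succ_eq hp h0 h1 n]
    exact this
  have hbD : ∃ C : ℝ, ∀ k, |Ew (wPow w k) (fun ts => DD (chan lam (sigK lam n k ts)))| ≤ C := by
    refine ⟨lam ^ 2 / (1 - lam) * 3, fun k => ?_⟩
    rw [abs_le]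
    have hnn : 0 ≤ lam ^ 2 / (1 - lam) * 3 := by
      have : 0 < 1 - lam := by linarith
      positivity
    constructor
    · have := Ew_nonneg (w := wPow w k) (f := fun ts => DD (chan lam (sigK lam n k ts))) (hw.pow k)
        fun ts => DD_chan_nonneg (sigK_isSig h0 h1 n k ts).toW h0 h1
      linarith
    · refine Ew_le_of_le (hw.pow k) (bdd_dc h0 h1 n k) fun ts => ?_
      have hW := (sigK_isSig h0 h1 n k ts).toW
      refine (DD_chan_bound hW h0 h1).trans ?_
      apply mul_le_mul_of_nonneg_left (xx_le_three hW)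
      have : 0 < 1 - lam := by linarith
      positivity
  -- assemble
  have hsum : HasSum (fun k : ℕ => p k * ((lam ^ 2 * (1 - lam) - c * (2 * ξ))
        * Ew (wPow w k) (fun ts => xx (sigK lam n k ts)) + lam ^ 3 * (k * Dn) + c * ξ ^ 2))
      ((lam ^ 2 * (1 - lam) - c * (2 * ξ)) * ξ + lam ^ 3 * Dn * d + c * ξ ^ 2 * 1) := by
    have t1 := hsM.mul_left (lam ^ 2 * (1 - lam) - c * (2 * ξ))
    have t2 := hmean.mul_left (lam ^ 3 * Dn)
    have t3 := hp.hasSum.mul_left (c * ξ ^ 2)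
    have e : (fun k : ℕ => p k * ((lam ^ 2 * (1 - lam) - c * (2 * ξ))
        * Ew (wPow w k) (fun ts => xx (sigK lam n k ts)) + lam ^ 3 * (k * Dn) + c * ξ ^ 2))
        = fun k : ℕ => (lam ^ 2 * (1 - lam) - c * (2 * ξ))
            * (p k * Ew (wPow w k) (fun ts => xx (sigK lam n k ts)))
          + lam ^ 3 * Dn * ((k : ℝ) * p k) + c * ξ ^ 2 * p k := by
      funext k
      ring
    rw [e]
    exact (t1.add t2).add t3
  have hfin := tsum_mix_le hp hbD hsum (fun k => D_k_le h0 h1 hw ξ k)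
  have e : Dhat p lam (n + 1)
      = ∑' k, p k * Ew (wPow w k) (fun ts => DD (chan lam (sigK lam n k ts))) :=
    D_succ_eq hp h0 h1 n
  rw [e, eDn]
  refine hfin.trans_eq ?_
  ring

theorem two_p2_le {d : ℝ} (hp : WProb p) (hmean : HasSum (fun k : ℕ => (k : ℝ) * p k) d) :
    2 * (1 - p 0 - p 1) ≤ d := by
  have h0 : HasSum (fun k : ℕ => (if k = 0 then p 0 else 0)) (p 0) := hasSum_ite_eq 0 (p 0)
  have h1 : HasSum (fun k : ℕ => (if k = 1 then p 1 else 0)) (p 1) := hasSum_ite_eq 1 (p 1)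
  have h2 : HasSum (fun k : ℕ => 2 * (p k - (if k = 0 then p 0 else 0) - (if k = 1 then p 1 else 0)))
      (2 * (1 - p 0 - p 1)) := ((hp.hasSum.sub h0).sub h1).mul_left 2
  refine hasSum_le (fun k => ?_) h2 hmean
  rcases k with _ | k
  · simp
  · rcases k with _ | k
    · simpa using hp.nonneg 1
    · have hk : (2 : ℝ) ≤ ((k + 1 + 1 : ℕ) : ℝ) := by
        push_cast
        have : (0 : ℝ) ≤ k := Nat.cast_nonneg k
        linarith
      have := mul_le_mul_of_nonneg_right hk (hp.nonneg (k + 1 + 1))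
      simpa using this

/-- One step of the recursion of means. -/
theorem step_gw (hpt : PointIneq) (hp : WProb p) {d : ℝ} (hmean : HasSum (fun k : ℕ => (k : ℝ) * p k) d)
    (hp2 : 0 ≤ 1 - p 0 - p 1) (h0 : 0 ≤ lam) (h1 : lam < 1) (n : ℕ) (y : ℝ)
    (hx : Xbar p lam (n + 1) ≤ y) (hz : d * Dhat p lam n ≤ y) :
    Xbar p lam (n + 1 + 1)
        ≤ (d * lam ^ 2) * ((1 - lam) * Xbar p lam (n + 1) + lam * y)
          - ((1 - p 0 - p 1) * gC lam) * Xbar p lam (n + 1) ^ 3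
      ∧ d * Dhat p lam (n + 1)
        ≤ (d * lam ^ 2) * ((1 - lam) * Xbar p lam (n + 1) + lam * y)
          - ((1 - p 0 - p 1) * gC lam) * Xbar p lam (n + 1) ^ 3 := by
  have hd2 := two_p2_le hp hmean
  have hd0 : 0 ≤ d := by linarith
  have hw := gwWeight_wprob hp (n + 1)
  set v := gwWeight p (n + 1) with hvdef
  set ξ := Xbar p lam (n + 1) with hξ
  set p2 := 1 - p 0 - p 1 with hp2def
  have hξ0 : 0 ≤ ξ := Xbar_nonneg hp h0 h1 _
  have hξ3 : ξ ≤ 3 := Xbar_le hp h0 h1 _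
  set c := lam ^ 3 * (1 - lam) / 48 with hc
  have hc0 : 0 ≤ c := by
    have : 0 ≤ 1 - lam := by linarith
    positivity
  set w := lam ^ 2 * ((1 - lam) * ξ + lam * y) with hwe
  set E := c * ξ ^ 2 with hE
  have hE0 : 0 ≤ E := by positivity
  -- the means after the channel
  set xh := Ew v (fun T => xx (chan lam (glev lam (n + 1) T))) with hxh
  set nh := Ew v (fun T => nuS (chan lam (glev lam (n + 1) T))) with hnh
  have hxhe : xh = lam ^ 2 * ξ := by
    rw [hxh, hξ]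
    unfold Xbar
    rw [← Ew_const_mul]
    exact Ew_congr _ _ fun T => xx_chan (glev_wsig h0 h1 _ T) lam
  have hn0 : 0 ≤ nh := Ew_nonneg hw fun T => nuS_nonneg (chan_glev_isSig h0 h1 _ T).toW
  have hn1 : nh ≤ 1 := Ew_le_of_le hw (bdd_cn h0 h1 _) fun T => nuS_le_one (chan_glev_isSig h0 h1 _ T).toW
  have hnb : 4 / 3 * (lam ^ 2 * (1 - lam ^ 2)) * ξ ≤ nh := by
    rw [hξ]
    unfold Xbar
    rw [← Ew_const_mul]
    exact Ew_mono hw ((bdd_xx_glev h0 h1 _).const_mul _) (bdd_cn h0 h1 _)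
      fun T => nuS_chan_ge (glev_wsig h0 h1 _ T) lam
  have hxw : xh ≤ w := by
    rw [hxhe, hwe]
    have h2 : lam * ξ ≤ lam * y := mul_le_mul_of_nonneg_left hx h0
    have h3 : 0 ≤ lam ^ 2 := sq_nonneg lam
    nlinarith [mul_le_mul_of_nonneg_left h2 h3]
  have hDw : Dhat p lam (n + 1) ≤ w - E := by
    have h2 := Dhat_succ_le hp hmean h0 h1 n
    have h3 : lam ^ 3 * (d * Dhat p lam n) ≤ lam ^ 3 * y :=
      mul_le_mul_of_nonneg_left hz (by positivity)
    rw [hwe, hE]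
    rw [← hξ, ← hc] at h2
    nlinarith
  -- the `k`-fold means
  have hNn : ∀ k, 0 ≤ Ew (wPow v k) (fun ts => nuS (sigK lam (n + 1) k ts)) := fun k =>
    Ew_nonneg (hw.pow k) fun ts => nuS_nonneg (sigK_isSig h0 h1 _ k ts).toW
  have hN1 : ∀ k, Ew (wPow v k) (fun ts => nuS (sigK lam (n + 1) k ts)) ≤ 1 := fun k =>
    Ew_le_of_le (hw.pow k) (bdd_nu_sigK h0 h1 _ k) fun ts => nuS_le_one (sigK_isSig h0 h1 _ k ts).toW
  obtain ⟨hMk, hMk2⟩ := kfold4 (M := fun k => Ew (wPow v k) (fun ts => xx (sigK lam (n + 1) k ts)))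
    (N := fun k => Ew (wPow v k) (fun ts => nuS (sigK lam (n + 1) k ts))) (x := xh)
    (D := Dhat p lam (n + 1)) (n := nh) (w := w) (E := E) hNn hN1 hn0 hn1 (M_zero hw)
    (fun k => M_succ hpt h0 h1 hw k) hxw hDw hE0
  -- mixing
  have hbM : ∃ C : ℝ, ∀ k, |Ew (wPow v k) (fun ts => xx (sigK lam (n + 1) k ts))| ≤ C := by
    refine ⟨3, fun k => ?_⟩
    rw [abs_le]
    constructor
    · have := Ew_nonneg (w := wPow v k) (f := fun ts => xx (sigK lam (n + 1) k ts)) (hw.pow k)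
        fun ts => xx_nonneg (sigK_isSig h0 h1 _ k ts).toW
      linarith
    · exact Ew_le_of_le (hw.pow k) (bdd_xx_sigK h0 h1 _ k)
        fun ts => xx_le_three (sigK_isSig h0 h1 _ k ts).toW
  have hmix := mix_bound hp hmean hbM (A := w) (B := nh * E) (fun k => by
    rcases k with _ | k
    · simpa using hMk 0
    · rcases k with _ | k
      · simpa using hMk 1
      · have c2 : 2 ≤ k + 1 + 1 := by omega
        rw [if_pos c2]
        have := hMk2 k
        push_cast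
        linarith)
  rw [← X_succ_eq hp h0 h1 (n + 1), ← hp2def] at hmix
  have edw : (d * lam ^ 2) * ((1 - lam) * ξ + lam * y) = d * w := by
    rw [hwe]
    ring
  have eg : p2 * gC lam * ξ ^ 3 = p2 * (4 / 3 * (lam ^ 2 * (1 - lam ^ 2)) * ξ * E) := by
    unfold gC
    rw [hE, hc]
    ring
  have hgain : p2 * gC lam * ξ ^ 3 ≤ p2 * (nh * E) := by
    rw [eg]
    exact mul_le_mul_of_nonneg_left (mul_le_mul_of_nonneg_right hnb hE0) hp2
  rw [edw]
  constructor
  · linarith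
  · have h3 : d * Dhat p lam (n + 1) ≤ d * (w - E) := mul_le_mul_of_nonneg_left hDw hd0
    have h4 : p2 * (nh * E) ≤ d * E := by
      have h5 : p2 * nh ≤ d := by nlinarith
      have := mul_le_mul_of_nonneg_right h5 hE0
      nlinarith
    nlinarith

theorem Xbar_tendsto (hpt : PointIneq) (hp : WProb p) {d : ℝ}
    (hmean : HasSum (fun k : ℕ => (k : ℝ) * p k) d) (hp2 : 0 < 1 - p 0 - p 1) (h0 : 0 ≤ lam)
    (h1 : lam < 1) (hKS : d * lam ^ 2 ≤ 1) :
    Tendsto (fun n => Xbar p lam (n + 1)) atTop (𝓝 0) := by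
  have hd2 := two_p2_le hp hmean
  have hd0 : 0 ≤ d := by linarith
  refine lyap_tendsto (Z := fun n => d * Dhat p lam n) (K := d * lam ^ 2) (r := lam)
    (g := (1 - p 0 - p 1) * gC lam) (fun n => Xbar_nonneg hp h0 h1 _) (by positivity) hKS h0 h1
    (mul_nonneg hp2.le (gC_nonneg h0 h1)) ?_
    (fun n y hx hz => step_gw hpt hp hmean hp2.le h0 h1 n y hx hz)
  rcases h0.eq_or_lt with rfl | hpos
  · right
    ring
  · left
    exact mul_pos hp2 (gC_pos hpos h1)

end means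

/-! ### From the functional to the advantage -/

theorem gwTreeAdvantage_le {lam : ℝ} {n : ℕ} {T : GWTree n} (hW : WSig (glev lam n T)) (δ : ℝ) (hδ : 0 < δ) :
    gwTreeAdvantage 4 lam n T ≤ δ + xx (glev lam n T) / (16 * δ) := by
  have key : gwTreeAdvantage 4 lam n T ≤ ∑ τ, (mean4 (glev lam n T τ) * δ
      + (mean4 (glev lam n T τ) * sp (glev lam n T τ)) / (16 * δ)) := by
    unfold gwTreeAdvantage
    refine Finset.sum_le_sum fun τ _ => ?_
    have hp := point_adv (hW.Mpos τ) δ hδ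
    have e1 : gwProb 4 lam n T τ = mean4 (glev lam n T τ) := by
      unfold gwProb glev mean4
      rw [Fin.sum_univ_four]
      push_cast
      ring
    have e2 : ∀ i : Fin 4, gwPost 4 lam n T i τ = (1 / 4) * glev lam n T τ i / mean4 (glev lam n T τ) := by
      intro i
      unfold gwPost
      rw [e1]
      push_cast
      rfl
    rw [e1, Fin.sum_univ_four]
    simp only [e2]
    push_cast
    exact hp
  refine key.trans ?_
  rw [Finset.sum_add_distrib, ← Finset.sum_mul, ← Finset.sum_div, sum_mean hW.tot, ← xx_eq hW, one_mul]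

theorem gwTreeAdvantage_nonneg {lam : ℝ} {n : ℕ} {T : GWTree n} (hW : WSig (glev lam n T)) :
    0 ≤ gwTreeAdvantage 4 lam n T := by
  unfold gwTreeAdvantage
  refine Finset.sum_nonneg fun τ _ => mul_nonneg ?_ ?_
  · unfold gwProb
    refine Finset.sum_nonneg fun i _ => mul_nonneg (by positivity) ?_
    exact hW.nonneg τ i
  · exact mul_nonneg (by norm_num) (Finset.sum_nonneg fun i _ => abs_nonneg _)

theorem bdd_adv {lam : ℝ} (h0 : 0 ≤ lam) (h1 : lam < 1) (n : ℕ) :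
    BddF (fun T : GWTree n => gwTreeAdvantage 4 lam n T) := by
  refine BddF.of_Icc (a := 0) (b := 1 + 3 / 16) fun T =>
    ⟨gwTreeAdvantage_nonneg (glev_wsig h0 h1 n T), ?_⟩
  have := gwTreeAdvantage_le (glev_wsig h0 h1 n T) 1 one_pos
  have h2 := xx_le_three (glev_wsig h0 h1 n T)
  norm_num at this ⊢
  linarith

theorem gwAdvantage_le {p : ℕ → ℝ} {lam : ℝ} (hp : WProb p) (h0 : 0 ≤ lam) (h1 : lam < 1) (n : ℕ)
    (δ : ℝ) (hδ : 0 < δ) :
    gwAdvantage p 4 lam n ≤ δ + Xbar p lam n / (16 * δ) := by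
  have hw := gwWeight_wprob hp n
  have hc : BddF (fun _ : GWTree n => δ) := BddF.of_Icc (a := δ) (b := δ) fun _ => ⟨le_rfl, le_rfl⟩
  have hbd : BddF (fun T : GWTree n => δ + (1 / (16 * δ)) * xx (glev lam n T)) :=
    hc.add ((bdd_xx_glev h0 h1 n).const_mul _)
  have := Ew_mono hw (bdd_adv h0 h1 n) hbd (fun T => by
    have := gwTreeAdvantage_le (glev_wsig h0 h1 n T) δ hδ
    refine this.trans_eq ?_
    ring)
  rw [Ew_add hw hc ((bdd_xx_glev h0 h1 n).const_mul _), Ew_const hw, Ew_const_mul] at this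
  unfold Xbar
  refine le_trans this (le_of_eq ?_)
  ring

/-- Main theorem for a general offspring law with at least two children possible. -/
theorem gwAdvantage_tendsto (hpt : PointIneq) {p : ℕ → ℝ} {d lam : ℝ} (hp : WProb p)
    (hmean : HasSum (fun k : ℕ => (k : ℝ) * p k) d) (hp2 : 0 < 1 - p 0 - p 1)
    (h0 : 0 ≤ lam) (h1 : lam < 1) (hKS : d * lam ^ 2 ≤ 1) :
    (∀ n, Summable (fun T : GWTree n => gwWeight p n T * gwTreeAdvantage 4 lam n T))
      ∧ Tendsto (gwAdvantage p 4 lam) atTop (𝓝 0) := by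
  refine ⟨fun n => (gwWeight_wprob hp n).summable_mul (bdd_adv h0 h1 n), ?_⟩
  have hy := Xbar_tendsto hpt hp hmean hp2 h0 h1 hKS
  rw [Metric.tendsto_atTop]
  intro ε hε
  have hev := (tendsto_order.1 hy).2 (ε ^ 2) (by positivity)
  obtain ⟨N, hN⟩ := Filter.eventually_atTop.1 hev
  refine ⟨N + 1, fun n hn => ?_⟩
  obtain ⟨m, rfl⟩ : ∃ m, n = m + 1 := ⟨n - 1, by omega⟩
  have h3 := hN m (by omega)
  have h5 := gwAdvantage_le hp h0 h1 (m + 1) (ε / 2) (by positivity)
  have h2 : 0 ≤ gwAdvantage p 4 lam (m + 1) := by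
    unfold gwAdvantage
    exact tsum_nonneg fun T => mul_nonneg ((gwWeight_wprob hp _).nonneg T)
      (gwTreeAdvantage_nonneg (glev_wsig h0 h1 _ T))
  have h6 : Xbar p lam (m + 1) / (16 * (ε / 2)) < ε / 2 := by
    rw [div_lt_iff₀ (by positivity)]
    nlinarith
  rw [Real.dist_eq, sub_zero, abs_of_nonneg h2]
  linarith

/-! ### The Poisson law -/

theorem poisson_wprob {d : ℝ} (hd : 0 ≤ d) : WProb (poissonLaw d) := by
  refine ⟨fun k => by unfold poissonLaw; positivity, ?_⟩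
  have h := NormedSpace.expSeries_div_hasSum_exp (𝔸 := ℝ) d
  rw [← Real.exp_eq_exp_ℝ] at h
  have h2 := h.mul_left (Real.exp (-d))
  have e : Real.exp (-d) * Real.exp d = 1 := by rw [← Real.exp_add]; simp
  rw [e] at h2
  have e2 : poissonLaw d = fun i => Real.exp (-d) * (d ^ i / (i.factorial : ℝ)) := by
    funext i
    unfold poissonLaw
    ring
  rw [e2]
  exact h2

theorem poisson_mean {d : ℝ} (hd : 0 ≤ d) : HasSum (fun k : ℕ => (k : ℝ) * poissonLaw d k) d := by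
  have h := (poisson_wprob hd).hasSum.mul_left d
  rw [mul_one] at h
  have e : (fun k : ℕ => d * poissonLaw d k) = fun k : ℕ => ((k + 1 : ℕ) : ℝ) * poissonLaw d (k + 1) := by
    funext k
    unfold poissonLaw
    rw [Nat.factorial_succ]
    have : (k.factorial : ℝ) ≠ 0 := by positivity
    have h2 : ((k : ℝ) + 1) ≠ 0 := by positivity
    push_cast
    field_simp
    ring
  rw [e] at h
  have := (hasSum_nat_add_iff (f := fun k : ℕ => (k : ℝ) * poissonLaw d k) 1).1 h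
  simpa using this

theorem poisson_p2 {d : ℝ} (hd : 0 < d) : 0 < 1 - poissonLaw d 0 - poissonLaw d 1 := by
  unfold poissonLaw
  have h := Real.add_one_lt_exp hd.ne'
  have h2 : Real.exp (-d) * (d + 1) < Real.exp (-d) * Real.exp d :=
    mul_lt_mul_of_pos_left h (Real.exp_pos _)
  have e : Real.exp (-d) * Real.exp d = 1 := by rw [← Real.exp_add]; simp
  rw [e] at h2
  simp only [pow_zero, pow_one, Nat.factorial_zero, Nat.factorial_one, Nat.cast_one, mul_one, div_one]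
  nlinarith

/-- Main theorem on Poisson trees. -/
theorem gwAdvantage_poisson (hpt : PointIneq) {d lam : ℝ} (hd : 0 < d) (h0 : 0 ≤ lam) (h1 : lam < 1)
    (hKS : d * lam ^ 2 ≤ 1) :
    (∀ n, Summable (fun T : GWTree n => gwWeight (poissonLaw d) n T * gwTreeAdvantage 4 lam n T))
      ∧ Tendsto (gwAdvantage (poissonLaw d) 4 lam) atTop (𝓝 0) :=
  gwAdvantage_tendsto hpt (poisson_wprob hd.le) (poisson_mean hd.le) (poisson_p2 hd) h0 h1 hKS

end Vale.Agent.Lib.P154_q4
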