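import Vale.Agent.Lib.P154_q4.AvgE

set_option linter.defProp false

/-!
The average over the relabellings of the majorant is a polynomial in the invariants.
-/

noncomputable section

namespace Vale.Agent.Lib.P154_q4

open Vale.Agent.Lib.Common.Kron Vale.Agent.Lib.Common.Kron.PE

theorem eval_zero_of_check {e : PE} {k : ℕ} {rad : List ℕ} (h : check e k rad = true)
    (h' : check (PE.neg e) k rad = true) (x : ℕ → ℝ) : evalR x e = 0 := by
  have h0 : toMv e = 0 := by
    ext m
    have h1 := coeff_nonneg_of_check h m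
    have h2 := coeff_nonneg_of_check h' m
    simp only [toMv, MvPolynomial.coeff_neg] at h2
    simp only [MvPolynomial.coeff_zero]
    omega
  rw [← toMv_aeval_real, h0, map_zero]

set_option maxRecDepth 100000 in
def chkA : check eId 56 radA = true := by decide +kernel

set_option maxRecDepth 100000 in
def chkB : check (PE.neg eId) 56 radA = true := by decide +kernel

def permL_nodup : permL.Nodup := by decide +kernel

theorem permL_mem (σ : Equiv.Perm (Fin 4)) : σ ∈ permL := by
  revert σ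
  decide +kernel

theorem sum_perm (G : Equiv.Perm (Fin 4) → ℝ) : ∑ σ, G σ = (permL.map G).sum := by
  classical
  have e : (Finset.univ : Finset (Equiv.Perm (Fin 4))) = permL.toFinset := by
    ext σ
    simp [permL_mem]
  rw [e, List.sum_toFinset _ permL_nodup]

theorem eval_eW (x : ℕ → ℝ) (e0 e1 e2 e3 : PE) : evalR x (EA.eW e0 e1 e2 e3)
    = W (evalR x e0) (evalR x e1) (evalR x e2) (evalR x e3) := by
  simp only [EA.eW, evalR, W]
  push_cast
  ring

theorem eval_eSum (x : ℕ → ℝ) (L : List (Equiv.Perm (Fin 4))) : evalR x (EA.eSum L)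
    = (L.map fun σ => W (evalR x (EA.ent 0 0) * evalR x (EA.ent 3 (σ 0)))
        (evalR x (EA.ent 0 1) * evalR x (EA.ent 3 (σ 1)))
        (evalR x (EA.ent 0 2) * evalR x (EA.ent 3 (σ 2)))
        (evalR x (EA.ent 0 3) * evalR x (EA.ent 3 (σ 3)))).sum := by
  induction L with
  | nil => simp [EA.eSum, evalR]
  | cons σ L ih =>
    simp only [EA.eSum, evalR, List.map_cons, List.sum_cons, ih, eval_eW]

theorem eval_eS (x : ℕ → ℝ) (i : ℕ) : evalR x (EA.eS i) = iS (x i) (x (i + 1)) (x (i + 2)) := by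
  simp only [EA.eS, evalR, iS]

theorem eval_eY (x : ℕ → ℝ) (i : ℕ) : evalR x (EA.eY i) = iY (x i) (x (i + 1)) (x (i + 2)) := by
  simp only [EA.eY, evalR, iY]
  push_cast
  ring

theorem eval_eT (x : ℕ → ℝ) (i : ℕ) : evalR x (EA.eT i) = iT (x i) (x (i + 1)) (x (i + 2)) := by
  simp only [EA.eT, evalR, iT]
  push_cast
  ring

theorem eval_eTab (x : ℕ → ℝ) (T : List Ent) : evalR x (EA.eTab T)
    = tblVal T (iS (x 0) (x 1) (x 2)) (iY (x 0) (x 1) (x 2)) (iT (x 0) (x 1) (x 2))
        (iS (x 3) (x 4) (x 5)) (iY (x 3) (x 4) (x 5)) (iT (x 3) (x 4) (x 5)) := by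
  induction T with
  | nil => simp [EA.eTab, evalR, tblVal]
  | cons F L ih =>
    simp only [EA.eTab, evalR, eval_eS, eval_eY, eval_eT, ih]
    simp only [tblVal, List.map_cons, List.sum_cons, Ent.val]
    have : evalR x (if F.sg then c F.c else neg (c F.c)) = if F.sg then (F.c : ℝ) else -(F.c : ℝ) := by
      split_ifs <;> simp [evalR]
    rw [this]

/-- Evaluation point: the Fourier coordinates of two vectors. -/
def ptA (a b : Fin 4 → ℝ) : ℕ → ℝ
  | 0 => th1 a
  | 1 => th2 a
  | 2 => th3 a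
  | 3 => th1 b
  | 4 => th2 b
  | 5 => th3 b
  | _ => 0

theorem eval_ent0 {a b : Fin 4 → ℝ} (hs : ∑ i, a i = 4) (j : Fin 4) :
    evalR (ptA a b) (EA.ent 0 j) = a j := by
  obtain ⟨h0, h1, h2, h3⟩ := coord_eq hs
  have e : ∀ j : Fin 4, evalR (ptA a b) (EA.ent 0 j) = a j := by
    rw [Fin.forall_fin_succ, Fin.forall_fin_succ, Fin.forall_fin_succ, Fin.forall_fin_succ]
    refine ⟨?_, ?_, ?_, ?_, fun i => i.elim0⟩
    · change evalR (ptA a b) (add (add (add (c 1) (v 0)) (v 1)) (v 2)) = a 0
      simp only [evalR, ptA]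
      push_cast
      rw [h0]
    · change evalR (ptA a b) (add (add (add (c 1) (v 0)) (neg (v 1))) (neg (v 2))) = a 1
      simp only [evalR, ptA]
      push_cast
      rw [h1]
      ring
    · change evalR (ptA a b) (add (add (add (c 1) (neg (v 0))) (v 1)) (neg (v 2))) = a 2
      simp only [evalR, ptA]
      push_cast
      rw [h2]
      ring
    · change evalR (ptA a b) (add (add (add (c 1) (neg (v 0))) (neg (v 1))) (v 2)) = a 3
      simp only [evalR, ptA]
      push_cast
      rw [h3]
      ring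
  exact e j

theorem eval_ent3 {a b : Fin 4 → ℝ} (hs : ∑ i, b i = 4) (j : Fin 4) :
    evalR (ptA a b) (EA.ent 3 j) = b j := by
  obtain ⟨h0, h1, h2, h3⟩ := coord_eq hs
  have e : ∀ j : Fin 4, evalR (ptA a b) (EA.ent 3 j) = b j := by
    rw [Fin.forall_fin_succ, Fin.forall_fin_succ, Fin.forall_fin_succ, Fin.forall_fin_succ]
    refine ⟨?_, ?_, ?_, ?_, fun i => i.elim0⟩
    · change evalR (ptA a b) (add (add (add (c 1) (v 3)) (v 4)) (v 5)) = b 0
      simp only [evalR, ptA]
      push_cast
      rw [h0]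
    · change evalR (ptA a b) (add (add (add (c 1) (v 3)) (neg (v 4))) (neg (v 5))) = b 1
      simp only [evalR, ptA]
      push_cast
      rw [h1]
      ring
    · change evalR (ptA a b) (add (add (add (c 1) (neg (v 3))) (v 4)) (neg (v 5))) = b 2
      simp only [evalR, ptA]
      push_cast
      rw [h2]
      ring
    · change evalR (ptA a b) (add (add (add (c 1) (neg (v 3))) (neg (v 4))) (v 5)) = b 3
      simp only [evalR, ptA]
      push_cast
      rw [h3]
      ring
  exact e j

/-- The averaging identity. -/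
theorem avg_id {a b : Fin 4 → ℝ} (hs : ∑ i, a i = 4) (hs' : ∑ i, b i = 4) :
    9 * ∑ σ : Equiv.Perm (Fin 4), W (a 0 * b (σ 0)) (a 1 * b (σ 1)) (a 2 * b (σ 2)) (a 3 * b (σ 3))
      = 16384 * tblVal tabAv (vS a) (vY a) (vT a) (vS b) (vY b) (vT b) := by
  have h := eval_zero_of_check chkA chkB (ptA a b)
  simp only [eId, evalR] at h
  rw [eval_eSum, eval_eTab] at h
  simp only [eval_ent0 hs, eval_ent3 (a := a) hs'] at h
  rw [sum_perm, vS_eq hs, vY_eq hs, vT_eq hs, vS_eq hs', vY_eq hs', vT_eq hs']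
  simp only [ptA] at h
  push_cast at h
  linarith

end Vale.Agent.Lib.P154_q4
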