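import Vale.Agent.Lib.P154_q4.Tab

/-!
The expressions whose coefficients are checked on each cell.
The variables are `m1, m2` (direction of the first vector), `m1', m2'` (direction of the second one),
`z` (for the radius) and `w` (for the ratio of the radii).
-/

namespace Vale.Agent.Lib.P154_q4

open Vale.Agent.Lib.Common.Kron

namespace E

open Vale.Agent.Lib.Common.Kron.PE

/-- The invariants of a direction. -/
def S (m1 m2 : PE) : PE :=
  add (add (pow (add (add m1 m2) (c 1)) 2) (pow (add m1 (c 1)) 2)) (pow (add m1 (neg (c 1))) 2)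

def Y (m1 m2 : PE) : PE :=
  mul (c 6) (mul (add (add m1 m2) (c 1)) (mul (add m1 (c 1)) (add m1 (neg (c 1)))))

def T (m1 m2 : PE) : PE :=
  mul (c 4) (add (add (mul (pow (add (add m1 m2) (c 1)) 2) (pow (add m1 (c 1)) 2))
    (mul (pow (add (add m1 m2) (c 1)) 2) (pow (add m1 (neg (c 1))) 2)))
    (mul (pow (add m1 (c 1)) 2) (pow (add m1 (neg (c 1))) 2)))

def Sg (m1 m2 : PE) : PE := add (add m1 m2) (c 3)

/-- The degree of a monomial in one vector. -/
def dg (i1 i2 i3 : ℕ) : ℕ := 2 * i1 + 3 * i2 + 4 * i3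

/-- A monomial homogenized to degree `8`. -/
def Hom (m1 m2 : PE) (i1 i2 i3 : ℕ) : PE :=
  mul (mul (pow (S m1 m2) i1) (mul (pow (Y m1 m2) i2) (pow (T m1 m2) i3))) (pow (Sg m1 m2) (8 - dg i1 i2 i3))

/-- The Bernstein factor of degree `d` and index `k`. -/
def Brn (n1 n2 d k : ℕ) (z : PE) : PE :=
  mul (pow (add (mul (c n1) z) (c n2)) k) (pow (mul (c 2) (add (c 1) z)) (d - k))

/-- Expression of one table entry, without the Bernstein factors. -/
def Tm (F : Ent) : PE :=
  mul (if F.sg then c F.c else neg (c F.c))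
    (mul (Hom (v 0) (v 1) F.i1 F.i2 F.i3) (Hom (v 2) (v 3) F.j1 F.j2 F.j3))

/-- Expression of a list of entries. -/
def Inner : List Ent → PE
  | [] => c 0
  | F :: L => add (Tm F) (Inner L)

/-- The sum over the radius index. -/
def Mid (n1 n2 : ℕ) : List (ℕ × List Ent) → PE
  | [] => c 0
  | P :: L => add (mul (Brn n1 n2 8 P.1 (v 4)) (Inner P.2)) (Mid n1 n2 L)

/-- The sum over the ratio index. -/
def Top (n1 n2 n1' n2' : ℕ) : List (ℕ × List (ℕ × List Ent)) → PE
  | [] => c 0
  | P :: L => add (mul (Brn n1' n2' 6 P.1 (v 5)) (Mid n1 n2 P.2)) (Top n1 n2 n1' n2' L)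

end E

def radC : List ℕ := [9, 9, 9, 9, 9, 7]

end Vale.Agent.Lib.P154_q4
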