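import Vale.Agent.Lib.P154_q4.Scale

set_option linter.defProp false

/-!
The coefficient checks on the four cells, and the resulting nonnegativity on directions and radii.
-/

noncomputable section

namespace Vale.Agent.Lib.P154_q4

open Vale.Agent.Lib.Common.Kron Vale.Agent.Lib.Common.Kron.PE

set_option maxRecDepth 100000 in
def check11 : check (E.Top 0 1 0 1 tabN) 90 radC = true := by decide +kernel
set_option maxRecDepth 100000 in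
def check12 : check (E.Top 0 1 1 2 tabN) 90 radC = true := by decide +kernel
set_option maxRecDepth 100000 in
def check21 : check (E.Top 1 2 0 1 tabN) 90 radC = true := by decide +kernel
set_option maxRecDepth 100000 in
def check22 : check (E.Top 1 2 1 2 tabN) 90 radC = true := by decide +kernel

def tabN_good : goodN tabN = true := by decide +kernel

theorem tab_cell {n1 n2 n1' n2' : ℕ} (hc : check (E.Top n1 n2 n1' n2' tabN) 90 radC = true)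
    {m1 m2 m1' m2' z w : ℝ} (hm1 : 0 ≤ m1) (hm2 : 0 ≤ m2)
    (hm1' : 0 ≤ m1') (hm2' : 0 ≤ m2') (hz : 0 ≤ z) (hw : 0 ≤ w) {r ρ : ℝ}
    (hr : ((n1 : ℝ) * z + n2) / (2 * (1 + z)) = r) (hρ : ((n1' : ℝ) * w + n2') / (2 * (1 + w)) = ρ) :
    0 ≤ tblVal tabF (r ^ 2 * fS m1 m2 / fG m1 m2 ^ 2) (r ^ 3 * fY m1 m2 / fG m1 m2 ^ 3)
      (r ^ 4 * fT m1 m2 / fG m1 m2 ^ 4)
      ((ρ * r) ^ 2 * fS m1' m2' / fG m1' m2' ^ 2) ((ρ * r) ^ 3 * fY m1' m2' / fG m1' m2' ^ 3)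
      ((ρ * r) ^ 4 * fT m1' m2' / fG m1' m2' ^ 4) := by
  have e := table_scale n1 n2 n1' n2' m1 m2 m1' m2' z w hm1 hm2 hm1' hm2' hz hw tabN tabN_good
  simp only [hr, hρ] at e
  have h0 := nonneg_of_check hc _ (ptC_nonneg hm1 hm2 hm1' hm2' hz hw)
  have hG : 0 < fG m1 m2 := by unfold fG; positivity
  have hG' : 0 < fG m1' m2' := by unfold fG; positivity
  have hs : 0 < (2 * (1 + z)) ^ 8 * (2 * (1 + w)) ^ 6 * fG m1 m2 ^ 8 * fG m1' m2' ^ 8 := by positivity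
  have hR : 0 ≤ r ^ 6 * ρ ^ 2 * evalR (ptC m1 m2 m1' m2' z w) (E.Top n1 n2 n1' n2' tabN) := by
    apply mul_nonneg _ h0
    have h6 : 0 ≤ r ^ 6 := by
      have : r ^ 6 = (r ^ 3) ^ 2 := by ring
      rw [this]
      positivity
    positivity
  rw [← e] at hR
  exact nonneg_of_mul_nonneg_left hR hs

theorem rep_lo {r : ℝ} (h0 : 0 < r) (h1 : r ≤ 1 / 2) :
    ∃ z : ℝ, 0 ≤ z ∧ (((0 : ℕ) : ℝ) * z + ((1 : ℕ) : ℝ)) / (2 * (1 + z)) = r := by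
  refine ⟨1 / (2 * r) - 1, ?_, ?_⟩
  · have : 1 ≤ 1 / (2 * r) := by
      rw [le_div_iff₀ (by positivity)]
      linarith
    linarith
  · push_cast
    field_simp
    ring

theorem rep_hi {r : ℝ} (h0 : 1 / 2 < r) (h1 : r ≤ 1) :
    ∃ z : ℝ, 0 ≤ z ∧ (((1 : ℕ) : ℝ) * z + ((2 : ℕ) : ℝ)) / (2 * (1 + z)) = r := by
  have h2 : 0 < 2 * r - 1 := by linarith
  refine ⟨(2 - 2 * r) / (2 * r - 1), div_nonneg (by linarith) h2.le, ?_⟩
  have h3 : 1 + (2 - 2 * r) / (2 * r - 1) = 1 / (2 * r - 1) := by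
    field_simp
    ring
  push_cast
  rw [h3]
  field_simp
  ring

/-- Nonnegativity of the table for all directions and all radii. -/
theorem tab_param {r ρ m1 m2 m1' m2' : ℝ} (hr0 : 0 < r) (hr1 : r ≤ 1) (hρ0 : 0 < ρ) (hρ1 : ρ ≤ 1)
    (hm1 : 0 ≤ m1) (hm2 : 0 ≤ m2) (hm1' : 0 ≤ m1') (hm2' : 0 ≤ m2') :
    0 ≤ tblVal tabF (r ^ 2 * fS m1 m2 / fG m1 m2 ^ 2) (r ^ 3 * fY m1 m2 / fG m1 m2 ^ 3)
      (r ^ 4 * fT m1 m2 / fG m1 m2 ^ 4)
      ((ρ * r) ^ 2 * fS m1' m2' / fG m1' m2' ^ 2) ((ρ * r) ^ 3 * fY m1' m2' / fG m1' m2' ^ 3)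
      ((ρ * r) ^ 4 * fT m1' m2' / fG m1' m2' ^ 4) := by
  rcases le_or_gt r (1 / 2) with h | h <;> rcases le_or_gt ρ (1 / 2) with h' | h'
  · obtain ⟨z, hz, ez⟩ := rep_lo hr0 h
    obtain ⟨w, hw, ew⟩ := rep_lo hρ0 h'
    exact tab_cell check11 hm1 hm2 hm1' hm2' hz hw ez ew
  · obtain ⟨z, hz, ez⟩ := rep_lo hr0 h
    obtain ⟨w, hw, ew⟩ := rep_hi h' hρ1
    exact tab_cell check12 hm1 hm2 hm1' hm2' hz hw ez ew
  · obtain ⟨z, hz, ez⟩ := rep_hi h hr1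
    obtain ⟨w, hw, ew⟩ := rep_lo hρ0 h'
    exact tab_cell check21 hm1 hm2 hm1' hm2' hz hw ez ew
  · obtain ⟨z, hz, ez⟩ := rep_hi h hr1
    obtain ⟨w, hw, ew⟩ := rep_hi h' hρ1
    exact tab_cell check22 hm1 hm2 hm1' hm2' hz hw ez ew

end Vale.Agent.Lib.P154_q4
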