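import Vale.Agent.Lib.P154.DefsGW
import Vale.Agent.Lib.P154.Means
import Vale.Agent.Lib.P154_q4.Sig4Scalar

/-!
The corner `λ = 1` on Poisson trees: the channel is the identity, so the spins carry the root spin
exactly, and the question is whether the tree survives to level `n`.  For mean at most one it dies.
-/

noncomputable section

open Finset Filter Topology

namespace Vale.Agent.Lib.P154_q4

open Vale.Agent.Lib.P154

/-- The indicator that a truncated tree has a vertex at depth `n`. -/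
def alive : (n : ℕ) → GWTree n → ℝ
  | 0, _ => 1
  | n + 1, T => 1 - ∏ c : Fin T.1, (1 - alive n (T.2 c))

theorem alive_cases : ∀ (n : ℕ) (T : GWTree n), alive n T = 0 ∨ alive n T = 1
  | 0, _ => Or.inr rfl
  | n + 1, T => by
    change 1 - ∏ c : Fin T.1, (1 - alive n (T.2 c)) = 0 ∨ 1 - ∏ c : Fin T.1, (1 - alive n (T.2 c)) = 1
    by_cases h : ∃ c : Fin T.1, alive n (T.2 c) = 1
    · right
      obtain ⟨c, hc⟩ := h
      have : ∏ c : Fin T.1, (1 - alive n (T.2 c)) = 0 :=
        Finset.prod_eq_zero (Finset.mem_univ c) (by rw [hc]; norm_num)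
      rw [this]
      norm_num
    · left
      have : ∏ c : Fin T.1, (1 - alive n (T.2 c)) = 1 := by
        refine Finset.prod_eq_one fun c _ => ?_
        rcases alive_cases n (T.2 c) with h0 | h1
        · rw [h0]; norm_num
        · exact absurd ⟨c, h1⟩ h
      rw [this]
      norm_num

theorem alive_bounds (n : ℕ) (T : GWTree n) : 0 ≤ alive n T ∧ alive n T ≤ 1 := by
  rcases alive_cases n T with h | h <;> rw [h] <;> norm_num

theorem sum_potts_one {q : ℕ} (i : Fin q) (v : Fin q → ℝ) :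
    ∑ j : Fin q, potts q 1 i j * v j = v i := by
  unfold potts
  simp [sub_self]

/-- A dead tree carries no information. -/
theorem dead_lik {q : ℕ} : ∀ (n : ℕ) (T : GWTree n), alive n T = 0 →
    ∀ (i : Fin q) (τ : GWSpins q n T), gwLik q 1 n T i τ = 1
  | 0, _, h, _, _ => by
    exact absurd h (by norm_num [alive])
  | n + 1, T, h, i, τ => by
    change ∏ c : Fin T.1, ∑ j : Fin q, potts q 1 i j * gwLik q 1 n (T.2 c) j (τ c) = 1
    refine Finset.prod_eq_one fun c _ => ?_
    rw [sum_potts_one]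
    have hd : alive n (T.2 c) = 0 := by
      rcases alive_cases n (T.2 c) with h0 | h1
      · exact h0
      · exfalso
        have : ∏ c : Fin T.1, (1 - alive n (T.2 c)) = 0 :=
          Finset.prod_eq_zero (Finset.mem_univ c) (by rw [h1]; norm_num)
        have h2 : alive (n + 1) T = 1 - ∏ c : Fin T.1, (1 - alive n (T.2 c)) := rfl
        rw [h2, this] at h
        norm_num at h
    exact dead_lik n (T.2 c) hd i (τ c)

theorem lik_nonneg {q : ℕ} : ∀ (n : ℕ) (T : GWTree n) (i : Fin q) (τ : GWSpins q n T),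
    0 ≤ gwLik q 1 n T i τ
  | 0, _, i, τ => by
    change 0 ≤ (if i = gwSpinAtZero τ then (1 : ℝ) else 0)
    split_ifs <;> norm_num
  | n + 1, T, i, τ => by
    change 0 ≤ ∏ c : Fin T.1, ∑ j : Fin q, potts q 1 i j * gwLik q 1 n (T.2 c) j (τ c)
    refine Finset.prod_nonneg fun c _ => ?_
    rw [sum_potts_one]
    exact lik_nonneg n (T.2 c) i (τ c)

theorem lik_tot {q : ℕ} : ∀ (n : ℕ) (T : GWTree n) (i : Fin q), ∑ τ, gwLik q 1 n T i τ = 1
  | 0, _, i => by
    change ∑ τ : Fin q, (if i = τ then (1 : ℝ) else 0) = 1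
    simp
  | n + 1, T, i => by
    change ∑ τ : (c : Fin T.1) → GWSpins q n (T.2 c),
      ∏ c : Fin T.1, ∑ j : Fin q, potts q 1 i j * gwLik q 1 n (T.2 c) j (τ c) = 1
    have e : ∀ τ : (c : Fin T.1) → GWSpins q n (T.2 c),
        ∏ c : Fin T.1, ∑ j : Fin q, potts q 1 i j * gwLik q 1 n (T.2 c) j (τ c)
          = ∏ c : Fin T.1, gwLik q 1 n (T.2 c) i (τ c) := fun τ =>
      Finset.prod_congr rfl fun c _ => sum_potts_one i _
    simp only [e]
    have := Finset.prod_univ_sum (fun c : Fin T.1 => (Finset.univ : Finset (GWSpins q n (T.2 c))))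
      (fun c t => gwLik q 1 n (T.2 c) i t)
    rw [Fintype.piFinset_univ] at this
    rw [← this]
    exact Finset.prod_eq_one fun c _ => lik_tot n (T.2 c) i

theorem prob_nonneg {q : ℕ} (n : ℕ) (T : GWTree n) (τ : GWSpins q n T) : 0 ≤ gwProb q 1 n T τ := by
  unfold gwProb
  exact Finset.sum_nonneg fun i _ => mul_nonneg (by positivity) (lik_nonneg n T i τ)

theorem prob_tot {q : ℕ} (hq : 0 < q) (n : ℕ) (T : GWTree n) : ∑ τ, gwProb q 1 n T τ = 1 := by
  unfold gwProb
  rw [Finset.sum_comm]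
  simp only [← Finset.mul_sum, lik_tot, mul_one, Finset.sum_const, Finset.card_univ, Fintype.card_fin,
    nsmul_eq_mul]
  have : (q : ℝ) ≠ 0 := by positivity
  field_simp

/-- The advantage of one spin assignment is at most its probability. -/
theorem term_le {q : ℕ} (hq : 0 < q) (n : ℕ) (T : GWTree n) (τ : GWSpins q n T) :
    gwProb q 1 n T τ * ((1 / 2) * ∑ i : Fin q, |gwPost q 1 n T i τ - 1 / (q : ℝ)|) ≤ gwProb q 1 n T τ := by
  have hp := prob_nonneg n T τ
  rcases hp.eq_or_lt with h0 | hpos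
  · rw [← h0]
    simp
  · apply mul_le_of_le_one_right hpos.le
    have hq' : (0 : ℝ) < q := by exact_mod_cast hq
    have hpost : ∀ i, 0 ≤ gwPost q 1 n T i τ := fun i => by
      unfold gwPost
      exact div_nonneg (mul_nonneg (by positivity) (lik_nonneg n T i τ)) hpos.le
    have hsum : ∑ i : Fin q, gwPost q 1 n T i τ = 1 := by
      unfold gwPost
      rw [← Finset.sum_div]
      exact div_self hpos.ne'
    have hb : ∀ i, |gwPost q 1 n T i τ - 1 / (q : ℝ)| ≤ gwPost q 1 n T i τ + 1 / (q : ℝ) := fun i => by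
      rw [abs_le]
      have : 0 ≤ 1 / (q : ℝ) := by positivity
      constructor <;> linarith [hpost i]
    have h2 : ∑ i : Fin q, |gwPost q 1 n T i τ - 1 / (q : ℝ)|
        ≤ ∑ i : Fin q, (gwPost q 1 n T i τ + 1 / (q : ℝ)) := Finset.sum_le_sum fun i _ => hb i
    rw [Finset.sum_add_distrib, hsum] at h2
    simp only [Finset.sum_const, Finset.card_univ, Fintype.card_fin, nsmul_eq_mul] at h2
    have e : (q : ℝ) * (1 / (q : ℝ)) = 1 := by field_simp
    rw [e] at h2
    linarith

theorem adv_nonneg {q : ℕ} (n : ℕ) (T : GWTree n) : 0 ≤ gwTreeAdvantage q 1 n T := by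
  unfold gwTreeAdvantage
  refine Finset.sum_nonneg fun τ _ => mul_nonneg (prob_nonneg n T τ) ?_
  exact mul_nonneg (by norm_num) (Finset.sum_nonneg fun i _ => abs_nonneg _)

/-- The advantage given a tree is at most the indicator of survival. -/
theorem adv_le_alive {q : ℕ} (hq : 0 < q) (n : ℕ) (T : GWTree n) :
    gwTreeAdvantage q 1 n T ≤ alive n T := by
  rcases alive_cases n T with h0 | h1
  · rw [h0]
    apply le_of_eq
    unfold gwTreeAdvantage
    refine Finset.sum_eq_zero fun τ _ => ?_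
    have hq' : (q : ℝ) ≠ 0 := by positivity
    have hprob : gwProb q 1 n T τ = 1 := by
      unfold gwProb
      simp only [dead_lik n T h0, mul_one, Finset.sum_const, Finset.card_univ, Fintype.card_fin,
        nsmul_eq_mul]
      field_simp
    have hpost : ∀ i : Fin q, gwPost q 1 n T i τ = 1 / (q : ℝ) := fun i => by
      unfold gwPost
      rw [hprob, dead_lik n T h0]
      simp
    simp [hpost]
  · rw [h1]
    unfold gwTreeAdvantage
    refine (Finset.sum_le_sum fun τ _ => term_le hq n T τ).trans ?_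
    rw [prob_tot hq]

/-! ### The survival probability -/

/-- Survival probability. -/
def surv (p : ℕ → ℝ) (n : ℕ) : ℝ := Ew (gwWeight p n) (alive n)

theorem gwWeight_wprob' {p : ℕ → ℝ} (hp : WProb p) : ∀ n, WProb (gwWeight p n)
  | 0 => by
    refine ⟨fun _ => zero_le_one, ?_⟩
    have : HasSum (fun _ : Unit => (1 : ℝ)) 1 := by
      simpa using hasSum_unique (fun _ : Unit => (1 : ℝ))
    exact this
  | n + 1 => by
    have := hp.mix (gwWeight_wprob' hp n)
    exact this

theorem bdd_alive (n : ℕ) : BddF (alive n) :=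
  BddF.of_Icc (a := 0) (b := 1) fun T => alive_bounds n T

/-- Means of products over a power of weights. -/
theorem Ew_pow_prod {X : Type} {w : X → ℝ} (hw : WProb w) {g : X → ℝ} (hg : ∀ x, |g x| ≤ 1) (k : ℕ) :
    Ew (wPow w k) (fun ts => ∏ c : Fin k, g (ts c)) = Ew w g ^ k := by
  have hB : BddF g := ⟨1, hg⟩
  have hpb : ∀ k : ℕ, BddF (fun ts : Fin k → X => ∏ c : Fin k, g (ts c)) := fun k => by
    refine ⟨1, fun ts => ?_⟩
    rw [Finset.abs_prod]
    exact Finset.prod_le_one (fun c _ => abs_nonneg _) (fun c _ => hg _)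
  induction k with
  | zero =>
    simp only [Fin.prod_univ_zero, pow_zero]
    exact Ew_const (hw.pow 0) 1
  | succ k ih =>
    rw [Ew_pow_succ]
    have e : ∀ q : X × (Fin k → X),
        ∏ c : Fin (k + 1), g ((Fin.consEquiv (fun _ : Fin (k + 1) => X) q) c)
          = g q.1 * ∏ c : Fin k, g (q.2 c) := by
      intro q
      rw [Fin.prod_univ_succ]
      rfl
    rw [Ew_congr _ _ e, Ew_prod_mul hw (hw.pow k) hB (hpb k), ih, pow_succ]
    ring

theorem surv_zero {p : ℕ → ℝ} (hp : WProb p) : surv p 0 = 1 := by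
  unfold surv
  have : ∀ T : GWTree 0, alive 0 T = 1 := fun _ => rfl
  rw [Ew_congr _ _ this, Ew_const (gwWeight_wprob' hp 0)]

theorem surv_bounds {p : ℕ → ℝ} (hp : WProb p) (n : ℕ) : 0 ≤ surv p n ∧ surv p n ≤ 1 :=
  ⟨Ew_nonneg (gwWeight_wprob' hp n) fun T => (alive_bounds n T).1,
    Ew_le_of_le (gwWeight_wprob' hp n) (bdd_alive n) fun T => (alive_bounds n T).2⟩

/-- The survival recursion. -/
theorem surv_succ {p : ℕ → ℝ} (hp : WProb p) (n : ℕ) :
    surv p (n + 1) = ∑' k, p k * (1 - (1 - surv p n) ^ k) := by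
  have hw := gwWeight_wprob' hp n
  have := Ew_mix hp hw (F := fun T : GWTree (n + 1) => alive (n + 1) T) (bdd_alive (n + 1))
  refine Eq.trans this ?_
  congr 1
  funext k
  congr 1
  have hg : ∀ T : GWTree n, |1 - alive n T| ≤ 1 := fun T => by
    obtain ⟨h0, h1⟩ := alive_bounds n T
    rw [abs_le]
    constructor <;> linarith
  have hb : BddF (fun ts : Fin k → GWTree n => ∏ c : Fin k, (1 - alive n (ts c))) := by
    refine ⟨1, fun ts => ?_⟩
    rw [Finset.abs_prod]
    exact Finset.prod_le_one (fun c _ => abs_nonneg _) (fun c _ => hg _)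
  have e : ∀ ts : Fin k → GWTree n, alive (n + 1) (⟨k, ts⟩ : GWTree (n + 1))
      = 1 - ∏ c : Fin k, (1 - alive n (ts c)) := fun ts => rfl
  have e1 := Ew_pow_prod hw (g := fun T => 1 - alive n T) hg k
  have hc : BddF (fun _ : GWTree n => (1 : ℝ)) := BddF.of_Icc (a := 1) (b := 1) fun _ => ⟨le_rfl, le_rfl⟩
  have e2 : Ew (gwWeight p n) (fun T => 1 - alive n T) = 1 - surv p n := by
    rw [Ew_sub hw hc (bdd_alive n), Ew_const hw]
    rfl
  rw [e2] at e1
  rw [Ew_congr _ _ e, Ew_sub (hw.pow k) (BddF.of_Icc (a := 1) (b := 1) fun _ => ⟨le_rfl, le_rfl⟩) hb,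
    Ew_const (hw.pow k), e1]

/-! ### The Poisson law -/

theorem poisson_wprob' {d : ℝ} (hd : 0 ≤ d) : WProb (poissonLaw d) := by
  refine ⟨fun k => by unfold poissonLaw; positivity, ?_⟩
  have h := NormedSpace.expSeries_div_hasSum_exp (𝔸 := ℝ) d
  rw [← Real.exp_eq_exp_ℝ] at h
  have h2 := h.mul_left (Real.exp (-d))
  have e : Real.exp (-d) * Real.exp d = 1 := by rw [← Real.exp_add]; simp
  rw [e] at h2
  have e2 : poissonLaw d = fun i => Real.exp (-d) * (d ^ i / (i.factorial : ℝ)) := by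
    funext i
    unfold poissonLaw
    ring
  rw [e2]
  exact h2

/-- The probability generating function of the Poisson law. -/
theorem poisson_gen (d x : ℝ) :
    HasSum (fun k : ℕ => poissonLaw d k * x ^ k) (Real.exp (d * (x - 1))) := by
  have h := NormedSpace.expSeries_div_hasSum_exp (𝔸 := ℝ) (d * x)
  rw [← Real.exp_eq_exp_ℝ] at h
  have h2 := h.mul_left (Real.exp (-d))
  have e : Real.exp (-d) * Real.exp (d * x) = Real.exp (d * (x - 1)) := by
    rw [← Real.exp_add]
    congr 1
    ring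
  rw [e] at h2
  have e2 : (fun k : ℕ => poissonLaw d k * x ^ k)
      = fun k : ℕ => Real.exp (-d) * ((d * x) ^ k / (k.factorial : ℝ)) := by
    funext k
    unfold poissonLaw
    rw [mul_pow]
    ring
  rw [e2]
  exact h2

theorem surv_poisson {d : ℝ} (hd : 0 ≤ d) (n : ℕ) :
    surv (poissonLaw d) (n + 1) = 1 - Real.exp (-(d * surv (poissonLaw d) n)) := by
  have hp := poisson_wprob' hd
  rw [surv_succ hp]
  have h := (hp.hasSum.sub (poisson_gen d (1 - surv (poissonLaw d) n)))
  have e : (fun k => poissonLaw d k - poissonLaw d k * (1 - surv (poissonLaw d) n) ^ k)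
      = fun k => poissonLaw d k * (1 - (1 - surv (poissonLaw d) n) ^ k) := by
    funext k
    ring
  rw [e] at h
  rw [h.tsum_eq]
  congr 2
  ring

theorem surv_tendsto {d : ℝ} (hd0 : 0 ≤ d) (hd1 : d ≤ 1) :
    Tendsto (surv (poissonLaw d)) atTop (𝓝 0) := by
  have hp := poisson_wprob' hd0
  refine cubic_tendsto (κ := 1 / 4) (by norm_num) (fun n => (surv_bounds hp n).1) fun n => ?_
  rw [surv_poisson hd0]
  obtain ⟨h0, h1⟩ := surv_bounds hp n
  set x := surv (poissonLaw d) n with hx
  have h2 : Real.exp (-x) ≤ Real.exp (-(d * x)) := by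
    apply Real.exp_le_exp.2
    nlinarith
  have h3 : (1 - x / 2) ^ 2 ≤ Real.exp (-x) := by
    have h4 : 1 - x / 2 ≤ Real.exp (-(x / 2)) := by
      have := Real.add_one_le_exp (-(x / 2))
      linarith
    have h5 : Real.exp (-x) = Real.exp (-(x / 2)) ^ 2 := by
      rw [← Real.exp_nat_mul]
      congr 1
      push_cast
      ring
    rw [h5]
    exact pow_le_pow_left₀ (by linarith) h4 2
  have h6 : x ^ 3 ≤ x ^ 2 := by
    have : x ^ 3 = x ^ 2 * x := by ring
    rw [this]
    exact mul_le_of_le_one_right (sq_nonneg x) h1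
  nlinarith

/-- The corner `λ = 1` on Poisson trees of mean at most one. -/
theorem gwAdvantage_corner {q : ℕ} (hq : 0 < q) {d : ℝ} (hd0 : 0 ≤ d) (hd1 : d ≤ 1) :
    (∀ n, Summable (fun T : GWTree n => gwWeight (poissonLaw d) n T * gwTreeAdvantage q 1 n T))
      ∧ Tendsto (gwAdvantage (poissonLaw d) q 1) atTop (𝓝 0) := by
  have hp := poisson_wprob' hd0
  have hbd : ∀ n, BddF (fun T : GWTree n => gwTreeAdvantage q 1 n T) := fun n =>
    BddF.of_Icc (a := 0) (b := 1) fun T =>
      ⟨adv_nonneg n T, (adv_le_alive hq n T).trans (alive_bounds n T).2⟩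
  refine ⟨fun n => (gwWeight_wprob' hp n).summable_mul (hbd n), ?_⟩
  refine tendsto_of_tendsto_of_tendsto_of_le_of_le tendsto_const_nhds (surv_tendsto hd0 hd1) ?_ ?_
  · intro n
    exact tsum_nonneg fun T => mul_nonneg ((gwWeight_wprob' hp n).nonneg T) (adv_nonneg n T)
  · intro n
    exact Ew_mono (gwWeight_wprob' hp n) (hbd n) (bdd_alive n) fun T => adv_le_alive hq n T

end Vale.Agent.Lib.P154_q4
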