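import Mathlib

/-!
Pointwise quantities for the four-state Potts recursion.
For a positive vector `l` with mean `P`, put `a = l / P`, `u = a - 1`.  Then `sp l` is the mean of
`u ^ 2`, and `Dp l` is `P` times the mean of `u * log (1 + u)`.
-/

noncomputable section

namespace Vale.Agent.Lib.P154_q4

/-- Mean of four numbers. -/
def mean4 (l : Fin 4 → ℝ) : ℝ := (l 0 + l 1 + l 2 + l 3) / 4

/-- Mean of the squares over the mean. -/
def F4 (l : Fin 4 → ℝ) : ℝ := (l 0 ^ 2 + l 1 ^ 2 + l 2 ^ 2 + l 3 ^ 2) / (l 0 + l 1 + l 2 + l 3)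

/-- The squared deviation of the normalized vector. -/
def sp (l : Fin 4 → ℝ) : ℝ := F4 l / mean4 l - 1

/-- The relative entropy term. -/
def Dp (l : Fin 4 → ℝ) : ℝ :=
  ((l 0 - mean4 l) * Real.log (l 0 / mean4 l) + (l 1 - mean4 l) * Real.log (l 1 / mean4 l)
    + (l 2 - mean4 l) * Real.log (l 2 / mean4 l) + (l 3 - mean4 l) * Real.log (l 3 / mean4 l)) / 4

/-- The weight function; it takes values in `[0, 1]` on `[0, 3]`. -/
def nu (s : ℝ) : ℝ := 4 / 3 * s * (1 - s / 3)

/-- The pointwise inequality, averaged over relabellings of the second factor. -/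
def PointIneq : Prop :=
  ∀ l l' : Fin 4 → ℝ, (∀ i, 0 < l i) → (∀ i, 0 < l' i) →
    ∑ σ : Equiv.Perm (Fin 4), F4 (fun i => l i * l' (σ i))
      ≤ 24 * (mean4 l * mean4 l' * (1 + sp l + sp l')
        - (mean4 l * nu (sp l)) * (mean4 l' * sp l' - Dp l')
        - (mean4 l' * nu (sp l')) * (mean4 l * sp l - Dp l))

end Vale.Agent.Lib.P154_q4
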