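import Vale.Agent.Lib.P154_q4.Cert

/-!
From the cells to all pairs of probability vectors on four points.
-/

noncomputable section

open Filter Topology

namespace Vale.Agent.Lib.P154_q4

/-- The invariants in Fourier coordinates. -/
def iS (a b c : ℝ) : ℝ := a ^ 2 + b ^ 2 + c ^ 2
def iY (a b c : ℝ) : ℝ := 6 * (a * b * c)
def iT (a b c : ℝ) : ℝ := 4 * (a ^ 2 * b ^ 2 + a ^ 2 * c ^ 2 + b ^ 2 * c ^ 2)

/-- Nonnegativity for directions with a positive last coordinate. -/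
theorem tab_pos {b1 b2 g b1' b2' g' : ℝ} (h1 : 0 ≤ b1) (h2 : 0 ≤ b2) (hg : 0 < g)
    (h1' : 0 ≤ b1') (h2' : 0 ≤ b2') (hg' : 0 < g') (hr : b1 + b2 + 3 * g ≤ 1)
    (hr' : b1' + b2' + 3 * g' ≤ b1 + b2 + 3 * g) :
    0 ≤ tblVal tabF (iS (b1 + b2 + g) (b1 + g) (b1 - g)) (iY (b1 + b2 + g) (b1 + g) (b1 - g))
      (iT (b1 + b2 + g) (b1 + g) (b1 - g)) (iS (b1' + b2' + g') (b1' + g') (b1' - g'))
      (iY (b1' + b2' + g') (b1' + g') (b1' - g')) (iT (b1' + b2' + g') (b1' + g') (b1' - g')) := by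
  have hr0 : 0 < b1 + b2 + 3 * g := by positivity
  have hr0' : 0 < b1' + b2' + 3 * g' := by positivity
  set r := b1 + b2 + 3 * g with hrdef
  set r' := b1' + b2' + 3 * g' with hrdef'
  have key := tab_param (r := r) (ρ := r' / r) (m1 := b1 / g) (m2 := b2 / g) (m1' := b1' / g')
    (m2' := b2' / g') hr0 hr (div_pos hr0' hr0) ((div_le_one hr0).2 hr') (by positivity) (by positivity)
    (by positivity) (by positivity)
  have eG : fG (b1 / g) (b2 / g) = r / g := by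
    unfold fG
    rw [hrdef]
    field_simp
  have eG' : fG (b1' / g') (b2' / g') = r' / g' := by
    unfold fG
    rw [hrdef']
    field_simp
  have eρ : r' / r * r = r' := by field_simp
  rw [eG, eG', eρ] at key
  have hrne : r ≠ 0 := hr0.ne'
  have hrne' : r' ≠ 0 := hr0'.ne'
  have hgne : g ≠ 0 := hg.ne'
  have hgne' : g' ≠ 0 := hg'.ne'
  have e1 : r ^ 2 * fS (b1 / g) (b2 / g) / (r / g) ^ 2 = iS (b1 + b2 + g) (b1 + g) (b1 - g) := by
    unfold fS iS
    field_simp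
  have e2 : r ^ 3 * fY (b1 / g) (b2 / g) / (r / g) ^ 3 = iY (b1 + b2 + g) (b1 + g) (b1 - g) := by
    unfold fY iY
    field_simp
  have e3 : r ^ 4 * fT (b1 / g) (b2 / g) / (r / g) ^ 4 = iT (b1 + b2 + g) (b1 + g) (b1 - g) := by
    unfold fT iT
    field_simp
  have e4 : r' ^ 2 * fS (b1' / g') (b2' / g') / (r' / g') ^ 2
      = iS (b1' + b2' + g') (b1' + g') (b1' - g') := by
    unfold fS iS
    field_simp
  have e5 : r' ^ 3 * fY (b1' / g') (b2' / g') / (r' / g') ^ 3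
      = iY (b1' + b2' + g') (b1' + g') (b1' - g') := by
    unfold fY iY
    field_simp
  have e6 : r' ^ 4 * fT (b1' / g') (b2' / g') / (r' / g') ^ 4
      = iT (b1' + b2' + g') (b1' + g') (b1' - g') := by
    unfold fT iT
    field_simp
  rw [e1, e2, e3, e4, e5, e6] at key
  exact key

/-- Continuity of a table. -/
theorem tblVal_continuous (T : List Ent) {s y t s' y' t' : ℝ → ℝ} (hs : Continuous s) (hy : Continuous y)
    (ht : Continuous t) (hs' : Continuous s') (hy' : Continuous y') (ht' : Continuous t') :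
    Continuous fun e => tblVal T (s e) (y e) (t e) (s' e) (y' e) (t' e) := by
  induction T with
  | nil => simpa [tblVal] using continuous_const
  | cons F L ih =>
    simp only [tblVal, List.map_cons, List.sum_cons]
    refine Continuous.add ?_ ih
    unfold Ent.val
    fun_prop

/-- Nonnegativity for all directions. -/
theorem tab_closed {b1 b2 g b1' b2' g' : ℝ} (h1 : 0 ≤ b1) (h2 : 0 ≤ b2) (hg : 0 ≤ g)
    (h1' : 0 ≤ b1') (h2' : 0 ≤ b2') (hg' : 0 ≤ g') (hr : b1 + b2 + 3 * g ≤ 1)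
    (hr' : b1' + b2' + 3 * g' ≤ b1 + b2 + 3 * g) :
    0 ≤ tblVal tabF (iS (b1 + b2 + g) (b1 + g) (b1 - g)) (iY (b1 + b2 + g) (b1 + g) (b1 - g))
      (iT (b1 + b2 + g) (b1 + g) (b1 - g)) (iS (b1' + b2' + g') (b1' + g') (b1' - g'))
      (iY (b1' + b2' + g') (b1' + g') (b1' - g')) (iT (b1' + b2' + g') (b1' + g') (b1' - g')) := by
  let A : ℝ → ℝ := fun e => (1 - e) * b1 + (1 - e) * b2 + ((1 - e) * g + e / 6)
  let B : ℝ → ℝ := fun e => (1 - e) * b1 + ((1 - e) * g + e / 6)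
  let C : ℝ → ℝ := fun e => (1 - e) * b1 - ((1 - e) * g + e / 6)
  let A' : ℝ → ℝ := fun e => (1 - e) * b1' + (1 - e) * b2' + ((1 - e) * g' + e / 6)
  let B' : ℝ → ℝ := fun e => (1 - e) * b1' + ((1 - e) * g' + e / 6)
  let C' : ℝ → ℝ := fun e => (1 - e) * b1' - ((1 - e) * g' + e / 6)
  have hA : Continuous A := by fun_prop
  have hB : Continuous B := by fun_prop
  have hC : Continuous C := by fun_prop
  have hA' : Continuous A' := by fun_prop
  have hB' : Continuous B' := by fun_prop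
  have hC' : Continuous C' := by fun_prop
  have hcont : Continuous fun e => tblVal tabF (iS (A e) (B e) (C e)) (iY (A e) (B e) (C e))
      (iT (A e) (B e) (C e)) (iS (A' e) (B' e) (C' e)) (iY (A' e) (B' e) (C' e))
      (iT (A' e) (B' e) (C' e)) := by
    apply tblVal_continuous <;> (simp only [iS, iY, iT]; fun_prop)
  have hlim := (hcont.tendsto 0).mono_left (nhdsWithin_le_nhds (s := Set.Ioi (0 : ℝ)))
  have hev : ∀ᶠ e in 𝓝[>] (0 : ℝ), 0 ≤ tblVal tabF (iS (A e) (B e) (C e)) (iY (A e) (B e) (C e))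
      (iT (A e) (B e) (C e)) (iS (A' e) (B' e) (C' e)) (iY (A' e) (B' e) (C' e))
      (iT (A' e) (B' e) (C' e)) := by
    filter_upwards [Ioo_mem_nhdsGT (show (0 : ℝ) < 1 by norm_num)] with e he
    have he0 := he.1
    have he1 : 0 < 1 - e := by linarith [he.2]
    have hpos : 0 < (1 - e) * g + e / 6 := by positivity
    have hpos' : 0 < (1 - e) * g' + e / 6 := by positivity
    have t1 : (1 - e) * b1 + (1 - e) * b2 + 3 * ((1 - e) * g + e / 6) ≤ 1 := by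
      have : (1 - e) * (b1 + b2 + 3 * g) ≤ (1 - e) * 1 := mul_le_mul_of_nonneg_left hr he1.le
      nlinarith
    have t2 : (1 - e) * b1' + (1 - e) * b2' + 3 * ((1 - e) * g' + e / 6)
        ≤ (1 - e) * b1 + (1 - e) * b2 + 3 * ((1 - e) * g + e / 6) := by
      have := mul_le_mul_of_nonneg_left hr' he1.le
      nlinarith
    exact tab_pos (mul_nonneg he1.le h1) (mul_nonneg he1.le h2) hpos (mul_nonneg he1.le h1')
      (mul_nonneg he1.le h2') hpos' t1 t2
  have := ge_of_tendsto hlim hev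
  have e0 : ∀ x : ℝ, (1 - (0 : ℝ)) * x = x := fun x => by ring
  simp only [A, B, C, A', B', C', e0, zero_div, add_zero] at this
  exact this

/-! ### Probability vectors -/

/-- The invariants of a vector of mean one. -/
def vS (a : Fin 4 → ℝ) : ℝ := ∑ i, (a i - 1) ^ 2 / 4
def vY (a : Fin 4 → ℝ) : ℝ := ∑ i, (a i - 1) ^ 3 / 4
def vT (a : Fin 4 → ℝ) : ℝ := ∑ i, (a i - 1) ^ 4 / 4 - vS a ^ 2

theorem vS_comp (a : Fin 4 → ℝ) (π : Equiv.Perm (Fin 4)) : vS (a ∘ π) = vS a :=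
  Equiv.sum_comp π fun i => (a i - 1) ^ 2 / 4

theorem vY_comp (a : Fin 4 → ℝ) (π : Equiv.Perm (Fin 4)) : vY (a ∘ π) = vY a :=
  Equiv.sum_comp π fun i => (a i - 1) ^ 3 / 4

theorem vT_comp (a : Fin 4 → ℝ) (π : Equiv.Perm (Fin 4)) : vT (a ∘ π) = vT a := by
  unfold vT
  rw [vS_comp]
  congr 1
  exact Equiv.sum_comp π fun i => (a i - 1) ^ 4 / 4

/-- Fourier coordinates of a vector of mean one. -/
def th1 (a : Fin 4 → ℝ) : ℝ := (a 0 + a 1 - a 2 - a 3) / 4
def th2 (a : Fin 4 → ℝ) : ℝ := (a 0 - a 1 + a 2 - a 3) / 4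
def th3 (a : Fin 4 → ℝ) : ℝ := (a 0 - a 1 - a 2 + a 3) / 4

theorem coord_eq {a : Fin 4 → ℝ} (hs : ∑ i, a i = 4) :
    a 0 = 1 + th1 a + th2 a + th3 a ∧ a 1 = 1 + th1 a - th2 a - th3 a
      ∧ a 2 = 1 - th1 a + th2 a - th3 a ∧ a 3 = 1 - th1 a - th2 a + th3 a := by
  rw [Fin.sum_univ_four] at hs
  unfold th1 th2 th3
  refine ⟨?_, ?_, ?_, ?_⟩ <;> linarith

theorem vS_eq {a : Fin 4 → ℝ} (hs : ∑ i, a i = 4) : vS a = iS (th1 a) (th2 a) (th3 a) := by
  obtain ⟨h0, h1, h2, h3⟩ := coord_eq hs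
  unfold vS iS
  rw [Fin.sum_univ_four, h0, h1, h2, h3]
  ring

theorem vY_eq {a : Fin 4 → ℝ} (hs : ∑ i, a i = 4) : vY a = iY (th1 a) (th2 a) (th3 a) := by
  obtain ⟨h0, h1, h2, h3⟩ := coord_eq hs
  unfold vY iY
  rw [Fin.sum_univ_four, h0, h1, h2, h3]
  ring

theorem vT_eq {a : Fin 4 → ℝ} (hs : ∑ i, a i = 4) : vT a = iT (th1 a) (th2 a) (th3 a) := by
  have e := vS_eq hs
  obtain ⟨h0, h1, h2, h3⟩ := coord_eq hs
  unfold vT iT
  rw [e]
  unfold iS
  rw [Fin.sum_univ_four, h0, h1, h2, h3]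
  ring

/-- The table on two sorted vectors, the second one having the smaller radius. -/
theorem tab_sorted {a b : Fin 4 → ℝ} (hs : ∑ i, a i = 4) (hs' : ∑ i, b i = 4)
    (h01 : a 1 ≤ a 0) (h12 : a 2 ≤ a 1) (h23 : a 3 ≤ a 2) (h3 : 0 ≤ a 3)
    (k01 : b 1 ≤ b 0) (k12 : b 2 ≤ b 1) (k23 : b 3 ≤ b 2) (hab : a 3 ≤ b 3) :
    0 ≤ tblVal tabF (vS a) (vY a) (vT a) (vS b) (vY b) (vT b) := by
  rw [vS_eq hs, vY_eq hs, vT_eq hs, vS_eq hs', vY_eq hs', vT_eq hs']
  have hs1 := hs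
  have hs2 := hs'
  rw [Fin.sum_univ_four] at hs1 hs2
  have key := tab_closed (b1 := (a 0 - a 1) / 4) (b2 := (a 1 - a 2) / 2) (g := (a 2 - a 3) / 4)
    (b1' := (b 0 - b 1) / 4) (b2' := (b 1 - b 2) / 2) (g' := (b 2 - b 3) / 4)
    (by linarith) (by linarith) (by linarith) (by linarith) (by linarith) (by linarith)
    (by linarith) (by linarith)
  have e1 : (a 0 - a 1) / 4 + (a 1 - a 2) / 2 + (a 2 - a 3) / 4 = th1 a := by unfold th1; ring
  have e2 : (a 0 - a 1) / 4 + (a 2 - a 3) / 4 = th2 a := by unfold th2; ring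
  have e3 : (a 0 - a 1) / 4 - (a 2 - a 3) / 4 = th3 a := by unfold th3; ring
  have e4 : (b 0 - b 1) / 4 + (b 1 - b 2) / 2 + (b 2 - b 3) / 4 = th1 b := by unfold th1; ring
  have e5 : (b 0 - b 1) / 4 + (b 2 - b 3) / 4 = th2 b := by unfold th2; ring
  have e6 : (b 0 - b 1) / 4 - (b 2 - b 3) / 4 = th3 b := by unfold th3; ring
  rw [e1, e2, e3, e4, e5, e6] at key
  exact key

/-- Sorting a vector in decreasing order. -/
theorem exists_sorted (a : Fin 4 → ℝ) : ∃ π : Equiv.Perm (Fin 4),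
    (a ∘ π) 1 ≤ (a ∘ π) 0 ∧ (a ∘ π) 2 ≤ (a ∘ π) 1 ∧ (a ∘ π) 3 ≤ (a ∘ π) 2 := by
  have hm := Tuple.monotone_sort a
  refine ⟨Fin.revPerm.trans (Tuple.sort a), ?_, ?_, ?_⟩
  · exact hm (show (2 : Fin 4) ≤ 3 by decide)
  · exact hm (show (1 : Fin 4) ≤ 2 by decide)
  · exact hm (show (0 : Fin 4) ≤ 1 by decide)

/-- The table is symmetric in the two vectors. -/
theorem tabF_symm (s y t s' y' t' : ℝ) : tblVal tabF s y t s' y' t' = tblVal tabF s' y' t' s y t := by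
  simp only [tblVal, tabF, tabN, flatN, List.flatMap_cons, List.flatMap_nil, List.cons_append,
    List.nil_append, List.append_nil, List.map_cons, List.map_nil, List.sum_cons, List.sum_nil, Ent.val]
  norm_num
  ring

/-- The table on all pairs of probability vectors. -/
theorem tab_all {a b : Fin 4 → ℝ} (ha : ∀ i, 0 ≤ a i) (hb : ∀ i, 0 ≤ b i) (hs : ∑ i, a i = 4)
    (hs' : ∑ i, b i = 4) : 0 ≤ tblVal tabF (vS a) (vY a) (vT a) (vS b) (vY b) (vT b) := by
  obtain ⟨π, p1, p2, p3⟩ := exists_sorted a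
  obtain ⟨π', q1, q2, q3⟩ := exists_sorted b
  have hsa : ∑ i, (a ∘ π) i = 4 := by rw [← hs]; exact Equiv.sum_comp π a
  have hsb : ∑ i, (b ∘ π') i = 4 := by rw [← hs']; exact Equiv.sum_comp π' b
  rw [← vS_comp a π, ← vY_comp a π, ← vT_comp a π, ← vS_comp b π', ← vY_comp b π', ← vT_comp b π']
  rcases le_total ((a ∘ π) 3) ((b ∘ π') 3) with h | h
  · exact tab_sorted hsa hsb p1 p2 p3 (ha _) q1 q2 q3 h
  · rw [tabF_symm]
    exact tab_sorted hsb hsa q1 q2 q3 (hb _) p1 p2 p3 h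

end Vale.Agent.Lib.P154_q4
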