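import Mathlib

/-!
A polynomial lower bound for `t * log (1 + t)` on `(-1, 3]`.
-/

noncomputable section

namespace Vale.Agent.Lib.P154_q4

/-- The polynomial approximating the logarithm. -/
def polyP (t : ℝ) : ℝ :=
  t - t ^ 2 / 2 + t ^ 3 / 3 - t ^ 4 / 4 + 147 / 1000 * t ^ 5 - 48 / 1000 * t ^ 6 + 6 / 1000 * t ^ 7

/-- The difference of the logarithm and the polynomial. -/
def gapG (t : ℝ) : ℝ := Real.log (1 + t) - polyP t

theorem gapG_hasDeriv {t : ℝ} (ht : -1 < t) :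
    HasDerivAt gapG (1 / (1 + t) - (1 - t + t ^ 2 - t ^ 3 + 147 / 200 * t ^ 4 - 288 / 1000 * t ^ 5
      + 42 / 1000 * t ^ 6)) t := by
  have h1 : HasDerivAt (fun x : ℝ => 1 + x) 1 t := by simpa using (hasDerivAt_id t).const_add 1
  have h2 : HasDerivAt (fun x : ℝ => Real.log (1 + x)) (1 / (1 + t)) t := h1.log (by linarith)
  have h3 : HasDerivAt polyP (1 - t + t ^ 2 - t ^ 3 + 147 / 200 * t ^ 4 - 288 / 1000 * t ^ 5
      + 42 / 1000 * t ^ 6) t := by
    unfold polyP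
    have e : (1 - t + t ^ 2 - t ^ 3 + 147 / 200 * t ^ 4 - 288 / 1000 * t ^ 5 + 42 / 1000 * t ^ 6)
        = 1 - (2 * t ^ 1 * 1) / 2 + (3 * t ^ 2 * 1) / 3 - (4 * t ^ 3 * 1) / 4 + 147 / 1000 * (5 * t ^ 4 * 1)
          - 48 / 1000 * (6 * t ^ 5 * 1) + 6 / 1000 * (7 * t ^ 6 * 1) := by ring
    rw [e]
    exact ((((((hasDerivAt_id' t).sub (((hasDerivAt_id' t).pow 2).div_const 2)).add
      (((hasDerivAt_id' t).pow 3).div_const 3)).sub (((hasDerivAt_id' t).pow 4).div_const 4)).add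
      (((hasDerivAt_id' t).pow 5).const_mul _)).sub (((hasDerivAt_id' t).pow 6).const_mul _)).add
      (((hasDerivAt_id' t).pow 7).const_mul _)
  exact h2.sub h3

theorem deriv_nonneg_aux {t : ℝ} (h1 : -1 < t) (h2 : t ≤ 3) :
    0 ≤ 1 / (1 + t) - (1 - t + t ^ 2 - t ^ 3 + 147 / 200 * t ^ 4 - 288 / 1000 * t ^ 5
      + 42 / 1000 * t ^ 6) := by
  have hp : 0 < 1 + t := by linarith
  have h3 : 0 ≤ 3 - t := by linarith
  have hW : 0 ≤ 265 / 1000 - 447 / 1000 * t + 246 / 1000 * t ^ 2 - 42 / 1000 * t ^ 3 := by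
    nlinarith [mul_nonneg h3 (sq_nonneg (t - 7 / 5)), mul_nonneg hp.le (sq_nonneg (t - 12 / 5))]
  have e : 1 / (1 + t) - (1 - t + t ^ 2 - t ^ 3 + 147 / 200 * t ^ 4 - 288 / 1000 * t ^ 5
      + 42 / 1000 * t ^ 6) = t ^ 4 * (265 / 1000 - 447 / 1000 * t + 246 / 1000 * t ^ 2 - 42 / 1000 * t ^ 3)
        / (1 + t) := by
    field_simp
    ring
  rw [e]
  positivity

theorem gapG_mono : MonotoneOn gapG (Set.Ioc (-1) 3) := by
  apply monotoneOn_of_deriv_nonneg (convex_Ioc _ _)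
  · intro t ht
    exact (gapG_hasDeriv ht.1).continuousAt.continuousWithinAt
  · intro t ht
    rw [interior_Ioc] at ht
    exact (gapG_hasDeriv ht.1).differentiableAt.differentiableWithinAt
  · intro t ht
    rw [interior_Ioc] at ht
    rw [(gapG_hasDeriv ht.1).deriv]
    exact deriv_nonneg_aux ht.1 ht.2.le

theorem gapG_zero : gapG 0 = 0 := by
  unfold gapG polyP
  simp

/-- The bound. -/
theorem t_log_ge {t : ℝ} (h1 : -1 < t) (h2 : t ≤ 3) : t * polyP t ≤ t * Real.log (1 + t) := by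
  have h0 : (0 : ℝ) ∈ Set.Ioc (-1 : ℝ) 3 := ⟨by norm_num, by norm_num⟩
  have ht : t ∈ Set.Ioc (-1 : ℝ) 3 := ⟨h1, h2⟩
  rcases le_total 0 t with h | h
  · have := gapG_mono h0 ht h
    rw [gapG_zero] at this
    have h3 : 0 ≤ t * gapG t := mul_nonneg h this
    unfold gapG at h3
    linarith
  · have := gapG_mono ht h0 h
    rw [gapG_zero] at this
    have h3 : 0 ≤ t * gapG t := mul_nonneg_of_nonpos_of_nonpos h this
    unfold gapG at h3
    linarith

end Vale.Agent.Lib.P154_q4
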