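import Vale.Agent.Lib.P154_q4.Defs
import Vale.Agent.Lib.P154_q4.Avg
import Vale.Agent.Lib.P154_q4.LogB

set_option linter.defProp false

/-!
The pointwise inequality for the four-state recursion.
-/

noncomputable section

namespace Vale.Agent.Lib.P154_q4

/-- The polynomial majorant of the entropy gap, in terms of the invariants. -/
def Hb (s y t : ℝ) : ℝ :=
  y / 2 - (t + s ^ 2) / 3 + (10 / 3 * (s * y)) / 4 - 147 / 1000 * (s ^ 3 + 3 * (s * t) + 4 / 3 * y ^ 2)
    + 48 / 1000 * (7 * (s ^ 2 * y) + 7 / 3 * (y * t))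
    - 6 / 1000 * (t ^ 2 + 64 / 9 * (s * y ^ 2) + 6 * (s ^ 2 * t) + s ^ 4)

/-- The table of the main inequality in terms of the other parts. -/
theorem tabF_decomp (s y t s' y' t' : ℝ) :
    tblVal tabF s y t s' y' t'
      = 432000 * (s + s' - tblVal tabAv s y t s' y' t' / 3456 - nu s * Hb s' y' t' - nu s' * Hb s y t) := by
  simp only [tblVal, tabF, tabAv, tabN, flatN, List.flatMap_cons, List.flatMap_nil, List.cons_append,
    List.nil_append, List.append_nil, List.map_cons, List.map_nil, List.sum_cons, List.sum_nil, Ent.val,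
    nu, Hb]
  norm_num
  ring

/-- The entropy functional of a vector of mean one. -/
def vD (a : Fin 4 → ℝ) : ℝ := ∑ i, (a i - 1) * Real.log (a i) / 4

theorem Hb_eq {a : Fin 4 → ℝ} (hs : ∑ i, a i = 4) :
    Hb (vS a) (vY a) (vT a) = ∑ i, ((a i - 1) ^ 2 - (a i - 1) * polyP (a i - 1)) / 4 := by
  rw [vS_eq hs, vY_eq hs, vT_eq hs]
  obtain ⟨h0, h1, h2, h3⟩ := coord_eq hs
  rw [Fin.sum_univ_four, h0, h1, h2, h3]
  unfold Hb iS iY iT polyP
  ring

theorem entry_range {a : Fin 4 → ℝ} (ha : ∀ i, 0 < a i) (hs : ∑ i, a i = 4) (i : Fin 4) :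
    -1 < a i - 1 ∧ a i - 1 ≤ 3 := by
  refine ⟨by linarith [ha i], ?_⟩
  have h := Finset.single_le_sum (f := a) (fun j _ => (ha j).le) (Finset.mem_univ i)
  rw [hs] at h
  linarith

theorem H_le_Hb {a : Fin 4 → ℝ} (ha : ∀ i, 0 < a i) (hs : ∑ i, a i = 4) :
    vS a - vD a ≤ Hb (vS a) (vY a) (vT a) := by
  rw [Hb_eq hs]
  unfold vS vD
  rw [← Finset.sum_sub_distrib]
  refine Finset.sum_le_sum fun i _ => ?_
  obtain ⟨h1, h2⟩ := entry_range ha hs i
  have := t_log_ge h1 h2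
  have e : 1 + (a i - 1) = a i := by ring
  rw [e] at this
  have e2 : (a i - 1) ^ 2 / 4 - (a i - 1) * Real.log (a i) / 4
      = ((a i - 1) ^ 2 - (a i - 1) * Real.log (a i)) / 4 := by ring
  rw [e2]
  apply div_le_div_of_nonneg_right _ (by norm_num)
  linarith

theorem vS_le {a : Fin 4 → ℝ} (ha : ∀ i, 0 < a i) (hs : ∑ i, a i = 4) : vS a ≤ 3 := by
  rw [Fin.sum_univ_four] at hs
  unfold vS
  rw [Fin.sum_univ_four]
  have h0 := ha 0
  have h1 := ha 1
  have h2 := ha 2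
  have h3 := ha 3
  have e : a 3 = 4 - a 0 - a 1 - a 2 := by linarith
  have h01 := mul_pos h0 h1
  have h02 := mul_pos h0 h2
  have h03 := mul_pos h0 h3
  have h12 := mul_pos h1 h2
  have h13 := mul_pos h1 h3
  have h23 := mul_pos h2 h3
  have : (a 0 + a 1 + a 2 + a 3) ^ 2 = 16 := by rw [hs]; norm_num
  nlinarith

theorem vS_nonneg (a : Fin 4 → ℝ) : 0 ≤ vS a := by
  unfold vS
  exact Finset.sum_nonneg fun i _ => by positivity

theorem nu_nonneg {s : ℝ} (h0 : 0 ≤ s) (h1 : s ≤ 3) : 0 ≤ nu s := by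
  unfold nu
  have : 0 ≤ 1 - s / 3 := by linarith
  positivity

theorem F4_aux (S Q : ℝ) (hQ : Q ≤ S ^ 2) :
    Q ≤ (S / 4 + ((4 * Q - S ^ 2)
      * (16384 - 4096 * (S - 4) + 1024 * (S - 4) ^ 2 - 256 * (S - 4) ^ 3 + 28 * (S - 4) ^ 4 - (S - 4) ^ 5)
      + 3 * ((4 + (S - 4)) * ((S - 4) ^ 4 * (12 - (S - 4)) ^ 2))) / 262144) * S := by
  have hpos : 0 ≤ S ^ 2 - Q := by linarith
  have key : 0 ≤ (S - 4) ^ 4 * (12 - (S - 4)) ^ 2 * (S ^ 2 - Q) / 65536 := by positivity
  have e : (S / 4 + ((4 * Q - S ^ 2)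
      * (16384 - 4096 * (S - 4) + 1024 * (S - 4) ^ 2 - 256 * (S - 4) ^ 3 + 28 * (S - 4) ^ 4 - (S - 4) ^ 5)
      + 3 * ((4 + (S - 4)) * ((S - 4) ^ 4 * (12 - (S - 4)) ^ 2))) / 262144) * S - Q
      = (S - 4) ^ 4 * (12 - (S - 4)) ^ 2 * (S ^ 2 - Q) / 65536 := by ring
  linarith

/-- The majorant of the square functional. -/
theorem F4_le {l0 l1 l2 l3 : ℝ} (h0 : 0 < l0) (h1 : 0 < l1) (h2 : 0 < l2) (h3 : 0 < l3) :
    (l0 ^ 2 + l1 ^ 2 + l2 ^ 2 + l3 ^ 2) / (l0 + l1 + l2 + l3)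
      ≤ (l0 + l1 + l2 + l3) / 4 + W l0 l1 l2 l3 / 262144 := by
  have hS : 0 < l0 + l1 + l2 + l3 := by positivity
  rw [div_le_iff₀ hS]
  unfold W
  apply F4_aux
  have := mul_pos h0 h1
  have := mul_pos h0 h2
  have := mul_pos h0 h3
  have := mul_pos h1 h2
  have := mul_pos h1 h3
  have := mul_pos h2 h3
  nlinarith

/-- The number of permutations sending `i` to `j`. -/
def card_fiber : ∀ i j : Fin 4, (Finset.univ.filter fun σ : Equiv.Perm (Fin 4) => σ i = j).card = 6 := by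
  decide +kernel

theorem sum_perm_apply (b : Fin 4 → ℝ) (i : Fin 4) : ∑ σ : Equiv.Perm (Fin 4), b (σ i) = 6 * ∑ j, b j := by
  rw [← Finset.sum_fiberwise (s := Finset.univ) (g := fun σ : Equiv.Perm (Fin 4) => σ i), Finset.mul_sum]
  refine Finset.sum_congr rfl fun j _ => ?_
  have : ∀ σ ∈ Finset.univ.filter (fun σ : Equiv.Perm (Fin 4) => σ i = j), b (σ i) = b j := by
    intro σ hσ
    rw [(Finset.mem_filter.1 hσ).2]
  rw [Finset.sum_congr rfl this, Finset.sum_const, card_fiber]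
  simp

/-- The total mass over the relabellings. -/
theorem sum_mass {a b : Fin 4 → ℝ} (hs : ∑ i, a i = 4) (hs' : ∑ i, b i = 4) :
    ∑ σ : Equiv.Perm (Fin 4), (a 0 * b (σ 0) + a 1 * b (σ 1) + a 2 * b (σ 2) + a 3 * b (σ 3)) / 4 = 24 := by
  rw [← Finset.sum_div]
  simp only [Finset.sum_add_distrib, ← Finset.mul_sum, sum_perm_apply, hs']
  rw [Fin.sum_univ_four] at hs
  have : a 0 * (6 * 4) + a 1 * (6 * 4) + a 2 * (6 * 4) + a 3 * (6 * 4) = 24 * (a 0 + a 1 + a 2 + a 3) := by ring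
  rw [this, hs]
  norm_num

/-- The inequality for vectors of mean one. -/
theorem point_norm {a b : Fin 4 → ℝ} (ha : ∀ i, 0 < a i) (hb : ∀ i, 0 < b i) (hs : ∑ i, a i = 4)
    (hs' : ∑ i, b i = 4) :
    ∑ σ : Equiv.Perm (Fin 4), F4 (fun i => a i * b (σ i))
      ≤ 24 * (1 + vS a + vS b - nu (vS a) * (vS b - vD b) - nu (vS b) * (vS a - vD a)) := by
  have h1 : ∑ σ : Equiv.Perm (Fin 4), F4 (fun i => a i * b (σ i))
      ≤ ∑ σ : Equiv.Perm (Fin 4), ((a 0 * b (σ 0) + a 1 * b (σ 1) + a 2 * b (σ 2) + a 3 * b (σ 3)) / 4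
        + W (a 0 * b (σ 0)) (a 1 * b (σ 1)) (a 2 * b (σ 2)) (a 3 * b (σ 3)) / 262144) := by
    refine Finset.sum_le_sum fun σ _ => ?_
    exact F4_le (mul_pos (ha _) (hb _)) (mul_pos (ha _) (hb _)) (mul_pos (ha _) (hb _)) (mul_pos (ha _) (hb _))
  rw [Finset.sum_add_distrib, sum_mass hs hs', ← Finset.sum_div] at h1
  have h2 := avg_id hs hs'
  have hAll := tab_all (fun i => (ha i).le) (fun i => (hb i).le) hs hs'
  rw [tabF_decomp] at hAll
  have h3 := H_le_Hb ha hs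
  have h4 := H_le_Hb hb hs'
  have hn1 := nu_nonneg (vS_nonneg a) (vS_le ha hs)
  have hn2 := nu_nonneg (vS_nonneg b) (vS_le hb hs')
  have h5 := mul_le_mul_of_nonneg_left h3 hn2
  have h6 := mul_le_mul_of_nonneg_left h4 hn1
  set A := tblVal tabAv (vS a) (vY a) (vT a) (vS b) (vY b) (vT b) with hA
  have hSum : ∑ σ : Equiv.Perm (Fin 4), W (a 0 * b (σ 0)) (a 1 * b (σ 1)) (a 2 * b (σ 2)) (a 3 * b (σ 3))
      = 16384 * A / 9 := by
    field_simp
    linarith
  rw [hSum] at h1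
  have h7 : 16384 * A / 9 / 262144 = 24 * (A / 3456) := by ring
  rw [h7] at h1
  nlinarith

theorem mean4_pos {l : Fin 4 → ℝ} (h : ∀ i, 0 < l i) : 0 < mean4 l := by
  unfold mean4
  have h0 := h 0
  have h1 := h 1
  have h2 := h 2
  have h3 := h 3
  positivity

theorem F4_smul (k : ℝ) (hk : k ≠ 0) (l : Fin 4 → ℝ) : F4 (fun i => k * l i) = k * F4 l := by
  unfold F4
  have e1 : k * l 0 + k * l 1 + k * l 2 + k * l 3 = k * (l 0 + l 1 + l 2 + l 3) := by ring
  have e2 : (k * l 0) ^ 2 + (k * l 1) ^ 2 + (k * l 2) ^ 2 + (k * l 3) ^ 2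
      = k ^ 2 * (l 0 ^ 2 + l 1 ^ 2 + l 2 ^ 2 + l 3 ^ 2) := by ring
  rw [e1, e2]
  by_cases h : l 0 + l 1 + l 2 + l 3 = 0
  · simp [h]
  · field_simp

theorem F4_of_sum {a : Fin 4 → ℝ} (hs : ∑ i, a i = 4) : vS a = F4 a - 1 := by
  rw [Fin.sum_univ_four] at hs
  unfold vS F4
  rw [Fin.sum_univ_four, hs]
  have e : a 3 = 4 - a 0 - a 1 - a 2 := by linarith
  rw [e]
  ring

/-- The main pointwise inequality. -/
theorem pointIneq : PointIneq := by
  intro l l' hl hl'
  have hP := mean4_pos hl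
  have hP' := mean4_pos hl'
  set P := mean4 l with hPdef
  set P' := mean4 l' with hPdef'
  let a : Fin 4 → ℝ := fun i => l i / P
  let b : Fin 4 → ℝ := fun i => l' i / P'
  have hlk : ∀ i, l i = P * a i := fun i => by simp only [a]; field_simp
  have hlk' : ∀ i, l' i = P' * b i := fun i => by simp only [b]; field_simp
  have ha : ∀ i, 0 < a i := fun i => div_pos (hl i) hP
  have hb : ∀ i, 0 < b i := fun i => div_pos (hl' i) hP'
  have hs : ∑ i, a i = 4 := by
    rw [Fin.sum_univ_four]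
    simp only [a]
    have h0 : l 0 + l 1 + l 2 + l 3 = 4 * P := by rw [hPdef]; unfold mean4; ring
    rw [← add_div, ← add_div, ← add_div, h0]
    field_simp
  have hs' : ∑ i, b i = 4 := by
    rw [Fin.sum_univ_four]
    simp only [b]
    have h0 : l' 0 + l' 1 + l' 2 + l' 3 = 4 * P' := by rw [hPdef']; unfold mean4; ring
    rw [← add_div, ← add_div, ← add_div, h0]
    field_simp
  have hF : F4 l = P * F4 a := by
    have : l = fun i => P * a i := funext hlk
    conv_lhs => rw [this]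
    exact F4_smul P hP.ne' a
  have hF' : F4 l' = P' * F4 b := by
    have : l' = fun i => P' * b i := funext hlk'
    conv_lhs => rw [this]
    exact F4_smul P' hP'.ne' b
  have hsp : sp l = vS a := by
    unfold sp
    rw [F4_of_sum hs, hF, ← hPdef]
    field_simp
  have hsp' : sp l' = vS b := by
    unfold sp
    rw [F4_of_sum hs', hF', ← hPdef']
    field_simp
  have hD : Dp l = P * vD a := by
    unfold Dp vD
    rw [Fin.sum_univ_four, ← hPdef]
    have e : ∀ i, l i - P = P * (a i - 1) := fun i => by rw [hlk i]; ring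
    simp only [e]
    have e2 : ∀ i, l i / P = a i := fun _ => rfl
    simp only [e2]
    ring
  have hD' : Dp l' = P' * vD b := by
    unfold Dp vD
    rw [Fin.sum_univ_four, ← hPdef']
    have e : ∀ i, l' i - P' = P' * (b i - 1) := fun i => by rw [hlk' i]; ring
    simp only [e]
    have e2 : ∀ i, l' i / P' = b i := fun _ => rfl
    simp only [e2]
    ring
  have hsum : ∑ σ : Equiv.Perm (Fin 4), F4 (fun i => l i * l' (σ i))
      = P * P' * ∑ σ : Equiv.Perm (Fin 4), F4 (fun i => a i * b (σ i)) := by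
    rw [Finset.mul_sum]
    refine Finset.sum_congr rfl fun σ _ => ?_
    have : (fun i => l i * l' (σ i)) = fun i => (P * P') * (a i * b (σ i)) := by
      funext i
      rw [hlk i, hlk' (σ i)]
      ring
    rw [this]
    exact F4_smul (P * P') (mul_pos hP hP').ne' _
  rw [hsum, hsp, hsp', hD, hD']
  have key := point_norm ha hb hs hs'
  have hPP : 0 ≤ P * P' := (mul_pos hP hP').le
  have := mul_le_mul_of_nonneg_left key hPP
  refine this.trans_eq ?_
  ring

end Vale.Agent.Lib.P154_q4
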