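import Vale.Agent.Lib.P154_q4.CellE

/-!
Semantics of the cell expressions and the rescaling of the table.
-/

noncomputable section

namespace Vale.Agent.Lib.P154_q4

open Vale.Agent.Lib.Common.Kron Vale.Agent.Lib.Common.Kron.PE

/-- The forms on a direction. -/
def fS (m1 m2 : ℝ) : ℝ := (m1 + m2 + 1) ^ 2 + (m1 + 1) ^ 2 + (m1 - 1) ^ 2
def fY (m1 m2 : ℝ) : ℝ := 6 * ((m1 + m2 + 1) * ((m1 + 1) * (m1 - 1)))
def fT (m1 m2 : ℝ) : ℝ :=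
  4 * ((m1 + m2 + 1) ^ 2 * (m1 + 1) ^ 2 + (m1 + m2 + 1) ^ 2 * (m1 - 1) ^ 2
    + (m1 + 1) ^ 2 * (m1 - 1) ^ 2)
def fG (m1 m2 : ℝ) : ℝ := m1 + m2 + 3

section eval
variable (x : ℕ → ℝ) (i j : ℕ)

theorem eval_S : evalR x (E.S (v i) (v j)) = fS (x i) (x j) := by
  simp [E.S, evalR, fS, sub_eq_add_neg]

theorem eval_Y : evalR x (E.Y (v i) (v j)) = fY (x i) (x j) := by
  simp [E.Y, evalR, fY, sub_eq_add_neg]

theorem eval_T : evalR x (E.T (v i) (v j)) = fT (x i) (x j) := by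
  simp [E.T, evalR, fT, sub_eq_add_neg]

theorem eval_Sg : evalR x (E.Sg (v i) (v j)) = fG (x i) (x j) := by
  simp [E.Sg, evalR, fG]

theorem eval_Hom (i1 i2 i3 : ℕ) : evalR x (E.Hom (v i) (v j) i1 i2 i3)
    = (fS (x i) (x j) ^ i1 * (fY (x i) (x j) ^ i2 * fT (x i) (x j) ^ i3))
      * fG (x i) (x j) ^ (8 - E.dg i1 i2 i3) := by
  simp only [E.Hom, evalR, eval_S, eval_Y, eval_T, eval_Sg]

theorem eval_Brn (n1 n2 d k : ℕ) : evalR x (E.Brn n1 n2 d k (v i))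
    = ((n1 : ℝ) * x i + n2) ^ k * (2 * (1 + x i)) ^ (d - k) := by
  simp [E.Brn, evalR]

end eval

/-- The sign of an entry as a real. -/
def Ent.cf (F : Ent) : ℝ := if F.sg then (F.c : ℝ) else -(F.c : ℝ)

theorem eval_cf (x : ℕ → ℝ) (F : Ent) :
    evalR x (if F.sg then c F.c else neg (c F.c)) = F.cf := by
  unfold Ent.cf
  split_ifs <;> simp [evalR]

/-- Side conditions on the exponents of an entry. -/
def Ent.good (F : Ent) : Bool :=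
  Nat.ble 2 (E.dg F.j1 F.j2 F.j3) && Nat.ble 6 (E.dg F.i1 F.i2 F.i3 + E.dg F.j1 F.j2 F.j3)
    && Nat.ble (E.dg F.i1 F.i2 F.i3 + E.dg F.j1 F.j2 F.j3) 14
    && Nat.ble (E.dg F.j1 F.j2 F.j3) 8 && Nat.ble (E.dg F.i1 F.i2 F.i3) 8

theorem mono_scale (r S Y T G : ℝ) (i1 i2 i3 : ℕ) :
    (r ^ 2 * S / G ^ 2) ^ i1 * (r ^ 3 * Y / G ^ 3) ^ i2 * (r ^ 4 * T / G ^ 4) ^ i3
      = r ^ E.dg i1 i2 i3 * (S ^ i1 * (Y ^ i2 * T ^ i3)) / G ^ E.dg i1 i2 i3 := by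
  unfold E.dg
  simp only [div_pow, mul_pow, ← pow_mul, pow_add]
  ring

theorem pow_div_mul_pow (A B : ℝ) (hB : B ≠ 0) (k n : ℕ) (h : k ≤ n) :
    (A / B) ^ k * B ^ n = A ^ k * B ^ (n - k) := by
  obtain ⟨l, rfl⟩ := Nat.exists_eq_add_of_le h
  rw [Nat.add_sub_cancel_left, pow_add, div_pow]
  field_simp

theorem term_scale (F : Ent) (hF : F.good = true) (A B A' B' S Y T G S' Y' T' G' : ℝ)
    (hB : B ≠ 0) (hB' : B' ≠ 0) (hG : G ≠ 0) (hG' : G' ≠ 0) :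
    F.val ((A / B) ^ 2 * S / G ^ 2) ((A / B) ^ 3 * Y / G ^ 3) ((A / B) ^ 4 * T / G ^ 4)
        ((A' / B' * (A / B)) ^ 2 * S' / G' ^ 2) ((A' / B' * (A / B)) ^ 3 * Y' / G' ^ 3)
        ((A' / B' * (A / B)) ^ 4 * T' / G' ^ 4) * (B ^ 8 * B' ^ 6 * G ^ 8 * G' ^ 8)
      = (A / B) ^ 6 * (A' / B') ^ 2 *
        (F.cf * ((A ^ (E.dg F.i1 F.i2 F.i3 + E.dg F.j1 F.j2 F.j3 - 6)
              * B ^ (8 - (E.dg F.i1 F.i2 F.i3 + E.dg F.j1 F.j2 F.j3 - 6)))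
            * (A' ^ (E.dg F.j1 F.j2 F.j3 - 2) * B' ^ (6 - (E.dg F.j1 F.j2 F.j3 - 2)))
            * (((S ^ F.i1 * (Y ^ F.i2 * T ^ F.i3)) * G ^ (8 - E.dg F.i1 F.i2 F.i3))
              * ((S' ^ F.j1 * (Y' ^ F.j2 * T' ^ F.j3)) * G' ^ (8 - E.dg F.j1 F.j2 F.j3))))) := by
  simp only [Ent.good, Bool.and_eq_true] at hF
  obtain ⟨⟨⟨⟨h1, h2⟩, h3⟩, h4⟩, h5⟩ := hF
  have h1' := Nat.le_of_ble_eq_true h1
  have h2' := Nat.le_of_ble_eq_true h2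
  have h3' := Nat.le_of_ble_eq_true h3
  have h4' := Nat.le_of_ble_eq_true h4
  have h5' := Nat.le_of_ble_eq_true h5
  set m := E.dg F.i1 F.i2 F.i3 with hm
  set m' := E.dg F.j1 F.j2 F.j3 with hm'
  set r := A / B with hr
  set ρ := A' / B' with hρ
  have e1 := mono_scale r S Y T G F.i1 F.i2 F.i3
  have e2 := mono_scale (ρ * r) S' Y' T' G' F.j1 F.j2 F.j3
  rw [← hm] at e1
  rw [← hm'] at e2
  have g1 : G ^ 8 = G ^ m * G ^ (8 - m) := by rw [← pow_add]; congr 1; omega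
  have g2 : G' ^ 8 = G' ^ m' * G' ^ (8 - m') := by rw [← pow_add]; congr 1; omega
  have r1 : r ^ m * r ^ m' = r ^ 6 * r ^ (m + m' - 6) := by
    rw [← pow_add, ← pow_add]; congr 1; omega
  have r2 : ρ ^ m' = ρ ^ 2 * ρ ^ (m' - 2) := by
    rw [← pow_add]; congr 1; omega
  have p1 := pow_div_mul_pow A B hB (m + m' - 6) 8 (by omega)
  have p2 := pow_div_mul_pow A' B' hB' (m' - 2) 6 (by omega)
  rw [← hr] at p1
  rw [← hρ] at p2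
  have hGm : G ^ m ≠ 0 := pow_ne_zero _ hG
  have hGm' : G' ^ m' ≠ 0 := pow_ne_zero _ hG'
  rw [← p1, ← p2]
  unfold Ent.val
  change F.cf * _ * _ * _ = _
  rw [e1, e2, g1, g2, mul_pow ρ r m']
  field_simp
  rw [r2]
  linear_combination (F.cf * S ^ F.i1 * Y ^ F.i2 * T ^ F.i3 * (ρ ^ 2 * ρ ^ (m' - 2))
    * S' ^ F.j1 * Y' ^ F.j2 * T' ^ F.j3) * r1

/-- Evaluation point of the cell expressions. -/
def ptC (m1 m2 m1' m2' z w : ℝ) : ℕ → ℝ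
  | 0 => m1
  | 1 => m2
  | 2 => m1'
  | 3 => m2'
  | 4 => z
  | 5 => w
  | _ => 0

theorem ptC_nonneg {m1 m2 m1' m2' z w : ℝ} (h1 : 0 ≤ m1) (h2 : 0 ≤ m2) (h3 : 0 ≤ m1') (h4 : 0 ≤ m2')
    (h5 : 0 ≤ z) (h6 : 0 ≤ w) (i : ℕ) : 0 ≤ ptC m1 m2 m1' m2' z w i := by
  rcases i with _ | _ | _ | _ | _ | _ | i
  · exact h1
  · exact h2
  · exact h3
  · exact h4
  · exact h5
  · exact h6
  · exact le_rfl

section nested
variable (n1 n2 n1' n2' : ℕ) (m1 m2 m1' m2' z w : ℝ)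

/-- The entry has the given Bernstein indices. -/
def Ent.idx (F : Ent) (kr kw : ℕ) : Bool :=
  F.good && Nat.beq (E.dg F.i1 F.i2 F.i3 + E.dg F.j1 F.j2 F.j3 - 6) kr && Nat.beq (E.dg F.j1 F.j2 F.j3 - 2) kw

/-- All indices in a nested table are correct. -/
def goodN (N : List (ℕ × List (ℕ × List Ent))) : Bool :=
  N.all fun P => P.2.all fun Q => Q.2.all fun F => F.idx Q.1 P.1

theorem inner_scale (hm1 : 0 ≤ m1) (hm2 : 0 ≤ m2) (hm1' : 0 ≤ m1') (hm2' : 0 ≤ m2') (hz : 0 ≤ z) (hw : 0 ≤ w)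
    (kr kw : ℕ) (T : List Ent) (hT : T.all (fun F => F.idx kr kw) = true) :
    tblVal T ((((n1 : ℝ) * z + n2) / (2 * (1 + z))) ^ 2 * fS m1 m2 / fG m1 m2 ^ 2)
        (((((n1 : ℝ) * z + n2) / (2 * (1 + z)))) ^ 3 * fY m1 m2 / fG m1 m2 ^ 3)
        ((((n1 : ℝ) * z + n2) / (2 * (1 + z))) ^ 4 * fT m1 m2 / fG m1 m2 ^ 4)
        ((((n1' : ℝ) * w + n2') / (2 * (1 + w)) * (((n1 : ℝ) * z + n2) / (2 * (1 + z)))) ^ 2
          * fS m1' m2' / fG m1' m2' ^ 2)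
        ((((n1' : ℝ) * w + n2') / (2 * (1 + w)) * (((n1 : ℝ) * z + n2) / (2 * (1 + z)))) ^ 3
          * fY m1' m2' / fG m1' m2' ^ 3)
        ((((n1' : ℝ) * w + n2') / (2 * (1 + w)) * (((n1 : ℝ) * z + n2) / (2 * (1 + z)))) ^ 4
          * fT m1' m2' / fG m1' m2' ^ 4)
        * ((2 * (1 + z)) ^ 8 * (2 * (1 + w)) ^ 6 * fG m1 m2 ^ 8 * fG m1' m2' ^ 8)
      = (((n1 : ℝ) * z + n2) / (2 * (1 + z))) ^ 6 * (((n1' : ℝ) * w + n2') / (2 * (1 + w))) ^ 2 *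
        ((((n1 : ℝ) * z + n2) ^ kr * (2 * (1 + z)) ^ (8 - kr))
          * (((n1' : ℝ) * w + n2') ^ kw * (2 * (1 + w)) ^ (6 - kw))
          * evalR (ptC m1 m2 m1' m2' z w) (E.Inner T)) := by
  have hB : (2 * (1 + z)) ≠ 0 := by positivity
  have hB' : (2 * (1 + w)) ≠ 0 := by positivity
  have hG : fG m1 m2 ≠ 0 := by
    have : 0 < fG m1 m2 := by unfold fG; positivity
    exact this.ne'
  have hG' : fG m1' m2' ≠ 0 := by
    have : 0 < fG m1' m2' := by unfold fG; positivity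
    exact this.ne'
  induction T with
  | nil => simp [tblVal, E.Inner, evalR]
  | cons F L ih =>
    simp only [List.all_cons, Bool.and_eq_true] at hT
    obtain ⟨hF, hL⟩ := hT
    have e2 := ih hL
    simp only [Ent.idx, Bool.and_eq_true] at hF
    obtain ⟨⟨hg, hkr⟩, hkw⟩ := hF
    have hkr' := Nat.eq_of_beq_eq_true hkr
    have hkw' := Nat.eq_of_beq_eq_true hkw
    have e1 := term_scale F hg ((n1 : ℝ) * z + n2) _ ((n1' : ℝ) * w + n2') _ (fS m1 m2) (fY m1 m2) (fT m1 m2)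
      (fG m1 m2) (fS m1' m2') (fY m1' m2') (fT m1' m2') (fG m1' m2') hB hB' hG hG'
    rw [hkr', hkw'] at e1
    simp only [tblVal, List.map_cons, List.sum_cons] at e2 ⊢
    rw [add_mul, e1, e2]
    simp only [E.Inner, E.Tm, evalR, eval_cf]
    have h1 := eval_Hom (ptC m1 m2 m1' m2' z w) 0 1 F.i1 F.i2 F.i3
    have h2 := eval_Hom (ptC m1 m2 m1' m2' z w) 2 3 F.j1 F.j2 F.j3
    simp only [ptC] at h1 h2
    rw [h1, h2]
    ring

theorem tblVal_append (T U : List Ent) (s y t s' y' t' : ℝ) :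
    tblVal (T ++ U) s y t s' y' t' = tblVal T s y t s' y' t' + tblVal U s y t s' y' t' := by
  simp [tblVal, List.sum_append]

theorem mid_scale (hm1 : 0 ≤ m1) (hm2 : 0 ≤ m2) (hm1' : 0 ≤ m1') (hm2' : 0 ≤ m2') (hz : 0 ≤ z) (hw : 0 ≤ w)
    (kw : ℕ) (M : List (ℕ × List Ent)) (hM : (M.all fun Q => Q.2.all fun F => F.idx Q.1 kw) = true) :
    tblVal (M.flatMap fun P => P.2) (((((n1 : ℝ) * z + n2) / (2 * (1 + z)))) ^ 2 * fS m1 m2 / fG m1 m2 ^ 2)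
        (((((n1 : ℝ) * z + n2) / (2 * (1 + z)))) ^ 3 * fY m1 m2 / fG m1 m2 ^ 3)
        ((((n1 : ℝ) * z + n2) / (2 * (1 + z))) ^ 4 * fT m1 m2 / fG m1 m2 ^ 4)
        ((((n1' : ℝ) * w + n2') / (2 * (1 + w)) * (((n1 : ℝ) * z + n2) / (2 * (1 + z)))) ^ 2
          * fS m1' m2' / fG m1' m2' ^ 2)
        ((((n1' : ℝ) * w + n2') / (2 * (1 + w)) * (((n1 : ℝ) * z + n2) / (2 * (1 + z)))) ^ 3
          * fY m1' m2' / fG m1' m2' ^ 3)
        ((((n1' : ℝ) * w + n2') / (2 * (1 + w)) * (((n1 : ℝ) * z + n2) / (2 * (1 + z)))) ^ 4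
          * fT m1' m2' / fG m1' m2' ^ 4)
        * ((2 * (1 + z)) ^ 8 * (2 * (1 + w)) ^ 6 * fG m1 m2 ^ 8 * fG m1' m2' ^ 8)
      = (((n1 : ℝ) * z + n2) / (2 * (1 + z))) ^ 6 * (((n1' : ℝ) * w + n2') / (2 * (1 + w))) ^ 2 *
        (((n1' : ℝ) * w + n2') ^ kw * (2 * (1 + w)) ^ (6 - kw)
          * evalR (ptC m1 m2 m1' m2' z w) (E.Mid n1 n2 M)) := by
  induction M with
  | nil => simp [tblVal, E.Mid, evalR]
  | cons Q R ihR =>
    obtain ⟨kr, T⟩ := Q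
    simp only [List.all_cons, Bool.and_eq_true] at hM
    obtain ⟨hT, hR⟩ := hM
    have eR := ihR hR
    have eT := inner_scale n1 n2 n1' n2' m1 m2 m1' m2' z w hm1 hm2 hm1' hm2' hz hw kr kw T hT
    simp only [List.flatMap_cons, E.Mid, evalR]
    rw [tblVal_append, add_mul, eR, eT]
    have hB2 := eval_Brn (ptC m1 m2 m1' m2' z w) 4 n1 n2 8 kr
    simp only [ptC] at hB2
    rw [hB2]
    ring

/-- The rescaled table is the table expression. -/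
theorem table_scale (hm1 : 0 ≤ m1) (hm2 : 0 ≤ m2) (hm1' : 0 ≤ m1') (hm2' : 0 ≤ m2') (hz : 0 ≤ z) (hw : 0 ≤ w)
    (N : List (ℕ × List (ℕ × List Ent))) (hN : goodN N = true) :
    tblVal (flatN N) ((((n1 : ℝ) * z + n2) / (2 * (1 + z))) ^ 2 * fS m1 m2 / fG m1 m2 ^ 2)
        (((((n1 : ℝ) * z + n2) / (2 * (1 + z)))) ^ 3 * fY m1 m2 / fG m1 m2 ^ 3)
        ((((n1 : ℝ) * z + n2) / (2 * (1 + z))) ^ 4 * fT m1 m2 / fG m1 m2 ^ 4)
        ((((n1' : ℝ) * w + n2') / (2 * (1 + w)) * (((n1 : ℝ) * z + n2) / (2 * (1 + z)))) ^ 2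
          * fS m1' m2' / fG m1' m2' ^ 2)
        ((((n1' : ℝ) * w + n2') / (2 * (1 + w)) * (((n1 : ℝ) * z + n2) / (2 * (1 + z)))) ^ 3
          * fY m1' m2' / fG m1' m2' ^ 3)
        ((((n1' : ℝ) * w + n2') / (2 * (1 + w)) * (((n1 : ℝ) * z + n2) / (2 * (1 + z)))) ^ 4
          * fT m1' m2' / fG m1' m2' ^ 4)
        * ((2 * (1 + z)) ^ 8 * (2 * (1 + w)) ^ 6 * fG m1 m2 ^ 8 * fG m1' m2' ^ 8)
      = (((n1 : ℝ) * z + n2) / (2 * (1 + z))) ^ 6 * (((n1' : ℝ) * w + n2') / (2 * (1 + w))) ^ 2 *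
        evalR (ptC m1 m2 m1' m2' z w) (E.Top n1 n2 n1' n2' N) := by
  induction N with
  | nil => simp [flatN, tblVal, E.Top, evalR]
  | cons P L ih =>
    obtain ⟨kw, M⟩ := P
    simp only [goodN, List.all_cons, Bool.and_eq_true] at hN
    obtain ⟨hM, hL⟩ := hN
    have eL := ih hL
    have eM := mid_scale n1 n2 n1' n2' m1 m2 m1' m2' z w hm1 hm2 hm1' hm2' hz hw kw M hM
    simp only [flatN, E.Top, evalR]
    rw [tblVal_append, add_mul, eL, eM]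
    have hB := eval_Brn (ptC m1 m2 m1' m2' z w) 5 n1' n2' 6 kw
    simp only [ptC] at hB
    rw [hB]
    ring

end nested

end Vale.Agent.Lib.P154_q4
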