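import Mathlib

/-!
One-variable logarithm estimates behind the channel inequality.
-/

noncomputable section

namespace Vale.Agent.Lib.P154_q4

/-- The auxiliary function whose monotonicity drives the estimate. -/
def qQ (w : ℝ) : ℝ := w * (2 + w) / (2 * (1 + w)) - Real.log (1 + w) - w ^ 3 / 96

theorem qQ_zero : qQ 0 = 0 := by
  unfold qQ
  norm_num

theorem qQ_deriv {w : ℝ} (hw : -1 < w) :
    HasDerivAt qQ (w ^ 2 / (2 * (1 + w) ^ 2) - w ^ 2 / 32) w := by
  have h1 : (1 + w) ≠ 0 := by linarith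
  have h2 : (2 * (1 + w)) ≠ 0 := by positivity
  have hA : HasDerivAt (fun w : ℝ => w * (2 + w)) ((1 : ℝ) * (2 + w) + w * (0 + 1)) w :=
    (hasDerivAt_id' w).mul ((hasDerivAt_const w (2 : ℝ)).add (hasDerivAt_id' w))
  have hB : HasDerivAt (fun w : ℝ => 2 * (1 + w)) (2 * (0 + 1)) w :=
    ((hasDerivAt_const w (1 : ℝ)).add (hasDerivAt_id' w)).const_mul 2
  have hC : HasDerivAt (fun w : ℝ => Real.log (1 + w)) ((0 + 1) / (1 + w)) w :=
    ((hasDerivAt_const w (1 : ℝ)).add (hasDerivAt_id' w)).log h1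
  have hD : HasDerivAt (fun w : ℝ => w ^ 3 / 96) ((3 * w ^ 2 * 1) / 96) w := by
    have := (hasDerivAt_id' w).pow 3
    simpa using this.div_const 96
  have := ((hA.div hB h2).sub hC).sub hD
  refine this.congr_deriv ?_
  field_simp
  ring

theorem qQ_mono : MonotoneOn qQ (Set.Ioc (-1) 3) := by
  apply monotoneOn_of_deriv_nonneg (convex_Ioc _ _)
  · intro w hw
    exact (qQ_deriv hw.1).continuousAt.continuousWithinAt
  · intro w hw
    rw [interior_Ioc] at hw
    exact (qQ_deriv hw.1).differentiableAt.differentiableWithinAt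
  · intro w hw
    rw [interior_Ioc] at hw
    rw [(qQ_deriv hw.1).deriv]
    have h1 : 0 < 1 + w := by linarith [hw.1]
    have h2 : 1 + w ≤ 4 := by linarith [hw.2]
    have h3 : (1 + w) ^ 2 ≤ 16 := by nlinarith
    have h4 : 1 / 32 ≤ 1 / (2 * (1 + w) ^ 2) := by
      rw [div_le_div_iff₀ (by norm_num) (by positivity)]
      nlinarith
    have h5 : w ^ 2 * (1 / 32) ≤ w ^ 2 * (1 / (2 * (1 + w) ^ 2)) :=
      mul_le_mul_of_nonneg_left h4 (sq_nonneg w)
    have e1 : w ^ 2 / 32 = w ^ 2 * (1 / 32) := by ring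
    have e2 : w ^ 2 / (2 * (1 + w) ^ 2) = w ^ 2 * (1 / (2 * (1 + w) ^ 2)) := by ring
    rw [e1, e2]
    linarith

/-- The fourth-power lower bound for `g`. -/
theorem g_lower {w : ℝ} (h1 : -1 < w) (h3 : w ≤ 3) :
    w ^ 4 / 48 ≤ w ^ 2 + w ^ 2 / (1 + w) - 2 * w * Real.log (1 + w) := by
  have hpos : 0 < 1 + w := by linarith
  have e : w ^ 2 + w ^ 2 / (1 + w) - 2 * w * Real.log (1 + w) - w ^ 4 / 48 = 2 * w * qQ w := by
    unfold qQ
    field_simp
    ring
  have key : 0 ≤ w * qQ w := by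
    have m0 : (0 : ℝ) ∈ Set.Ioc (-1 : ℝ) 3 := by constructor <;> norm_num
    have mw : w ∈ Set.Ioc (-1 : ℝ) 3 := ⟨h1, h3⟩
    rcases le_total 0 w with h | h
    · have := qQ_mono m0 mw h
      rw [qQ_zero] at this
      exact mul_nonneg h this
    · have := qQ_mono mw m0 h
      rw [qQ_zero] at this
      exact mul_nonneg_of_nonpos_of_nonpos h this
  nlinarith

/-- The function whose monotonicity in the channel parameter gives the estimate. -/
def phiL (t r : ℝ) : ℝ := t ^ 2 / r - t * Real.log (1 + r * t) / r ^ 2 + r * (t ^ 4 / 48)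

theorem phiL_deriv {t r : ℝ} (hr : 0 < r) (h1 : 0 < 1 + r * t) :
    HasDerivAt (phiL t)
      (-t ^ 2 / r ^ 2 - t * (t / (1 + r * t)) / r ^ 2 + 2 * t * Real.log (1 + r * t) / r ^ 3
        + t ^ 4 / 48) r := by
  have hr' : r ≠ 0 := hr.ne'
  have h1' : 1 + r * t ≠ 0 := h1.ne'
  have hA : HasDerivAt (fun r : ℝ => t ^ 2 / r) (-t ^ 2 / r ^ 2) r := by
    have := (hasDerivAt_inv hr').const_mul (t ^ 2)
    refine (this.congr_deriv ?_).congr_of_eventuallyEq ?_
    · field_simp
    · exact Filter.Eventually.of_forall fun x => by simp [div_eq_mul_inv]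
  have hL : HasDerivAt (fun r : ℝ => Real.log (1 + r * t)) (t / (1 + r * t)) r := by
    have h : HasDerivAt (fun r : ℝ => 1 + r * t) (0 + 1 * t) r :=
      (hasDerivAt_const r (1 : ℝ)).add ((hasDerivAt_id' r).mul_const t)
    have := h.log h1'
    simpa using this
  have hS : HasDerivAt (fun r : ℝ => r ^ 2) (2 * r) r := by
    simpa using hasDerivAt_pow 2 r
  have hB : HasDerivAt (fun r : ℝ => t * Real.log (1 + r * t) / r ^ 2)
      ((t * (t / (1 + r * t)) * r ^ 2 - t * Real.log (1 + r * t) * (2 * r)) / (r ^ 2) ^ 2) r :=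
    (hL.const_mul t).div hS (by positivity)
  have hC : HasDerivAt (fun r : ℝ => r * (t ^ 4 / 48)) (1 * (t ^ 4 / 48)) r :=
    (hasDerivAt_id' r).mul_const _
  have := (hA.sub hB).add hC
  refine this.congr_deriv ?_
  field_simp
  ring

theorem phiL_anti {t : ℝ} (h1 : -1 < t) (h3 : t ≤ 3) :
    AntitoneOn (phiL t) (Set.Ioc 0 1) := by
  have hbase : ∀ r ∈ Set.Ioc (0 : ℝ) 1, 0 < 1 + r * t ∧ r * t ≤ 3 := by
    intro r hr
    have hr0 := hr.1
    have hr1 := hr.2
    constructor
    · have : -1 * r ≤ t * r := mul_le_mul_of_nonneg_right h1.le hr0.le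
      nlinarith
    · have : r * t ≤ r * 3 := mul_le_mul_of_nonneg_left h3 hr0.le
      nlinarith
  apply antitoneOn_of_deriv_nonpos (convex_Ioc _ _)
  · intro r hr
    exact (phiL_deriv hr.1 (hbase r hr).1).continuousAt.continuousWithinAt
  · intro r hr
    rw [interior_Ioc] at hr
    exact (phiL_deriv hr.1 (hbase r ⟨hr.1, hr.2.le⟩).1).differentiableAt.differentiableWithinAt
  · intro r hr
    rw [interior_Ioc] at hr
    have hr0 := hr.1
    obtain ⟨hb1, hb3⟩ := hbase r ⟨hr.1, hr.2.le⟩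
    rw [(phiL_deriv hr0 hb1).deriv]
    have hg := g_lower (w := r * t) (by linarith) hb3
    have e : -t ^ 2 / r ^ 2 - t * (t / (1 + r * t)) / r ^ 2 + 2 * t * Real.log (1 + r * t) / r ^ 3
        + t ^ 4 / 48
        = -(((r * t) ^ 2 + (r * t) ^ 2 / (1 + r * t) - 2 * (r * t) * Real.log (1 + r * t)
            - (r * t) ^ 4 / 48) / r ^ 4) := by
      field_simp
      ring
    rw [e]
    have : 0 ≤ ((r * t) ^ 2 + (r * t) ^ 2 / (1 + r * t) - 2 * (r * t) * Real.log (1 + r * t)
            - (r * t) ^ 4 / 48) / r ^ 4 := div_nonneg (by linarith) (by positivity)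
    linarith

/-- The channel inequality, with slack. -/
theorem chan_log {t r : ℝ} (h1 : -1 < t) (h3 : t ≤ 3) (hr0 : 0 ≤ r) (hr1 : r ≤ 1) :
    r * t * Real.log (1 + r * t)
      ≤ r ^ 2 * (1 - r) * t ^ 2 + r ^ 3 * (t * Real.log (1 + t)) - r ^ 3 * (1 - r) / 48 * t ^ 4 := by
  rcases hr0.eq_or_lt with rfl | hr
  · simp
  · have := phiL_anti h1 h3 (a := r) (b := 1) ⟨hr, hr1⟩ ⟨one_pos, le_rfl⟩ hr1
    unfold phiL at this
    norm_num at this
    have hr3 : 0 < r ^ 3 := by positivity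
    have := mul_le_mul_of_nonneg_left this hr3.le
    have e : r ^ 3 * (t ^ 2 / r - t * Real.log (1 + r * t) / r ^ 2 + r * (t ^ 4 / 48))
        = r ^ 2 * t ^ 2 - r * t * Real.log (1 + r * t) + r ^ 4 * (t ^ 4 / 48) := by
      field_simp
    rw [e] at this
    nlinarith

/-- Upper bound for `w log (1 + w)` on a half line away from `-1`. -/
theorem mul_log_le {w c : ℝ} (hc0 : 0 < c) (hc1 : c ≤ 1) (hw : c - 1 ≤ w) :
    w * Real.log (1 + w) ≤ w ^ 2 / c := by
  have hpos : 0 < 1 + w := by linarith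
  rcases le_total 0 w with h | h
  · have h1 : Real.log (1 + w) ≤ w := by
      have := Real.log_le_sub_one_of_pos hpos
      linarith
    have h2 : w * Real.log (1 + w) ≤ w * w := mul_le_mul_of_nonneg_left h1 h
    have h3 : w ^ 2 ≤ w ^ 2 / c := by
      rw [le_div_iff₀ hc0]
      nlinarith [sq_nonneg w]
    nlinarith
  · -- here `log (1 + w) ≥ 1 - 1 / (1 + w)`
    have h1 : w / (1 + w) ≤ Real.log (1 + w) := by
      have := Real.one_sub_inv_le_log_of_pos hpos
      have e : 1 - (1 + w)⁻¹ = w / (1 + w) := by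
        field_simp
        ring
      rw [← e]
      exact this
    have h2 : w * Real.log (1 + w) ≤ w * (w / (1 + w)) := mul_le_mul_of_nonpos_left h1 h
    have h3 : w * (w / (1 + w)) ≤ w ^ 2 / c := by
      have e : w * (w / (1 + w)) = w ^ 2 / (1 + w) := by ring
      rw [e]
      exact div_le_div_of_nonneg_left (sq_nonneg w) hc0 (by linarith)
    linarith

/-- Nonnegativity of `w log (1 + w)`. -/
theorem mul_log_nonneg {w : ℝ} (hw : -1 < w) : 0 ≤ w * Real.log (1 + w) := by
  rcases le_total 0 w with h | h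
  · exact mul_nonneg h (Real.log_nonneg (by linarith))
  · exact mul_nonneg_of_nonpos_of_nonpos h (Real.log_nonpos (by linarith) (by linarith))

end Vale.Agent.Lib.P154_q4
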