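import Vale.Agent.Lib.P154_q4.Defs
import Vale.Agent.Lib.P154_q4.Sig4Log

/-!
Pointwise facts on a vector of four numbers: normalized coordinates, the channel map, and
bounds on the weight function.
-/

noncomputable section

namespace Vale.Agent.Lib.P154_q4

/-- The channel map on a vector. -/
def chanV (lam : ℝ) (v : Fin 4 → ℝ) : Fin 4 → ℝ := fun i => lam * v i + (1 - lam) * mean4 v

/-- The normalized coordinates: `v i = mean4 v * (1 + uC v i)`. -/
def uC (v : Fin 4 → ℝ) (i : Fin 4) : ℝ := v i / mean4 v - 1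

theorem nu_nonneg {s : ℝ} (h0 : 0 ≤ s) (h3 : s ≤ 3) : 0 ≤ nu s := by
  unfold nu
  have : 0 ≤ s * (1 - s / 3) := mul_nonneg h0 (by linarith)
  linarith

theorem nu_le_one (s : ℝ) : nu s ≤ 1 := by
  unfold nu
  nlinarith [sq_nonneg (1 - 2 * s / 3)]

section
variable {v : Fin 4 → ℝ}

theorem mean4_pos_of (h : ∀ i, 0 < v i) : 0 < mean4 v := by
  unfold mean4
  have h0 := h 0
  have h1 := h 1
  have h2 := h 2
  have h3 := h 3
  positivity

theorem uC_mul (hm : 0 < mean4 v) (i : Fin 4) : mean4 v * (1 + uC v i) = v i := by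
  unfold uC
  field_simp
  ring

theorem uC_sum (hm : 0 < mean4 v) : uC v 0 + uC v 1 + uC v 2 + uC v 3 = 0 := by
  unfold uC
  have e : v 0 + v 1 + v 2 + v 3 = 4 * mean4 v := by unfold mean4; ring
  have : v 0 / mean4 v - 1 + (v 1 / mean4 v - 1) + (v 2 / mean4 v - 1) + (v 3 / mean4 v - 1)
      = (v 0 + v 1 + v 2 + v 3) / mean4 v - 4 := by ring
  rw [this, e]
  field_simp
  ring

theorem F4_mean (hm : 0 < mean4 v) : F4 v = mean4 v * (1 + sp v) := by
  unfold sp
  field_simp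
  ring

theorem sp_uC (hm : 0 < mean4 v) : sp v = (uC v 0 ^ 2 + uC v 1 ^ 2 + uC v 2 ^ 2 + uC v 3 ^ 2) / 4 := by
  have hS : v 0 + v 1 + v 2 + v 3 ≠ 0 := by
    have : 0 < v 0 + v 1 + v 2 + v 3 := by
      have e : mean4 v = (v 0 + v 1 + v 2 + v 3) / 4 := rfl
      rw [e] at hm
      linarith
    exact this.ne'
  unfold sp uC F4 mean4
  field_simp
  ring

theorem Dp_uC (hm : 0 < mean4 v) : Dp v = mean4 v * ((uC v 0 * Real.log (1 + uC v 0)
    + uC v 1 * Real.log (1 + uC v 1) + uC v 2 * Real.log (1 + uC v 2)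
    + uC v 3 * Real.log (1 + uC v 3)) / 4) := by
  have e1 : ∀ i, v i - mean4 v = mean4 v * uC v i := fun i => by
    unfold uC
    field_simp
  have e2 : ∀ i, v i / mean4 v = 1 + uC v i := fun i => by
    unfold uC
    ring
  unfold Dp
  rw [e1, e1, e1, e1, e2, e2, e2, e2]
  ring

theorem uC_gt {i : Fin 4} (hm : 0 < mean4 v) (hp : 0 < v i) : -1 < uC v i := by
  unfold uC
  have : 0 < v i / mean4 v := div_pos hp hm
  linarith

theorem uC_ge {i : Fin 4} (hm : 0 < mean4 v) (hp : 0 ≤ v i) : -1 ≤ uC v i := by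
  unfold uC
  have : 0 ≤ v i / mean4 v := div_nonneg hp hm.le
  linarith

theorem uC_le (hm : 0 < mean4 v) (hv : ∀ i, 0 ≤ v i) (i : Fin 4) : uC v i ≤ 3 := by
  unfold uC
  have : v i ≤ 4 * mean4 v := by
    have e : 4 * mean4 v = v 0 + v 1 + v 2 + v 3 := by unfold mean4; ring
    rw [e]
    have h0 := hv 0
    have h1 := hv 1
    have h2 := hv 2
    have h3 := hv 3
    fin_cases i <;> simp <;> linarith
  have h2 : v i / mean4 v ≤ 4 := by
    rw [div_le_iff₀ hm]
    linarith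
  linarith

theorem sp_nonneg (hm : 0 < mean4 v) : 0 ≤ sp v := by
  rw [sp_uC hm]
  positivity

theorem sp_le_three (hm : 0 < mean4 v) (hv : ∀ i, 0 ≤ v i) : sp v ≤ 3 := by
  rw [sp_uC hm]
  have hs := uC_sum hm
  have key : ∀ i, uC v i ^ 2 ≤ 2 * uC v i + 3 := fun i => by
    have h1 := uC_ge hm (hv i)
    have h2 := uC_le hm hv i
    nlinarith
  have h0 := key 0
  have h1 := key 1
  have h2 := key 2
  have h3 := key 3
  linarith

theorem mean4_chanV (lam : ℝ) (v : Fin 4 → ℝ) : mean4 (chanV lam v) = mean4 v := by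
  unfold chanV
  rw [show mean4 (fun i => lam * v i + (1 - lam) * mean4 v)
      = (lam * v 0 + (1 - lam) * mean4 v + (lam * v 1 + (1 - lam) * mean4 v)
        + (lam * v 2 + (1 - lam) * mean4 v) + (lam * v 3 + (1 - lam) * mean4 v)) / 4 from rfl]
  unfold mean4
  ring

theorem uC_chanV (lam : ℝ) (hm : 0 < mean4 v) (i : Fin 4) : uC (chanV lam v) i = lam * uC v i := by
  unfold uC
  rw [mean4_chanV]
  unfold chanV
  field_simp
  ring

theorem sp_chanV (lam : ℝ) (hm : 0 < mean4 v) : sp (chanV lam v) = lam ^ 2 * sp v := by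
  have hm' : 0 < mean4 (chanV lam v) := by rwa [mean4_chanV]
  rw [sp_uC hm', sp_uC hm, uC_chanV lam hm, uC_chanV lam hm, uC_chanV lam hm, uC_chanV lam hm]
  ring

theorem F4_chanV (lam : ℝ) (hm : 0 < mean4 v) :
    F4 (chanV lam v) = lam ^ 2 * F4 v + (1 - lam ^ 2) * mean4 v := by
  have hm' : 0 < mean4 (chanV lam v) := by rwa [mean4_chanV]
  rw [F4_mean hm', F4_mean hm, sp_chanV lam hm, mean4_chanV]
  ring

theorem Dp_chanV_eq (lam : ℝ) (hm : 0 < mean4 v) : Dp (chanV lam v) = mean4 v *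
    ((lam * uC v 0 * Real.log (1 + lam * uC v 0) + lam * uC v 1 * Real.log (1 + lam * uC v 1)
      + lam * uC v 2 * Real.log (1 + lam * uC v 2) + lam * uC v 3 * Real.log (1 + lam * uC v 3)) / 4) := by
  have hm' : 0 < mean4 (chanV lam v) := by rwa [mean4_chanV]
  rw [Dp_uC hm', mean4_chanV, uC_chanV lam hm, uC_chanV lam hm, uC_chanV lam hm, uC_chanV lam hm]

/-- The channel estimate on the relative-entropy term, with a free linearization parameter. -/
theorem Dp_chanV_le (hv : ∀ i, 0 < v i) {lam : ℝ} (h0 : 0 ≤ lam) (h1 : lam ≤ 1) (a : ℝ) :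
    Dp (chanV lam v) ≤ lam ^ 2 * (1 - lam) * (mean4 v * sp v) + lam ^ 3 * Dp v
      - lam ^ 3 * (1 - lam) / 48 * (mean4 v * (2 * a * sp v - a ^ 2)) := by
  have hm := mean4_pos_of hv
  have hnn : ∀ i, 0 ≤ v i := fun i => (hv i).le
  rw [Dp_chanV_eq lam hm, Dp_uC hm, sp_uC hm]
  have key : ∀ i, lam * uC v i * Real.log (1 + lam * uC v i)
      ≤ lam ^ 2 * (1 - lam) * uC v i ^ 2 + lam ^ 3 * (uC v i * Real.log (1 + uC v i))
        - lam ^ 3 * (1 - lam) / 48 * (2 * a * uC v i ^ 2 - a ^ 2) := fun i => by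
    have h2 := chan_log (uC_gt hm (hv i)) (uC_le hm hnn i) h0 h1
    have h3 : 2 * a * uC v i ^ 2 - a ^ 2 ≤ uC v i ^ 4 := by nlinarith [sq_nonneg (uC v i ^ 2 - a)]
    have h4 : 0 ≤ lam ^ 3 * (1 - lam) / 48 := by
      have : 0 ≤ 1 - lam := by linarith
      positivity
    have h5 := mul_le_mul_of_nonneg_left h3 h4
    linarith
  have k0 := key 0
  have k1 := key 1
  have k2 := key 2
  have k3 := key 3
  have := mul_le_mul_of_nonneg_left (add_le_add (add_le_add (add_le_add k0 k1) k2) k3)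
    (by positivity : 0 ≤ mean4 v / 4)
  nlinarith [this]

/-- A crude upper bound after the channel, also valid when some entries vanish. -/
theorem Dp_chanV_bound (hm : 0 < mean4 v) (hv : ∀ i, 0 ≤ v i) {lam : ℝ} (h0 : 0 ≤ lam) (h1 : lam < 1) :
    Dp (chanV lam v) ≤ lam ^ 2 / (1 - lam) * (mean4 v * sp v) := by
  rw [Dp_chanV_eq lam hm, sp_uC hm]
  have hc : 0 < 1 - lam := by linarith
  have key : ∀ i, lam * uC v i * Real.log (1 + lam * uC v i)
      ≤ lam ^ 2 / (1 - lam) * uC v i ^ 2 := fun i => by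
    have h2 := uC_ge hm (hv i)
    have h3 : 1 - lam - 1 ≤ lam * uC v i := by nlinarith
    have h4 := mul_log_le hc (by linarith) h3
    have e : lam ^ 2 / (1 - lam) * uC v i ^ 2 = (lam * uC v i) ^ 2 / (1 - lam) := by ring
    rw [e]
    exact h4
  have k0 := key 0
  have k1 := key 1
  have k2 := key 2
  have k3 := key 3
  have := mul_le_mul_of_nonneg_left (add_le_add (add_le_add (add_le_add k0 k1) k2) k3)
    (by positivity : 0 ≤ mean4 v / 4)
  nlinarith [this]

theorem Dp_chanV_nonneg (hm : 0 < mean4 v) (hv : ∀ i, 0 ≤ v i) {lam : ℝ} (h0 : 0 ≤ lam) (h1 : lam < 1) :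
    0 ≤ Dp (chanV lam v) := by
  rw [Dp_chanV_eq lam hm]
  have key : ∀ i, 0 ≤ lam * uC v i * Real.log (1 + lam * uC v i) := fun i => by
    have h2 := uC_ge hm (hv i)
    exact mul_log_nonneg (by nlinarith)
  have k0 := key 0
  have k1 := key 1
  have k2 := key 2
  have k3 := key 3
  positivity

theorem Dp_nonneg (hv : ∀ i, 0 < v i) : 0 ≤ Dp v := by
  have hm := mean4_pos_of hv
  rw [Dp_uC hm]
  have key : ∀ i, 0 ≤ uC v i * Real.log (1 + uC v i) := fun i => mul_log_nonneg (uC_gt hm (hv i))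
  have k0 := key 0
  have k1 := key 1
  have k2 := key 2
  have k3 := key 3
  positivity

/-- Lower bound of the weight after the channel. -/
theorem nu_chanV_ge (hm : 0 < mean4 v) (hv : ∀ i, 0 ≤ v i) {lam : ℝ} :
    4 / 3 * (lam ^ 2 * (1 - lam ^ 2)) * sp v ≤ nu (sp (chanV lam v)) := by
  rw [sp_chanV lam hm]
  unfold nu
  have h0 := sp_nonneg hm
  have h3 := sp_le_three hm hv
  have hl : 0 ≤ lam ^ 2 := sq_nonneg lam
  have : 0 ≤ lam ^ 2 * sp v * (lam ^ 2 * (3 - sp v)) :=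
    mul_nonneg (mul_nonneg hl h0) (mul_nonneg hl (by linarith))
  nlinarith

/-- Positive entries of the channel output. -/
theorem chanV_pos (hm : 0 < mean4 v) (hv : ∀ i, 0 ≤ v i) {lam : ℝ} (h0 : 0 ≤ lam) (h1 : lam < 1)
    (i : Fin 4) : 0 < chanV lam v i := by
  unfold chanV
  have h2 : 0 ≤ lam * v i := mul_nonneg h0 (hv i)
  have h3 : 0 < (1 - lam) * mean4 v := mul_pos (by linarith) hm
  linarith

/-- The logarithmic form of the entropy term. -/
theorem Dp_log (hv : ∀ i, 0 < v i) : Dp v = ((v 0 - mean4 v) * Real.log (v 0)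
    + (v 1 - mean4 v) * Real.log (v 1) + (v 2 - mean4 v) * Real.log (v 2)
    + (v 3 - mean4 v) * Real.log (v 3)) / 4 := by
  have hm := mean4_pos_of hv
  unfold Dp
  have e : ∀ i, Real.log (v i / mean4 v) = Real.log (v i) - Real.log (mean4 v) := fun i =>
    Real.log_div (hv i).ne' hm.ne'
  rw [e, e, e, e]
  have e2 : v 0 + v 1 + v 2 + v 3 = 4 * mean4 v := by unfold mean4; ring
  have e3 : (v 0 - mean4 v) + (v 1 - mean4 v) + (v 2 - mean4 v) + (v 3 - mean4 v) = 0 := by linarith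
  have e4 := congrArg (fun x => x * Real.log (mean4 v)) e3
  simp only [zero_mul] at e4
  linarith

end

end Vale.Agent.Lib.P154_q4
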